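import Mathlib
import Crest.Prelude.Def_QState
import Crest.Prelude.Def_QChannel

/-!
# R1: basic API for `Crest.Quantum.vnEntropy`

`vnEntropy A = ∑ negMulLog (eigenvalues)` for Hermitian `A` (and `0` otherwise).  Everything here is
derived from the multiset of roots of the characteristic polynomial and from the "spectral bridge"
`vnEntropy (U * diagonal c * star U) = ∑ negMulLog (c i)`.
-/

set_option autoImplicit false

namespace Crest.Agent.GAD

open Crest.Quantum Matrix
open scoped ComplexOrder

variable {d d' : Type*} [Fintype d] [DecidableEq d] [Fintype d'] [DecidableEq d']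

/-- (E0) unfolding: the entropy of a Hermitian matrix as a sum of `negMulLog` of eigenvalues. -/
theorem vnEntropy_eq_sum {A : Matrix d d ℂ} (hA : A.IsHermitian) :
    vnEntropy A = ∑ i, Real.negMulLog (hA.eigenvalues i) := by
  unfold vnEntropy
  rw [dif_pos hA, ← Finset.sum_neg_distrib]
  refine Finset.sum_congr rfl fun i _ => ?_
  simp [Real.negMulLog]

theorem vnEntropy_of_not_isHermitian {A : Matrix d d ℂ} (hA : ¬ A.IsHermitian) :
    vnEntropy A = 0 := by
  unfold vnEntropy
  rw [dif_neg hA]

/-- (E1) the entropy through the roots of the characteristic polynomial. -/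
theorem vnEntropy_eq_roots {A : Matrix d d ℂ} (hA : A.IsHermitian) :
    vnEntropy A = (A.charpoly.roots.map fun z : ℂ => Real.negMulLog z.re).sum := by
  rw [vnEntropy_eq_sum hA, hA.roots_charpoly_eq_eigenvalues, Multiset.map_map]
  rfl

/-- (E2) Hermitian matrices (possibly on different index types) with the same characteristic
polynomial have the same entropy. -/
theorem vnEntropy_of_charpoly_eq {A : Matrix d d ℂ} {B : Matrix d' d' ℂ}
    (hA : A.IsHermitian) (hB : B.IsHermitian) (h : A.charpoly = B.charpoly) :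
    vnEntropy A = vnEntropy B := by
  rw [vnEntropy_eq_roots hA, vnEntropy_eq_roots hB, h]

/-- conjugation by a unitary preserves (and reflects) hermiticity -/
theorem isHermitian_unitary_conj_iff {U : Matrix d d ℂ} (hU : U ∈ Matrix.unitaryGroup d ℂ)
    (A : Matrix d d ℂ) : (U * A * star U).IsHermitian ↔ A.IsHermitian := by
  have h1 : star U * U = 1 := (Matrix.mem_unitaryGroup_iff').1 hU
  have h2 : U * star U = 1 := (Matrix.mem_unitaryGroup_iff).1 hU
  constructor
  · intro h
    have : A = star U * (U * A * star U) * star (star U) := by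
      rw [star_star]
      calc A = (star U * U) * A * (star U * U) := by rw [h1]; simp
        _ = _ := by simp only [Matrix.mul_assoc]
    rw [this]
    exact Matrix.isHermitian_mul_mul_conjTranspose _ h
  · intro h
    exact Matrix.isHermitian_mul_mul_conjTranspose _ h

/-- (E5) unitary invariance of the entropy. -/
theorem vnEntropy_unitary_conj {U : Matrix d d ℂ} (hU : U ∈ Matrix.unitaryGroup d ℂ)
    (A : Matrix d d ℂ) : vnEntropy (U * A * star U) = vnEntropy A := by
  have h1 : star U * U = 1 := (Matrix.mem_unitaryGroup_iff').1 hU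
  by_cases hA : A.IsHermitian
  · refine vnEntropy_of_charpoly_eq ((isHermitian_unitary_conj_iff hU A).2 hA) hA ?_
    rw [Matrix.charpoly_mul_comm, ← Matrix.mul_assoc, h1, Matrix.one_mul]
  · rw [vnEntropy_of_not_isHermitian hA,
      vnEntropy_of_not_isHermitian (fun h => hA ((isHermitian_unitary_conj_iff hU A).1 h))]

/-- entropy of a real diagonal matrix -/
theorem vnEntropy_diagonal (c : d → ℝ) :
    vnEntropy (Matrix.diagonal fun i => (c i : ℂ)) = ∑ i, Real.negMulLog (c i) := by
  have hD : (Matrix.diagonal fun i => (c i : ℂ)).IsHermitian := by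
    refine Matrix.isHermitian_diagonal_iff.2 fun i => ?_
    simp [isSelfAdjoint_iff]
  rw [vnEntropy_eq_roots hD, Matrix.charpoly_diagonal, Polynomial.roots_prod]
  · simp only [Polynomial.roots_X_sub_C, Multiset.bind_singleton, Multiset.map_map]
    simp
  · simp [Finset.prod_ne_zero_iff, Polynomial.X_sub_C_ne_zero]

/-- (E3) spectral bridge. -/
theorem vnEntropy_conj_diagonal {U : Matrix d d ℂ} (hU : U ∈ Matrix.unitaryGroup d ℂ)
    (c : d → ℝ) :
    vnEntropy (U * Matrix.diagonal (fun i => (c i : ℂ)) * star U) = ∑ i, Real.negMulLog (c i) := by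
  rw [vnEntropy_unitary_conj hU, vnEntropy_diagonal]

/-- (E4) invariance under reindexing. -/
theorem vnEntropy_reindex (e : d ≃ d') (A : Matrix d d ℂ) :
    vnEntropy (Matrix.reindex e e A) = vnEntropy A := by
  by_cases hA : A.IsHermitian
  · refine vnEntropy_of_charpoly_eq ?_ hA (Matrix.charpoly_reindex e A)
    exact hA.submatrix _
  · rw [vnEntropy_of_not_isHermitian hA, vnEntropy_of_not_isHermitian]
    intro h
    apply hA
    have : A = (Matrix.reindex e e A).submatrix e e := by
      ext i j; simp
    rw [this]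
    exact h.submatrix _

theorem vnEntropy_submatrix_equiv (e : d' ≃ d) (A : Matrix d d ℂ) :
    vnEntropy (A.submatrix e e) = vnEntropy A := by
  have := vnEntropy_reindex e.symm A
  simpa using this

/-- spectral theorem in plain matrix form -/
theorem exists_unitary_diagonal {A : Matrix d d ℂ} (hA : A.IsHermitian) :
    ∃ U ∈ Matrix.unitaryGroup d ℂ,
      A = U * Matrix.diagonal (fun i => (hA.eigenvalues i : ℂ)) * star U := by
  refine ⟨hA.eigenvectorUnitary, hA.eigenvectorUnitary.2, ?_⟩
  conv_lhs => rw [hA.spectral_theorem]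
  rfl

theorem trace_re_eq_sum_eigenvalues {A : Matrix d d ℂ} (hA : A.IsHermitian) :
    A.trace.re = ∑ i, hA.eigenvalues i := by
  rw [hA.trace_eq_sum_eigenvalues]
  simp

theorem vnEntropy_zero : vnEntropy (0 : Matrix d d ℂ) = 0 := by
  have := vnEntropy_diagonal (d := d) (fun _ => (0 : ℝ))
  simpa using this

/-- (E6) scaling by a real number (any sign, with `Real.log`'s conventions). -/
theorem vnEntropy_smul {A : Matrix d d ℂ} (hA : A.IsHermitian) (c : ℝ) :
    vnEntropy ((c : ℂ) • A) = c * vnEntropy A + Real.negMulLog c * A.trace.re := by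
  obtain ⟨U, hU, hAU⟩ := exists_unitary_diagonal hA
  have h1 : (c : ℂ) • A
      = U * Matrix.diagonal (fun i => ((c * hA.eigenvalues i : ℝ) : ℂ)) * star U := by
    have hD : Matrix.diagonal (fun i => ((c * hA.eigenvalues i : ℝ) : ℂ))
        = (c : ℂ) • Matrix.diagonal (fun i => (hA.eigenvalues i : ℂ)) := by
      ext i j
      by_cases hij : i = j
      · subst hij; simp
      · simp [Matrix.diagonal_apply_ne _ hij]
    conv_lhs => rw [hAU]
    rw [hD, Matrix.mul_smul, Matrix.smul_mul]
  rw [h1, vnEntropy_conj_diagonal hU, vnEntropy_eq_sum hA, trace_re_eq_sum_eigenvalues hA,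
    Finset.mul_sum, Finset.mul_sum, ← Finset.sum_add_distrib]
  refine Finset.sum_congr rfl fun i _ => ?_
  rw [Real.negMulLog_mul]
  ring

section blocks

variable {m n k : Type*} [Fintype m] [DecidableEq m] [Fintype n] [DecidableEq n]
  [Fintype k] [DecidableEq k]

/-- (E7a) direct sum of two blocks. -/
theorem vnEntropy_fromBlocks_diag {A : Matrix m m ℂ} {B : Matrix n n ℂ}
    (hA : A.IsHermitian) (hB : B.IsHermitian) :
    vnEntropy (Matrix.fromBlocks A 0 0 B) = vnEntropy A + vnEntropy B := by
  have hAB : (Matrix.fromBlocks A (0 : Matrix m n ℂ) 0 B).IsHermitian := by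
    rw [Matrix.isHermitian_fromBlocks_iff]
    exact ⟨hA, by simp, by simp, hB⟩
  rw [vnEntropy_eq_roots hAB, vnEntropy_eq_roots hA, vnEntropy_eq_roots hB,
    Matrix.charpoly_fromBlocks_zero₁₂, Polynomial.roots_mul, Multiset.map_add, Multiset.sum_add]
  exact mul_ne_zero (Matrix.charpoly_monic A).ne_zero (Matrix.charpoly_monic B).ne_zero

/-- (E8) `S(T T*) = S(T* T)` for a rectangular `T`. -/
theorem vnEntropy_mul_conjTranspose_comm (T : Matrix m n ℂ) :
    vnEntropy (T * Tᴴ) = vnEntropy (Tᴴ * T) := by
  have h1 : (T * Tᴴ).IsHermitian := Matrix.isHermitian_mul_conjTranspose_self T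
  have h2 : (Tᴴ * T).IsHermitian := Matrix.isHermitian_conjTranspose_mul_self T
  have key := Matrix.charpoly_mul_comm' T Tᴴ
  have hr := congrArg Polynomial.roots key
  rw [Polynomial.roots_mul, Polynomial.roots_mul, Polynomial.roots_X_pow,
    Polynomial.roots_X_pow] at hr
  · have hs := congrArg (fun s : Multiset ℂ => (s.map fun z : ℂ => Real.negMulLog z.re).sum) hr
    simp only [Multiset.map_add, Multiset.sum_add, Multiset.map_nsmul, Multiset.sum_nsmul,
      Multiset.map_singleton, Multiset.sum_singleton, Complex.zero_re, Real.negMulLog_zero,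
      smul_zero, zero_add] at hs
    rw [vnEntropy_eq_roots h1, vnEntropy_eq_roots h2]
    exact hs
  · exact mul_ne_zero (pow_ne_zero _ Polynomial.X_ne_zero) (Matrix.charpoly_monic _).ne_zero
  · exact mul_ne_zero (pow_ne_zero _ Polynomial.X_ne_zero) (Matrix.charpoly_monic _).ne_zero

/-- (E7b) entropy of Mathlib's `blockDiagonal` (index `d × k`, block index second). -/
theorem vnEntropy_blockDiagonal (A : k → Matrix d d ℂ) (hA : ∀ i, (A i).IsHermitian) :
    vnEntropy (Matrix.blockDiagonal A) = ∑ i, vnEntropy (A i) := by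
  choose U hU hAU using fun i => exists_unitary_diagonal (hA i)
  have hUU : Matrix.blockDiagonal U ∈ Matrix.unitaryGroup (d × k) ℂ := by
    rw [Matrix.mem_unitaryGroup_iff, Matrix.star_eq_conjTranspose,
      Matrix.blockDiagonal_conjTranspose, ← Matrix.blockDiagonal_mul]
    have : (fun i => U i * (U i)ᴴ) = 1 := by
      funext i
      exact (Matrix.mem_unitaryGroup_iff).1 (hU i)
    rw [this, Matrix.blockDiagonal_one]
  have h1 : Matrix.blockDiagonal A = Matrix.blockDiagonal U
      * Matrix.diagonal (fun p : d × k => (((hA p.2).eigenvalues p.1 : ℝ) : ℂ))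
      * star (Matrix.blockDiagonal U) := by
    have hD : Matrix.diagonal (fun p : d × k => (((hA p.2).eigenvalues p.1 : ℝ) : ℂ))
        = Matrix.blockDiagonal (fun i => Matrix.diagonal
            (fun j => (((hA i).eigenvalues j : ℝ) : ℂ))) := by
      rw [Matrix.blockDiagonal_diagonal]
    rw [Matrix.star_eq_conjTranspose, Matrix.blockDiagonal_conjTranspose, hD,
      ← Matrix.blockDiagonal_mul, ← Matrix.blockDiagonal_mul]
    congr 1
    funext i
    exact hAU i
  rw [h1, vnEntropy_conj_diagonal hUU, Fintype.sum_prod_type_right]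
  refine Finset.sum_congr rfl fun i _ => ?_
  rw [vnEntropy_eq_sum (hA i)]

/-- (E7c) entropy of Mathlib's `blockDiagonal'` (sigma-type index, blocks of different sizes). -/
theorem vnEntropy_blockDiagonal' {o : Type*} [Fintype o] [DecidableEq o] {m' : o → Type*}
    [∀ i, Fintype (m' i)] [∀ i, DecidableEq (m' i)] (A : ∀ i, Matrix (m' i) (m' i) ℂ)
    (hA : ∀ i, (A i).IsHermitian) :
    vnEntropy (Matrix.blockDiagonal' A) = ∑ i, vnEntropy (A i) := by
  choose U hU hAU using fun i => exists_unitary_diagonal (hA i)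
  have hUU : Matrix.blockDiagonal' U ∈ Matrix.unitaryGroup (Σ i, m' i) ℂ := by
    rw [Matrix.mem_unitaryGroup_iff, Matrix.star_eq_conjTranspose,
      Matrix.blockDiagonal'_conjTranspose, ← Matrix.blockDiagonal'_mul]
    have : (fun i => U i * (U i)ᴴ) = fun i => (1 : Matrix (m' i) (m' i) ℂ) := by
      funext i
      exact (Matrix.mem_unitaryGroup_iff).1 (hU i)
    rw [this]
    exact Matrix.blockDiagonal'_one
  have h1 : Matrix.blockDiagonal' A = Matrix.blockDiagonal' U
      * Matrix.diagonal (fun p : (Σ i, m' i) => (((hA p.1).eigenvalues p.2 : ℝ) : ℂ))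
      * star (Matrix.blockDiagonal' U) := by
    have hD : Matrix.diagonal (fun p : (Σ i, m' i) => (((hA p.1).eigenvalues p.2 : ℝ) : ℂ))
        = Matrix.blockDiagonal' (fun i => Matrix.diagonal
            (fun j => (((hA i).eigenvalues j : ℝ) : ℂ))) := by
      rw [Matrix.blockDiagonal'_diagonal]
    rw [Matrix.star_eq_conjTranspose, Matrix.blockDiagonal'_conjTranspose, hD,
      ← Matrix.blockDiagonal'_mul, ← Matrix.blockDiagonal'_mul]
    congr 1
    funext i
    exact hAU i
  rw [h1, vnEntropy_conj_diagonal hUU, Fintype.sum_sigma]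
  refine Finset.sum_congr rfl fun i _ => ?_
  rw [vnEntropy_eq_sum (hA i)]

open scoped Kronecker in
/-- (E9) entropy of a Kronecker product (index `m × n`, entries `A i i' * B j j'`). -/
theorem vnEntropy_kronecker {A : Matrix m m ℂ} {B : Matrix n n ℂ}
    (hA : A.IsHermitian) (hB : B.IsHermitian) :
    vnEntropy (A ⊗ₖ B) = B.trace.re * vnEntropy A + A.trace.re * vnEntropy B := by
  obtain ⟨U, hU, hAU⟩ := exists_unitary_diagonal hA
  obtain ⟨V, hV, hBV⟩ := exists_unitary_diagonal hB
  have hUV : U ⊗ₖ V ∈ Matrix.unitaryGroup (m × n) ℂ := Matrix.kronecker_mem_unitary hU hV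
  have h1 : A ⊗ₖ B = (U ⊗ₖ V)
      * Matrix.diagonal (fun p : m × n => ((hA.eigenvalues p.1 * hB.eigenvalues p.2 : ℝ) : ℂ))
      * star (U ⊗ₖ V) := by
    have hD : Matrix.diagonal
        (fun p : m × n => ((hA.eigenvalues p.1 * hB.eigenvalues p.2 : ℝ) : ℂ))
        = Matrix.diagonal (fun i => (hA.eigenvalues i : ℂ))
          ⊗ₖ Matrix.diagonal (fun j => (hB.eigenvalues j : ℂ)) := by
      rw [Matrix.diagonal_kronecker_diagonal]
      congr 1
      funext p
      push_cast
      rfl
    conv_lhs => rw [hAU, hBV]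
    rw [hD, Matrix.star_eq_conjTranspose, Matrix.star_eq_conjTranspose,
      Matrix.star_eq_conjTranspose, Matrix.conjTranspose_kronecker,
      ← Matrix.mul_kronecker_mul, ← Matrix.mul_kronecker_mul]
  rw [h1, vnEntropy_conj_diagonal hUV, Fintype.sum_prod_type, vnEntropy_eq_sum hA,
    vnEntropy_eq_sum hB, trace_re_eq_sum_eigenvalues hA, trace_re_eq_sum_eigenvalues hB]
  simp only [Real.negMulLog_mul, Finset.sum_add_distrib]
  rw [Finset.sum_mul_sum, Finset.sum_mul_sum, Finset.sum_comm]

end blocks

section small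

/-- (E11a) a positive semidefinite matrix with trace at most one has nonnegative entropy. -/
theorem vnEntropy_nonneg_of_trace_le_one {A : Matrix d d ℂ} (hA : A.PosSemidef)
    (htr : A.trace.re ≤ 1) : 0 ≤ vnEntropy A := by
  rw [vnEntropy_eq_sum hA.1]
  refine Finset.sum_nonneg fun i _ => Real.negMulLog_nonneg (hA.eigenvalues_nonneg i) ?_
  have h1 : hA.1.eigenvalues i ≤ ∑ j, hA.1.eigenvalues j :=
    Finset.single_le_sum (fun j _ => hA.eigenvalues_nonneg j) (Finset.mem_univ i)
  rw [← trace_re_eq_sum_eigenvalues hA.1] at h1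
  exact h1.trans htr

theorem vnEntropy_nonneg_of_isDensity {A : Matrix d d ℂ} (hA : IsDensity A) :
    0 ≤ vnEntropy A :=
  vnEntropy_nonneg_of_trace_le_one hA.1 (by rw [hA.2]; simp)

/-- (E11b) entropy of a rank-one matrix `v v*`: `η(‖v‖²)`. -/
theorem vnEntropy_vecMulVec (v : d → ℂ) :
    vnEntropy (Matrix.vecMulVec v (star v)) = Real.negMulLog (∑ i, ‖v i‖ ^ 2) := by
  have h1 : Matrix.vecMulVec v (star v)
      = (Matrix.replicateCol Unit v) * (Matrix.replicateCol Unit v)ᴴ := by
    ext i j
    simp [Matrix.vecMulVec_apply, Matrix.mul_apply]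
  have h2 : (Matrix.replicateCol Unit v)ᴴ * (Matrix.replicateCol Unit v)
      = Matrix.diagonal (fun _ : Unit => (((∑ i, ‖v i‖ ^ 2 : ℝ)) : ℂ)) := by
    ext i j
    simp only [Matrix.mul_apply, Matrix.conjTranspose_apply, Matrix.replicateCol_apply,
      Matrix.diagonal_apply_eq]
    push_cast
    refine Finset.sum_congr rfl fun x _ => ?_
    rw [mul_comm, Complex.star_def, Complex.mul_conj, Complex.normSq_eq_norm_sq]
    push_cast
    rfl
  rw [h1, vnEntropy_mul_conjTranspose_comm, h2, vnEntropy_diagonal]
  simp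

/-- (E10a) closed form for a Hermitian `2 × 2` matrix of trace one (index `Bool`). -/
theorem vnEntropy_qubit {A : Matrix Bool Bool ℂ} (hA : A.IsHermitian) (htr : A.trace = 1) :
    vnEntropy A = Real.binEntropy ((1 + Real.sqrt (1 - 4 * A.det.re)) / 2) := by
  have hsum : hA.eigenvalues true + hA.eigenvalues false = 1 := by
    have := trace_re_eq_sum_eigenvalues hA
    rw [htr, Fintype.sum_bool] at this
    simpa using this.symm
  have hdet : A.det.re = hA.eigenvalues true * hA.eigenvalues false := by
    rw [hA.det_eq_prod_eigenvalues, Fintype.prod_bool]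
    simp
  rw [vnEntropy_eq_sum hA, Fintype.sum_bool, hdet]
  set a := hA.eigenvalues true
  set b := hA.eigenvalues false
  have hb : b = 1 - a := by linarith
  have hsq : 1 - 4 * (a * b) = (a - b) ^ 2 := by rw [hb]; ring
  rw [hsq, Real.sqrt_sq_eq_abs]
  rcases le_total b a with h | h
  · rw [abs_of_nonneg (sub_nonneg.2 h)]
    have : (1 + (a - b)) / 2 = a := by rw [hb]; ring
    rw [this, Real.binEntropy_eq_negMulLog_add_negMulLog_one_sub, hb]
  · rw [abs_of_nonpos (sub_nonpos.2 h)]
    have : (1 + -(a - b)) / 2 = 1 - a := by rw [hb]; ring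
    rw [this, Real.binEntropy_one_sub, Real.binEntropy_eq_negMulLog_add_negMulLog_one_sub, hb]

/-- (E10b) unnormalised closed form for a Hermitian `2 × 2` matrix with trace `t ≠ 0`. -/
theorem vnEntropy_qubit_of_trace {A : Matrix Bool Bool ℂ} (hA : A.IsHermitian) {t : ℝ}
    (ht : t ≠ 0) (htr : A.trace = (t : ℂ)) :
    vnEntropy A = t * Real.binEntropy ((1 + Real.sqrt (1 - 4 * (A.det.re / t ^ 2))) / 2)
      + Real.negMulLog t := by
  have hB : (((t⁻¹ : ℝ) : ℂ) • A).IsHermitian := by
    unfold Matrix.IsHermitian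
    rw [Matrix.conjTranspose_smul, hA.eq]
    simp
  have hBtr : (((t⁻¹ : ℝ) : ℂ) • A).trace = 1 := by
    rw [Matrix.trace_smul, htr, smul_eq_mul, ← Complex.ofReal_mul, inv_mul_cancel₀ ht]
    simp
  have hBdet : (((t⁻¹ : ℝ) : ℂ) • A).det.re = A.det.re / t ^ 2 := by
    rw [Matrix.det_smul, Fintype.card_bool, ← Complex.ofReal_pow, Complex.re_ofReal_mul]
    field_simp
  have hAB : A = ((t : ℝ) : ℂ) • (((t⁻¹ : ℝ) : ℂ) • A) := by
    rw [smul_smul, ← Complex.ofReal_mul, mul_inv_cancel₀ ht]
    simp
  have h1 := vnEntropy_smul hB t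
  rw [← hAB, vnEntropy_qubit hB hBtr, hBdet, hBtr] at h1
  rw [h1]
  simp

end small

section crestBlock

variable {k : Type*} [Fintype k] [DecidableEq k]

omit [Fintype d] [DecidableEq d] [Fintype k] [DecidableEq k] in
theorem isHermitian_block_diag {M : Matrix (k × d) (k × d) ℂ} (hM : M.IsHermitian) (s : k) :
    (block M s s).IsHermitian := by
  ext i j
  have := hM.apply (s, i) (s, j)
  simpa [block] using this

/-- (E7d) block-diagonal matrices in the layout of `Crest.Quantum.block` (block index first). -/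
theorem vnEntropy_of_block_diag {M : Matrix (k × d) (k × d) ℂ} (hM : M.IsHermitian)
    (h0 : ∀ s t, s ≠ t → block M s t = 0) :
    vnEntropy M = ∑ s, vnEntropy (block M s s) := by
  have h1 : M = Matrix.reindex (Equiv.prodComm d k) (Equiv.prodComm d k)
      (Matrix.blockDiagonal fun s => block M s s) := by
    ext ⟨s, i⟩ ⟨t, j⟩
    simp only [Matrix.reindex_apply, Matrix.submatrix_apply, Equiv.prodComm_symm,
      Equiv.prodComm_apply, Prod.swap_prod_mk, Matrix.blockDiagonal_apply]
    by_cases hst : s = t
    · subst hst; simp [block]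
    · rw [if_neg hst]
      have := congrFun (congrFun (h0 s t hst) i) j
      simpa [block] using this
  conv_lhs => rw [h1]
  rw [vnEntropy_reindex, vnEntropy_blockDiagonal _ fun s => isHermitian_block_diag hM s]

theorem vnEntropy_of_block_diag_bool {M : Matrix (Bool × d) (Bool × d) ℂ} (hM : M.IsHermitian)
    (h0 : block M false true = 0) :
    vnEntropy M = vnEntropy (block M false false) + vnEntropy (block M true true) := by
  have h1 : block M true false = 0 := by
    ext i j
    have h3 := congrFun (congrFun h0 j) i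
    simp only [block, Matrix.of_apply, Matrix.zero_apply] at h3 ⊢
    rw [← hM.apply (true, i) (false, j), h3, star_zero]
  rw [vnEntropy_of_block_diag hM, Fintype.sum_bool, add_comm]
  intro s t hst
  cases s <;> cases t <;> simp_all

end crestBlock

end Crest.Agent.GAD
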