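import Mathlib
import Crest.Prelude.Def_QState
import Crest.Prelude.Def_QChannel
import Crest.Prelude.Def_AmpDamp

/-!
# Row 341: the interface `Lprime` (the conditional-entropy lower bound (L'))

`fOut γ ν z` is the entropy of the GADC output on a pure qubit state with excited population `z`
(the second term of `gadRate`).  `Lprime γ ν` is the key inequality: the tail of the row
(`S0535`, `S0534`) is derived from it, and the analytic core proves it.
-/

set_option autoImplicit false

namespace Crest.Agent.GAD

open Crest.Quantum Crest.MathPhysics.AmpDamp

/-- Entropy (nats) of the GADC output on a pure qubit state with excited population `z`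
(it does not depend on the phase): the second term of `gadRate`. -/
noncomputable def fOut (γ ν z : ℝ) : ℝ :=
  Real.binEntropy ((1 + Real.sqrt (1 - 4 * (γ * ν * (1 - ν) + γ * (1 - γ) * (z - ν) ^ 2))) / 2)

theorem gadRate_eq (γ ν p : ℝ) :
    gadRate γ ν p = Real.binEntropy ((1 - γ) * p + γ * ν) - fOut γ ν p := rfl

/-- (L'): the conditional-entropy lower bound for `gadMap γ ν ⊗ id` on a density matrix `M`
of a qubit and a system `d`; `X = block M false false`, `Z = block M true true`. -/
def Lprime (γ ν : ℝ) : Prop :=
  ∀ (d : Type) [Fintype d] [DecidableEq d] (M : Matrix (Bool × d) (Bool × d) ℂ),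
    IsDensity M →
    fOut γ ν ((block M true true).trace.re)
      + vnEntropy (block M false false) + vnEntropy (block M true true)
      - Real.binEntropy ((block M true true).trace.re)
    ≤ vnEntropy (qubitTensor (gadMap γ ν) (id : Matrix d d ℂ → Matrix d d ℂ) M)

end Crest.Agent.GAD
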