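import Mathlib
import Crest.Prelude.Def_QState
import Crest.Agent.GAD.Entropy

/-!
# Row 341 insurance build, root R2 (part): Peierls inequality, pinching, concavity of `vnEntropy`

For Hermitian `A` and any unitary `W`, the diagonal of `star W * A * W` is a doubly stochastic
average of the eigenvalues of `A`.  Consequences: Peierls' inequality for concave functions,
concavity of the von Neumann entropy `vnEntropy` on positive semidefinite matrices, and Klein's
inequality in eigenvector form.
-/

set_option autoImplicit false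

open Matrix Crest.Quantum
open scoped ComplexOrder

namespace Crest.Agent.GAD

variable {n : Type*} [Fintype n] [DecidableEq n]

/-- The spectral theorem in plain matrix form. -/
theorem spectral_matrix (A : Matrix n n ℂ) (hA : A.IsHermitian) :
    A = (hA.eigenvectorUnitary : Matrix n n ℂ) * diagonal (fun i => ((hA.eigenvalues i : ℝ) : ℂ)) *
      star (hA.eigenvectorUnitary : Matrix n n ℂ) := by
  have h := hA.spectral_theorem
  rw [Unitary.conjStarAlgAut_apply] at h
  exact h

/-- The diagonalising conjugation `star U * A * U = diagonal eigenvalues`. -/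
theorem star_eigenvectorUnitary_mul_mul (A : Matrix n n ℂ) (hA : A.IsHermitian) :
    star (hA.eigenvectorUnitary : Matrix n n ℂ) * A * (hA.eigenvectorUnitary : Matrix n n ℂ) =
      diagonal (fun i => ((hA.eigenvalues i : ℝ) : ℂ)) := by
  have h := hA.conjStarAlgAut_star_eigenvectorUnitary
  rw [Unitary.conjStarAlgAut_star_apply] at h
  exact h

/-- Diagonal entries of `V * diagonal d * star V` for a real diagonal `d`. -/
theorem conj_diagonal_apply_self (V : Matrix n n ℂ) (d : n → ℝ) (k : n) :
    (V * diagonal (fun i => ((d i : ℝ) : ℂ)) * star V) k k =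
      ((∑ i, Complex.normSq (V k i) * d i : ℝ) : ℂ) := by
  simp only [Matrix.mul_apply, Matrix.diagonal_apply, Matrix.star_apply, mul_ite, mul_zero,
    Finset.sum_ite_eq', Finset.mem_univ, if_true]
  push_cast
  refine Finset.sum_congr rfl fun i _ => ?_
  rw [Complex.normSq_eq_conj_mul_self]
  simp only [RCLike.star_def]
  ring

/-- Row sums of the squared moduli of a unitary matrix. -/
theorem unitary_row_normSq (V : Matrix n n ℂ) (hV : V ∈ unitaryGroup n ℂ) (k : n) :
    ∑ i, Complex.normSq (V k i) = 1 := by
  have h := congrFun (congrFun (mem_unitaryGroup_iff.mp hV) k) k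
  simp only [Matrix.mul_apply, Matrix.star_apply, Matrix.one_apply_eq] at h
  have h2 : ((∑ i, Complex.normSq (V k i) : ℝ) : ℂ) = 1 := by
    rw [← h]
    push_cast
    refine Finset.sum_congr rfl fun i _ => ?_
    rw [Complex.normSq_eq_conj_mul_self]
    simp only [RCLike.star_def]
    ring
  exact_mod_cast h2

/-- Column sums of the squared moduli of a unitary matrix. -/
theorem unitary_col_normSq (V : Matrix n n ℂ) (hV : V ∈ unitaryGroup n ℂ) (i : n) :
    ∑ k, Complex.normSq (V k i) = 1 := by
  have h := congrFun (congrFun (mem_unitaryGroup_iff'.mp hV) i) i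
  simp only [Matrix.mul_apply, Matrix.star_apply, Matrix.one_apply_eq] at h
  have h2 : ((∑ k, Complex.normSq (V k i) : ℝ) : ℂ) = 1 := by
    rw [← h]
    push_cast
    refine Finset.sum_congr rfl fun k _ => ?_
    rw [Complex.normSq_eq_conj_mul_self]
    simp only [RCLike.star_def]
  exact_mod_cast h2

/-- For Hermitian `A` and unitary `W`, the diagonal of `star W * A * W` is a doubly stochastic
average of the eigenvalues: the weights are `normSq ((star W * U) k i)`. -/
theorem conj_unitary_diag (A : Matrix n n ℂ) (hA : A.IsHermitian) (W : Matrix n n ℂ) (k : n) :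
    (star W * A * W) k k =
      ((∑ i, Complex.normSq ((star W * (hA.eigenvectorUnitary : Matrix n n ℂ)) k i) *
        hA.eigenvalues i : ℝ) : ℂ) := by
  rw [← conj_diagonal_apply_self]
  conv_lhs => rw [spectral_matrix A hA]
  simp only [star_mul, star_star, Matrix.mul_assoc]

/-- The doubly stochastic form of the diagonal, real parts. -/
theorem conj_unitary_diag_re (A : Matrix n n ℂ) (hA : A.IsHermitian) (W : Matrix n n ℂ) (k : n) :
    ((star W * A * W) k k).re =
      ∑ i, Complex.normSq ((star W * (hA.eigenvectorUnitary : Matrix n n ℂ)) k i) *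
        hA.eigenvalues i := by
  rw [conj_unitary_diag A hA W k, Complex.ofReal_re]

theorem star_mul_eigenvectorUnitary_mem (A : Matrix n n ℂ) (hA : A.IsHermitian) (W : Matrix n n ℂ)
    (hW : W ∈ unitaryGroup n ℂ) :
    star W * (hA.eigenvectorUnitary : Matrix n n ℂ) ∈ unitaryGroup n ℂ :=
  mul_mem (Unitary.star_mem hW) (hA.eigenvectorUnitary).2

/-- The diagonal of `star W * A * W` lies in every convex set containing the eigenvalues. -/
theorem conj_unitary_diag_mem (A : Matrix n n ℂ) (hA : A.IsHermitian) (W : Matrix n n ℂ)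
    (hW : W ∈ unitaryGroup n ℂ) (s : Set ℝ) (hs : Convex ℝ s)
    (hmem : ∀ i, hA.eigenvalues i ∈ s) (k : n) : ((star W * A * W) k k).re ∈ s := by
  rw [conj_unitary_diag_re A hA W k]
  have hV := star_mul_eigenvectorUnitary_mem A hA W hW
  have := hs.sum_mem (t := Finset.univ)
    (w := fun i => Complex.normSq ((star W * (hA.eigenvectorUnitary : Matrix n n ℂ)) k i))
    (z := fun i => hA.eigenvalues i) (fun i _ => Complex.normSq_nonneg _)
    (unitary_row_normSq _ hV k) (fun i _ => hmem i)
  simpa [smul_eq_mul] using this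

/-- For positive semidefinite `A` the diagonal of a unitary conjugate is nonnegative. -/
theorem conj_unitary_diag_nonneg (A : Matrix n n ℂ) (hA : A.PosSemidef) (W : Matrix n n ℂ)
    (hW : W ∈ unitaryGroup n ℂ) (k : n) : 0 ≤ ((star W * A * W) k k).re :=
  conj_unitary_diag_mem A hA.isHermitian W hW (Set.Ici 0) (convex_Ici 0)
    (fun i => hA.eigenvalues_nonneg i) k

/-- **Peierls' inequality**: for a concave `f` on a convex set containing the eigenvalues of the
Hermitian matrix `A`, and any unitary `W`,
`∑ f(eigenvalues) ≤ ∑ f(diagonal of star W * A * W)`. -/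
theorem peierls (A : Matrix n n ℂ) (hA : A.IsHermitian) (W : Matrix n n ℂ)
    (hW : W ∈ unitaryGroup n ℂ) (s : Set ℝ) (f : ℝ → ℝ) (hf : ConcaveOn ℝ s f)
    (hs : ∀ i, hA.eigenvalues i ∈ s) :
    ∑ i, f (hA.eigenvalues i) ≤ ∑ k, f ((star W * A * W) k k).re := by
  have hV := star_mul_eigenvectorUnitary_mem A hA W hW
  calc ∑ i, f (hA.eigenvalues i)
      = ∑ i, (∑ k, Complex.normSq ((star W * (hA.eigenvectorUnitary : Matrix n n ℂ)) k i)) *
          f (hA.eigenvalues i) := by
        simp [unitary_col_normSq _ hV]
    _ = ∑ k, ∑ i, Complex.normSq ((star W * (hA.eigenvectorUnitary : Matrix n n ℂ)) k i) *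
          f (hA.eigenvalues i) := by
        simp_rw [Finset.sum_mul]
        exact Finset.sum_comm
    _ ≤ ∑ k, f ((star W * A * W) k k).re := by
        refine Finset.sum_le_sum fun k _ => ?_
        rw [conj_unitary_diag_re A hA W k]
        have := hf.le_map_sum (t := Finset.univ)
          (w := fun i => Complex.normSq ((star W * (hA.eigenvectorUnitary : Matrix n n ℂ)) k i))
          (p := fun i => hA.eigenvalues i) (fun i _ => Complex.normSq_nonneg _)
          (unitary_row_normSq _ hV k) (fun i _ => hs i)
        simpa [smul_eq_mul] using this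

/-- Pinching increases entropy: `S(A) ≤ ∑ η(diagonal of star W * A * W)` for PSD `A`. -/
theorem vnEntropy_le_sum_diag (A : Matrix n n ℂ) (hA : A.PosSemidef) (W : Matrix n n ℂ)
    (hW : W ∈ unitaryGroup n ℂ) :
    vnEntropy A ≤ ∑ k, Real.negMulLog ((star W * A * W) k k).re := by
  rw [vnEntropy_eq_sum hA.isHermitian]
  exact peierls A hA.isHermitian W hW (Set.Ici 0) _ Real.concaveOn_negMulLog
    (fun i => hA.eigenvalues_nonneg i)

/-- **Concavity of the von Neumann entropy** (finite mixtures of PSD matrices). -/
theorem vnEntropy_sum_ge {ι : Type*} (t : Finset ι) (q : ι → ℝ) (A : ι → Matrix n n ℂ)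
    (hq : ∀ a ∈ t, 0 ≤ q a) (hq1 : ∑ a ∈ t, q a = 1) (hA : ∀ a ∈ t, (A a).PosSemidef) :
    ∑ a ∈ t, q a * vnEntropy (A a) ≤ vnEntropy (∑ a ∈ t, (q a : ℂ) • A a) := by
  have hC : (∑ a ∈ t, (q a : ℂ) • A a).IsHermitian := by
    unfold Matrix.IsHermitian
    rw [Matrix.conjTranspose_sum]
    refine Finset.sum_congr rfl fun a ha => ?_
    rw [Matrix.conjTranspose_smul, (hA a ha).isHermitian.eq]
    simp
  set W := (hC.eigenvectorUnitary : Matrix n n ℂ) with hWdef
  have hW : W ∈ unitaryGroup n ℂ := hC.eigenvectorUnitary.2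
  have hck : ∀ k, hC.eigenvalues k = ∑ a ∈ t, q a * ((star W * A a * W) k k).re := by
    intro k
    have h1 := congrFun (congrFun (star_eigenvectorUnitary_mul_mul _ hC) k) k
    rw [Matrix.diagonal_apply_eq] at h1
    have h2 : star W * (∑ a ∈ t, (q a : ℂ) • A a) * W =
        ∑ a ∈ t, (q a : ℂ) • (star W * A a * W) := by
      simp [Finset.mul_sum, Finset.sum_mul]
    rw [← hWdef, h2] at h1
    have h3 := congrArg Complex.re h1
    rw [Complex.ofReal_re] at h3
    rw [← h3, Matrix.sum_apply, Complex.re_sum]
    refine Finset.sum_congr rfl fun a _ => ?_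
    simp
  rw [vnEntropy_eq_sum hC]
  calc ∑ a ∈ t, q a * vnEntropy (A a)
      ≤ ∑ a ∈ t, q a * ∑ k, Real.negMulLog ((star W * A a * W) k k).re := by
        refine Finset.sum_le_sum fun a ha => mul_le_mul_of_nonneg_left ?_ (hq a ha)
        exact vnEntropy_le_sum_diag (A a) (hA a ha) W hW
    _ = ∑ k, ∑ a ∈ t, q a * Real.negMulLog ((star W * A a * W) k k).re := by
        simp_rw [Finset.mul_sum]
        exact Finset.sum_comm
    _ ≤ ∑ k, Real.negMulLog (hC.eigenvalues k) := by
        refine Finset.sum_le_sum fun k _ => ?_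
        rw [hck k]
        have := Real.concaveOn_negMulLog.le_map_sum (t := t) (w := q)
          (p := fun a => ((star W * A a * W) k k).re) hq hq1
          (fun a ha => conj_unitary_diag_nonneg (A a) (hA a ha) W hW k)
        simpa [smul_eq_mul] using this

/-- Concavity of the von Neumann entropy, two-point form. -/
theorem vnEntropy_concave (A B : Matrix n n ℂ) (hA : A.PosSemidef) (hB : B.PosSemidef) (t : ℝ)
    (ht0 : 0 ≤ t) (ht1 : t ≤ 1) :
    t * vnEntropy A + (1 - t) * vnEntropy B ≤
      vnEntropy ((t : ℂ) • A + ((1 - t : ℝ) : ℂ) • B) := by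
  have h := vnEntropy_sum_ge (n := n) (Finset.univ : Finset Bool)
    (fun b => if b then t else 1 - t) (fun b => if b then A else B)
    (by intro b _; cases b <;> simp <;> linarith) (by simp)
    (by intro b _; cases b <;> simpa)
  rw [Fintype.sum_bool, Fintype.sum_bool] at h
  simp only [if_true, Bool.false_eq_true, if_false] at h
  exact h

end Crest.Agent.GAD
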