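import Mathlib
import Crest.Prelude.Def_QState
import Crest.Prelude.Def_QChannel
import Crest.Prelude.Def_AmpDamp
import Crest.Agent.GAD.Entropy
import Crest.Agent.GAD.Peierls
import Crest.Agent.GAD.Lprime

/-!
# Row 341: `(AD4) ⟹ (L')` for the generalized amplitude-damping channel

`AD4` is the four-piece entropy inequality (helper94, board #1597) stated as a `Prop`;
`lprime_of_AD4` derives from it the conditional-entropy lower bound `(L')` for
`gadMap γ ν ⊗ id` on every density matrix of a qubit and a system `d`.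
-/

set_option autoImplicit false

open Crest.Quantum Crest.MathPhysics.AmpDamp Matrix
open scoped ComplexOrder

namespace Crest.Agent.GAD

section Defs

variable {d d' : Type*} [Fintype d] [DecidableEq d] [Fintype d'] [DecidableEq d']

/-- `Ψ₄`: the entropy of the four-piece operator `[[a aᴴ + T0, a bᴴ], [b aᴴ, b bᴴ + T1]]` minus
the entropies of its four pieces. -/
noncomputable def psi4 (a b : Matrix d d' ℂ) (T0 T1 : Matrix d d ℂ) : ℝ :=
  vnEntropy (Matrix.fromBlocks (a * aᴴ + T0) (a * bᴴ) (b * aᴴ) (b * bᴴ + T1))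
    - vnEntropy (a * aᴴ) - vnEntropy (b * bᴴ) - vnEntropy T0 - vnEntropy T1

end Defs

/-- `Φ₄`: the same expression for `1 × 1` blocks. -/
noncomputable def phi4 (x y w0 w1 : ℝ) : ℝ :=
  psi4 (d := Unit) (d' := Unit) (Matrix.of fun _ _ => ((Real.sqrt x : ℝ) : ℂ))
    (Matrix.of fun _ _ => ((Real.sqrt y : ℝ) : ℂ))
    (Matrix.of fun _ _ => ((w0 : ℝ) : ℂ)) (Matrix.of fun _ _ => ((w1 : ℝ) : ℂ))

/-- The four-piece inequality `(AD4)`: `Ψ₄ ≥ Φ₄` at the traces. -/
def AD4 : Prop :=
  ∀ (d d' : Type) [Fintype d] [DecidableEq d] [Fintype d'] [DecidableEq d']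
    (a b : Matrix d d' ℂ) (T0 T1 : Matrix d d ℂ), T0.PosSemidef → T1.PosSemidef →
    phi4 (a * aᴴ).trace.re (b * bᴴ).trace.re T0.trace.re T1.trace.re ≤ psi4 a b T0 T1

/-! ### Superadditivity of `A ↦ S(A) - η(tr A)` -/

namespace AD4Lprime

section Super

variable {n : Type*} [Fintype n] [DecidableEq n]

theorem posSemidef_trace_re_nonneg {A : Matrix n n ℂ} (hA : A.PosSemidef) : 0 ≤ A.trace.re := by
  have h := hA.trace_nonneg
  exact (Complex.nonneg_iff.mp h).1

theorem posSemidef_trace_im {A : Matrix n n ℂ} (hA : A.PosSemidef) : A.trace.im = 0 := by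
  have h := hA.trace_nonneg
  exact (Complex.nonneg_iff.mp h).2.symm

theorem posSemidef_eq_zero_of_trace_re {A : Matrix n n ℂ} (hA : A.PosSemidef)
    (h : A.trace.re = 0) : A = 0 := by
  have h0 : A.trace = 0 := by
    apply Complex.ext
    · simpa using h
    · simpa using posSemidef_trace_im hA
  exact hA.trace_eq_zero_iff.mp h0

/-- Superadditivity: `S(A) + S(B) + η(tr A + tr B) - η(tr A) - η(tr B) ≤ S(A + B)` for PSD
`A`, `B`. -/
theorem vnEntropy_add_ge (A B : Matrix n n ℂ) (hA : A.PosSemidef) (hB : B.PosSemidef) :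
    vnEntropy A + vnEntropy B + Real.negMulLog (A.trace.re + B.trace.re)
      - Real.negMulLog A.trace.re - Real.negMulLog B.trace.re ≤ vnEntropy (A + B) := by
  set p := A.trace.re with hp
  set q := B.trace.re with hq
  have hp0 : 0 ≤ p := posSemidef_trace_re_nonneg hA
  have hq0 : 0 ≤ q := posSemidef_trace_re_nonneg hB
  rcases hp0.eq_or_lt with hp' | hp'
  · have hA0 : A = 0 := posSemidef_eq_zero_of_trace_re hA hp'.symm
    subst hA0
    rw [← hp']
    simp [vnEntropy_zero]
  rcases hq0.eq_or_lt with hq' | hq'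
  · have hB0 : B = 0 := posSemidef_eq_zero_of_trace_re hB hq'.symm
    subst hB0
    rw [← hq']
    simp [vnEntropy_zero]
  have hpq : 0 < p + q := by linarith
  set t : ℝ := p / (p + q) with ht
  have ht0 : 0 ≤ t := by positivity
  have ht1 : t ≤ 1 := by rw [ht, div_le_one hpq]; linarith
  have h1t : 1 - t = q / (p + q) := by rw [ht]; field_simp; ring
  set A' : Matrix n n ℂ := (((p + q) / p : ℝ) : ℂ) • A with hA'
  set B' : Matrix n n ℂ := (((p + q) / q : ℝ) : ℂ) • B with hB'
  have hA'psd : A'.PosSemidef := by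
    rw [hA']
    have : (0 : ℂ) ≤ (((p + q) / p : ℝ) : ℂ) := by
      rw [Complex.zero_le_real]; positivity
    exact hA.smul this
  have hB'psd : B'.PosSemidef := by
    rw [hB']
    have : (0 : ℂ) ≤ (((p + q) / q : ℝ) : ℂ) := by
      rw [Complex.zero_le_real]; positivity
    exact hB.smul this
  have hconc := vnEntropy_concave A' B' hA'psd hB'psd t ht0 ht1
  have hsum : (t : ℂ) • A' + ((1 - t : ℝ) : ℂ) • B' = A + B := by
    rw [hA', hB', smul_smul, smul_smul, h1t, ht]
    have e1 : ((p / (p + q) : ℝ) : ℂ) * (((p + q) / p : ℝ) : ℂ) = 1 := by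
      rw [← Complex.ofReal_mul]
      have : p / (p + q) * ((p + q) / p) = 1 := by field_simp
      rw [this]; simp
    have e2 : ((q / (p + q) : ℝ) : ℂ) * (((p + q) / q : ℝ) : ℂ) = 1 := by
      rw [← Complex.ofReal_mul]
      have : q / (p + q) * ((p + q) / q) = 1 := by field_simp
      rw [this]; simp
    rw [e1, e2, one_smul, one_smul]
  rw [hsum] at hconc
  have hSA : vnEntropy A' = (p + q) / p * vnEntropy A + Real.negMulLog ((p + q) / p) * p := by
    rw [hA', vnEntropy_smul hA.isHermitian]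
  have hSB : vnEntropy B' = (p + q) / q * vnEntropy B + Real.negMulLog ((p + q) / q) * q := by
    rw [hB', vnEntropy_smul hB.isHermitian]
  rw [hSA, hSB, h1t, ht] at hconc
  have hlp : Real.log ((p + q) / p) = Real.log (p + q) - Real.log p :=
    Real.log_div hpq.ne' hp'.ne'
  have hlq : Real.log ((p + q) / q) = Real.log (p + q) - Real.log q :=
    Real.log_div hpq.ne' hq'.ne'
  have key : p / (p + q) * ((p + q) / p * vnEntropy A + Real.negMulLog ((p + q) / p) * p)
      + q / (p + q) * ((p + q) / q * vnEntropy B + Real.negMulLog ((p + q) / q) * q)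
      = vnEntropy A + vnEntropy B + Real.negMulLog (p + q) - Real.negMulLog p
        - Real.negMulLog q := by
    simp only [Real.negMulLog, hlp, hlq]
    field_simp
    ring
  linarith

end Super

end AD4Lprime

open AD4Lprime

/-! ### The GADC on a qubit tensored with the identity, in block form -/

namespace AD4Lprime

section Gad

variable {d : Type*} [Fintype d] [DecidableEq d]

/-- `(gadMap γ ν ⊗ id) M`, transported to the index `d ⊕ d`, in block form. -/
theorem qubitTensor_gadMap_id_submatrix (γ ν : ℝ) (M : Matrix (Bool × d) (Bool × d) ℂ) :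
    (qubitTensor (gadMap γ ν) (id : Matrix d d ℂ → Matrix d d ℂ) M).submatrix
        (Equiv.boolProdEquivSum d).symm (Equiv.boolProdEquivSum d).symm
      = Matrix.fromBlocks
          (((1 - γ * ν : ℝ) : ℂ) • block M false false + ((γ * (1 - ν) : ℝ) : ℂ) • block M true true)
          (((Real.sqrt (1 - γ) : ℝ) : ℂ) • block M false true)
          (((Real.sqrt (1 - γ) : ℝ) : ℂ) • block M true false)
          (((γ * ν : ℝ) : ℂ) • block M false false
            + ((1 - γ + γ * ν : ℝ) : ℂ) • block M true true) := by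
  ext (i | i) (j | j) <;>
    simp [qubitTensor, qubitCoeff, gadMap, block, Matrix.single] <;> ring

omit [DecidableEq d] in
/-- The trace of a matrix on `Bool × d` is the sum of the traces of its two diagonal blocks. -/
theorem trace_eq_block_add (M : Matrix (Bool × d) (Bool × d) ℂ) :
    M.trace = (block M false false).trace + (block M true true).trace := by
  simp [Matrix.trace, block, Fintype.sum_prod_type, add_comm]

end Gad

/-! ### `Φ₄` in closed form -/

/-- The entropy of a `1 × 1` matrix. -/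
theorem vnEntropy_unit (c : ℝ) :
    vnEntropy (Matrix.of fun _ _ : Unit => ((c : ℝ) : ℂ)) = Real.negMulLog c := by
  have h := vnEntropy_diagonal (d := Unit) (fun _ => c)
  have e : (Matrix.diagonal fun _ : Unit => (c : ℂ)) = Matrix.of fun _ _ : Unit => ((c : ℝ) : ℂ) := by
    ext i j; simp
  rw [e] at h
  simpa using h

end AD4Lprime

/-- `Φ₄` on a normalised quadruple, through the closed form of the qubit entropy. -/
theorem phi4_eq (x y w0 w1 : ℝ) (hx : 0 ≤ x) (hy : 0 ≤ y) (h1 : x + w0 + (y + w1) = 1) :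
    phi4 x y w0 w1 =
      Real.binEntropy ((1 + Real.sqrt (1 - 4 * ((x + w0) * (y + w1) - x * y))) / 2)
        - Real.negMulLog x - Real.negMulLog y - Real.negMulLog w0 - Real.negMulLog w1 := by
  unfold phi4 psi4
  have hmul : ∀ r s : ℝ, (Matrix.of fun _ _ : Unit => ((r : ℝ) : ℂ)) *
      (Matrix.of fun _ _ : Unit => ((s : ℝ) : ℂ))ᴴ = Matrix.of fun _ _ : Unit => ((r * s : ℝ) : ℂ) := by
    intro r s
    ext i j
    simp [Matrix.mul_apply]
  rw [hmul, hmul, hmul, hmul, Real.mul_self_sqrt hx, Real.mul_self_sqrt hy,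
    vnEntropy_unit, vnEntropy_unit, vnEntropy_unit, vnEntropy_unit]
  set τ : Matrix Bool Bool ℂ := Matrix.of fun s t =>
    if s = false ∧ t = false then ((x + w0 : ℝ) : ℂ)
    else if s = true ∧ t = true then ((y + w1 : ℝ) : ℂ)
    else ((Real.sqrt x * Real.sqrt y : ℝ) : ℂ) with hτ
  set e : Unit ⊕ Unit ≃ Bool := (Equiv.boolProdEquivSum Unit).symm.trans (Equiv.prodPUnit Bool)
    with he
  have hblk : Matrix.fromBlocks
      ((Matrix.of fun _ _ : Unit => ((x : ℝ) : ℂ)) + Matrix.of fun _ _ : Unit => ((w0 : ℝ) : ℂ))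
      (Matrix.of fun _ _ : Unit => ((Real.sqrt x * Real.sqrt y : ℝ) : ℂ))
      (Matrix.of fun _ _ : Unit => ((Real.sqrt y * Real.sqrt x : ℝ) : ℂ))
      ((Matrix.of fun _ _ : Unit => ((y : ℝ) : ℂ)) + Matrix.of fun _ _ : Unit => ((w1 : ℝ) : ℂ))
      = τ.submatrix e e := by
    ext (i | i) (j | j) <;> simp [hτ, he, mul_comm]
  have hτH : τ.IsHermitian := by
    ext s t
    cases s <;> cases t <;> simp [hτ, Matrix.conjTranspose_apply]
  have hτtr : τ.trace = 1 := by
    rw [Matrix.trace, Fintype.sum_bool]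
    simp only [Matrix.diag_apply, hτ, Matrix.of_apply]
    simp only [and_self, if_true, Bool.true_eq_false, if_false]
    rw [← Complex.ofReal_add]
    have : y + w1 + (x + w0) = 1 := by linarith
    rw [this]; simp
  have hdet : τ.det.re = (x + w0) * (y + w1) - x * y := by
    rw [← Matrix.det_submatrix_equiv_self finTwoEquiv τ, Matrix.det_fin_two]
    simp only [Matrix.submatrix_apply, hτ, Matrix.of_apply]
    have e0 : finTwoEquiv (0 : Fin 2) = false := rfl
    have e1 : finTwoEquiv (1 : Fin 2) = true := rfl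
    rw [e0, e1]
    simp only [and_self, if_true, Bool.true_eq_false, Bool.false_eq_true, and_false, false_and,
      if_false]
    rw [← Complex.ofReal_mul, ← Complex.ofReal_mul, ← Complex.ofReal_sub, Complex.ofReal_re]
    have h2 : Real.sqrt x * Real.sqrt y * (Real.sqrt x * Real.sqrt y) = x * y := by
      have := Real.mul_self_sqrt hx
      have := Real.mul_self_sqrt hy
      nlinarith
    rw [h2]
  rw [hblk, vnEntropy_submatrix_equiv, vnEntropy_qubit hτH hτtr, hdet]

/-! ### `(AD4) ⟹ (L')` -/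

namespace AD4Lprime

section Main

open scoped MatrixOrder

variable {d : Type*} [Fintype d] [DecidableEq d]

omit [DecidableEq d] in
/-- A positive semidefinite matrix on `Bool × d` is `[A; C] [A; C]ᴴ`. -/
theorem exists_rows_of_posSemidef {M : Matrix (Bool × d) (Bool × d) ℂ} (hM : M.PosSemidef) :
    ∃ A C : Matrix d (Bool × d) ℂ, block M false false = A * Aᴴ ∧ block M false true = A * Cᴴ ∧
      block M true false = C * Aᴴ ∧ block M true true = C * Cᴴ := by
  classical
  obtain ⟨B, hB⟩ := CStarAlgebra.nonneg_iff_eq_star_mul_self.mp hM.nonneg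
  refine ⟨Matrix.of fun i k => Bᴴ (false, i) k, Matrix.of fun i k => Bᴴ (true, i) k, ?_, ?_, ?_, ?_⟩ <;>
  · ext i j
    rw [hB]
    simp [block, Matrix.mul_apply, Matrix.star_eq_conjTranspose]

theorem smul_mul_smul_conjTranspose {m k : Type*} [Fintype k] (r s : ℝ) (A C : Matrix m k ℂ) :
    ((r : ℂ) • A) * ((s : ℂ) • C)ᴴ = ((r * s : ℝ) : ℂ) • (A * Cᴴ) := by
  rw [Matrix.conjTranspose_smul, Matrix.smul_mul, Matrix.mul_smul, smul_smul]
  simp

theorem isHermitian_ofReal_smul {A : Matrix d d ℂ} (hA : A.IsHermitian) (r : ℝ) :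
    ((r : ℂ) • A).IsHermitian := by
  unfold Matrix.IsHermitian
  rw [Matrix.conjTranspose_smul, hA.eq]
  simp

theorem posSemidef_ofReal_smul {A : Matrix d d ℂ} (hA : A.PosSemidef) {r : ℝ} (hr : 0 ≤ r) :
    ((r : ℂ) • A).PosSemidef :=
  hA.smul (by rw [Complex.zero_le_real]; exact hr)

theorem trace_ofReal_smul_re (A : Matrix d d ℂ) (r : ℝ) :
    (((r : ℂ) • A).trace).re = r * A.trace.re := by
  rw [Matrix.trace_smul, smul_eq_mul, Complex.re_ofReal_mul]

end Main

end AD4Lprime

/-- **`(AD4) ⟹ (L')`**: the conditional-entropy lower bound for `gadMap γ ν ⊗ id` on every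
density matrix `M` of a qubit and a system `d`, with `X = block M false false` and
`Z = block M true true`. (The first summand is `fOut γ ν (tr Z)`.) -/
theorem lprime_of_AD4 (h : AD4) (γ ν : ℝ) (hγ : γ ∈ Set.Icc (0:ℝ) 1) (hν : ν ∈ Set.Icc (0:ℝ) 1)
    (d : Type) [Fintype d] [DecidableEq d] (M : Matrix (Bool × d) (Bool × d) ℂ)
    (hM : IsDensity M) :
    Real.binEntropy ((1 + Real.sqrt (1 - 4 * (γ * ν * (1 - ν)
          + γ * (1 - γ) * ((block M true true).trace.re - ν) ^ 2))) / 2)
        + vnEntropy (block M false false) + vnEntropy (block M true true)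
        - Real.binEntropy ((block M true true).trace.re)
      ≤ vnEntropy (qubitTensor (gadMap γ ν) (id : Matrix d d ℂ → Matrix d d ℂ) M) := by
  obtain ⟨hγ0, hγ1⟩ := hγ
  obtain ⟨hν0, hν1⟩ := hν
  obtain ⟨hMpsd, hMtr⟩ := hM
  obtain ⟨A, C, hX, hY, hY', hZ⟩ := exists_rows_of_posSemidef hMpsd
  set X := block M false false with hXdef
  set Z := block M true true with hZdef
  have hXpsd : X.PosSemidef := by rw [hX]; exact Matrix.posSemidef_self_mul_conjTranspose A
  have hZpsd : Z.PosSemidef := by rw [hZ]; exact Matrix.posSemidef_self_mul_conjTranspose C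
  set x := X.trace.re with hx
  set z := Z.trace.re with hz
  have hx0 : 0 ≤ x := posSemidef_trace_re_nonneg hXpsd
  have hz0 : 0 ≤ z := posSemidef_trace_re_nonneg hZpsd
  have hxz : x + z = 1 := by
    have := congrArg Complex.re (trace_eq_block_add M)
    rw [hMtr] at this
    simpa using this.symm
  -- the real parameters
  set α : ℝ := 1 - γ * ν with hα
  set β : ℝ := γ * (1 - ν) with hβ
  set α' : ℝ := γ * ν with hα'
  set β' : ℝ := 1 - γ + γ * ν with hβ'
  set c : ℝ := Real.sqrt (1 - γ) with hc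
  set κ : ℝ := (1 - γ) / α with hκ
  have hγν : γ * ν ≤ 1 := by nlinarith
  have hα0 : 0 ≤ α := by rw [hα]; linarith
  have hβ0 : 0 ≤ β := by rw [hβ]; exact mul_nonneg hγ0 (by linarith)
  have hα'0 : 0 ≤ α' := by rw [hα']; exact mul_nonneg hγ0 hν0
  have hβ'0 : 0 ≤ β' := by rw [hβ']; nlinarith [mul_nonneg hγ0 hν0]
  have hcc : c * c = 1 - γ := Real.mul_self_sqrt (by linarith)
  have hc0 : 0 ≤ c := Real.sqrt_nonneg _
  have hκ0 : 0 ≤ κ := by rw [hκ]; exact div_nonneg (by linarith) hα0
  have hακ : α * κ = 1 - γ := by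
    by_cases h0 : α = 0
    · have h1 : γ * ν = 1 := by rw [hα] at h0; linarith
      have h2 : γ = 1 := by nlinarith
      rw [h0, h2]; simp
    · rw [hκ]; field_simp
  have hκβ' : 0 ≤ β' - κ := by
    have h3 : κ ≤ β' := by
      rw [hκ]
      refine div_le_of_le_mul₀ hα0 hβ'0 ?_
      rw [hα, hβ']
      nlinarith [mul_nonneg (mul_nonneg hγ0 hγ0) (mul_nonneg hν0 (sub_nonneg.mpr hν1))]
    linarith
  have hsα : Real.sqrt α * Real.sqrt α = α := Real.mul_self_sqrt hα0
  have hsc : Real.sqrt α * (c / Real.sqrt α) = c := by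
    by_cases h0 : α = 0
    · have h1 : γ * ν = 1 := by rw [hα] at h0; linarith
      have h2 : γ = 1 := by nlinarith
      have h3 : c = 0 := by rw [hc, h2]; simp
      rw [h0, h3]; simp
    · have : Real.sqrt α ≠ 0 := by
        rw [Real.sqrt_ne_zero hα0]; exact h0
      field_simp
  have hsκ : c / Real.sqrt α * (c / Real.sqrt α) = κ := by
    rw [div_mul_div_comm, hcc, hsα]
  -- the four pieces
  set a : Matrix d (Bool × d) ℂ := ((Real.sqrt α : ℝ) : ℂ) • A with ha
  set b : Matrix d (Bool × d) ℂ := ((c / Real.sqrt α : ℝ) : ℂ) • C with hb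
  set T0 : Matrix d d ℂ := ((β : ℝ) : ℂ) • Z with hT0
  set T1 : Matrix d d ℂ := ((α' : ℝ) : ℂ) • X + ((β' - κ : ℝ) : ℂ) • Z with hT1
  have haa : a * aᴴ = ((α : ℝ) : ℂ) • X := by
    rw [ha, smul_mul_smul_conjTranspose, hsα, hX]
  have hab : a * bᴴ = ((c : ℝ) : ℂ) • block M false true := by
    rw [ha, hb, smul_mul_smul_conjTranspose, hsc, hY]
  have hba : b * aᴴ = ((c : ℝ) : ℂ) • block M true false := by
    rw [ha, hb, smul_mul_smul_conjTranspose, mul_comm, hsc, hY']
  have hbb : b * bᴴ = ((κ : ℝ) : ℂ) • Z := by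
    rw [hb, smul_mul_smul_conjTranspose, hsκ, hZ]
  have hT0psd : T0.PosSemidef := posSemidef_ofReal_smul hZpsd hβ0
  have hT1a : (((α' : ℝ) : ℂ) • X).PosSemidef := posSemidef_ofReal_smul hXpsd hα'0
  have hT1b : (((β' - κ : ℝ) : ℂ) • Z).PosSemidef := posSemidef_ofReal_smul hZpsd hκβ'
  have hT1psd : T1.PosSemidef := hT1a.add hT1b
  -- the big matrix is the channel output
  have hO : Matrix.fromBlocks (a * aᴴ + T0) (a * bᴴ) (b * aᴴ) (b * bᴴ + T1)
      = (qubitTensor (gadMap γ ν) (id : Matrix d d ℂ → Matrix d d ℂ) M).submatrix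
        (Equiv.boolProdEquivSum d).symm (Equiv.boolProdEquivSum d).symm := by
    rw [qubitTensor_gadMap_id_submatrix, haa, hab, hba, hbb, hT0, hT1]
    congr 1
    rw [← hXdef, ← hZdef, ← add_assoc, add_comm (((κ : ℝ) : ℂ) • Z) (((α' : ℝ) : ℂ) • X),
      add_assoc, ← add_smul, ← Complex.ofReal_add]
    congr 3
    ring
  -- apply (AD4)
  have hAD := h d (Bool × d) a b T0 T1 hT0psd hT1psd
  unfold psi4 at hAD
  rw [hO, vnEntropy_submatrix_equiv, haa, hbb] at hAD
  -- traces
  have htr1 : (((α : ℝ) : ℂ) • X).trace.re = α * x := trace_ofReal_smul_re X α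
  have htr2 : (((κ : ℝ) : ℂ) • Z).trace.re = κ * z := trace_ofReal_smul_re Z κ
  have htr3 : T0.trace.re = β * z := trace_ofReal_smul_re Z β
  have htr4a : (((α' : ℝ) : ℂ) • X).trace.re = α' * x := trace_ofReal_smul_re X α'
  have htr4b : (((β' - κ : ℝ) : ℂ) • Z).trace.re = (β' - κ) * z := trace_ofReal_smul_re Z (β' - κ)
  have htr4 : T1.trace.re = α' * x + (β' - κ) * z := by
    rw [hT1, Matrix.trace_add, Complex.add_re, htr4a, htr4b]
  rw [htr1, htr2, htr3, htr4] at hAD
  -- the scalar side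
  have hsum1 : α * x + β * z + (κ * z + (α' * x + (β' - κ) * z)) = 1 := by
    have : α * x + β * z + (κ * z + (α' * x + (β' - κ) * z)) = x + z := by
      rw [hα, hβ, hα', hβ']; ring
    rw [this, hxz]
  rw [phi4_eq _ _ _ _ (mul_nonneg hα0 hx0) (mul_nonneg hκ0 hz0) hsum1] at hAD
  have hdet : (α * x + β * z) * (κ * z + (α' * x + (β' - κ) * z)) - α * x * (κ * z)
      = γ * ν * (1 - ν) + γ * (1 - γ) * (z - ν) ^ 2 := by
    have e1 : (α * x + β * z) * (κ * z + (α' * x + (β' - κ) * z)) - α * x * (κ * z)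
        = (α * x + β * z) * (α' * x + β' * z) - (α * κ) * (x * z) := by ring
    have hx' : x = 1 - z := by linarith
    rw [e1, hακ, hx', hα, hβ, hα', hβ']
    ring
  rw [hdet] at hAD
  -- entropies of the pieces
  have hS1 : vnEntropy (((α : ℝ) : ℂ) • X) = α * vnEntropy X + Real.negMulLog α * x :=
    vnEntropy_smul hXpsd.isHermitian α
  have hS2 : vnEntropy (((κ : ℝ) : ℂ) • Z) = κ * vnEntropy Z + Real.negMulLog κ * z :=
    vnEntropy_smul hZpsd.isHermitian κ
  have hS3 : vnEntropy T0 = β * vnEntropy Z + Real.negMulLog β * z :=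
    vnEntropy_smul hZpsd.isHermitian β
  have hS4a : vnEntropy (((α' : ℝ) : ℂ) • X) = α' * vnEntropy X + Real.negMulLog α' * x :=
    vnEntropy_smul hXpsd.isHermitian α'
  have hS4b : vnEntropy (((β' - κ : ℝ) : ℂ) • Z)
      = (β' - κ) * vnEntropy Z + Real.negMulLog (β' - κ) * z :=
    vnEntropy_smul hZpsd.isHermitian (β' - κ)
  have hS4 := vnEntropy_add_ge _ _ hT1a hT1b
  rw [htr4a, htr4b, hS4a, hS4b] at hS4
  rw [hS1, hS2, hS3] at hAD
  have hbin : Real.binEntropy z = Real.negMulLog z + Real.negMulLog x := by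
    rw [Real.binEntropy_eq_negMulLog_add_negMulLog_one_sub]
    have hx' : 1 - z = x := by linarith
    rw [hx']
  have hm1 := Real.negMulLog_mul α x
  have hm2 := Real.negMulLog_mul κ z
  have hm3 := Real.negMulLog_mul β z
  have hm4 := Real.negMulLog_mul α' x
  have hm5 := Real.negMulLog_mul (β' - κ) z
  rw [hbin]
  have hαα' : α + α' = 1 := by rw [hα, hα']; ring
  have hββ' : β + β' = 1 := by rw [hβ, hβ']; ring
  have e1 : α * vnEntropy X + α' * vnEntropy X = vnEntropy X := by
    rw [← add_mul, hαα', one_mul]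
  have e2 : κ * vnEntropy Z + β * vnEntropy Z + (β' - κ) * vnEntropy Z = vnEntropy Z := by
    have : κ + β + (β' - κ) = 1 := by linarith
    rw [← add_mul, ← add_mul, this, one_mul]
  have e3 : α * Real.negMulLog x + α' * Real.negMulLog x = Real.negMulLog x := by
    rw [← add_mul, hαα', one_mul]
  have e4 : κ * Real.negMulLog z + β * Real.negMulLog z + (β' - κ) * Real.negMulLog z
      = Real.negMulLog z := by
    have : κ + β + (β' - κ) = 1 := by linarith
    rw [← add_mul, ← add_mul, this, one_mul]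
  linarith

/-! ### Adapters: other spellings of `(AD4)`, and the interface `Lprime` -/

/-- `Φ₄` as the entropy of the explicit `1 + 1` block matrix (the "scalar model") minus the four
`η` terms, for nonnegative `x`, `y`. -/
theorem phi4_eq_model (x y w0 w1 : ℝ) (hx : 0 ≤ x) (hy : 0 ≤ y) :
    phi4 x y w0 w1 =
      vnEntropy (Matrix.fromBlocks (Matrix.of fun _ _ => ((x + w0 : ℝ) : ℂ))
          (Matrix.of fun _ _ => ((Real.sqrt (x * y) : ℝ) : ℂ))
          (Matrix.of fun _ _ => ((Real.sqrt (x * y) : ℝ) : ℂ))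
          (Matrix.of fun _ _ => ((y + w1 : ℝ) : ℂ)) : Matrix (Unit ⊕ Unit) (Unit ⊕ Unit) ℂ)
        - Real.negMulLog x - Real.negMulLog y - Real.negMulLog w0 - Real.negMulLog w1 := by
  unfold phi4 psi4
  have hmul : ∀ r s : ℝ, (Matrix.of fun _ _ : Unit => ((r : ℝ) : ℂ)) *
      (Matrix.of fun _ _ : Unit => ((s : ℝ) : ℂ))ᴴ = Matrix.of fun _ _ : Unit => ((r * s : ℝ) : ℂ) := by
    intro r s
    ext i j
    simp [Matrix.mul_apply]
  have hadd : ∀ r s : ℝ, (Matrix.of fun _ _ : Unit => ((r : ℝ) : ℂ)) +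
      (Matrix.of fun _ _ : Unit => ((s : ℝ) : ℂ)) = Matrix.of fun _ _ : Unit => ((r + s : ℝ) : ℂ) := by
    intro r s
    ext i j
    simp
  rw [hmul, hmul, hmul, hmul, Real.mul_self_sqrt hx, Real.mul_self_sqrt hy,
    vnEntropy_unit, vnEntropy_unit, vnEntropy_unit, vnEntropy_unit, hadd, hadd,
    mul_comm (Real.sqrt y) (Real.sqrt x), ← Real.sqrt_mul hx y]

/-- `(AD4)` from its "blueprint" spelling: the scalar side written as the entropy of the explicit
`1 + 1` block matrix with off-diagonal entry `√(x y)`, all on the left-hand side. -/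
theorem AD4_of_model
    (h : ∀ (d r : Type) [Fintype d] [DecidableEq d] [Fintype r] [DecidableEq r]
      (a b : Matrix d r ℂ) (T0 T1 : Matrix d d ℂ), T0.PosSemidef → T1.PosSemidef →
      vnEntropy (a * aᴴ) + vnEntropy (b * bᴴ) + vnEntropy T0 + vnEntropy T1
        + (vnEntropy (Matrix.fromBlocks
              (Matrix.of fun _ _ => (((a * aᴴ).trace.re + T0.trace.re : ℝ) : ℂ))
              (Matrix.of fun _ _ => ((Real.sqrt ((a * aᴴ).trace.re * (b * bᴴ).trace.re) : ℝ) : ℂ))
              (Matrix.of fun _ _ => ((Real.sqrt ((a * aᴴ).trace.re * (b * bᴴ).trace.re) : ℝ) : ℂ))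
              (Matrix.of fun _ _ => (((b * bᴴ).trace.re + T1.trace.re : ℝ) : ℂ)) :
                Matrix (Unit ⊕ Unit) (Unit ⊕ Unit) ℂ)
            - Real.negMulLog (a * aᴴ).trace.re - Real.negMulLog (b * bᴴ).trace.re
            - Real.negMulLog T0.trace.re - Real.negMulLog T1.trace.re)
        ≤ vnEntropy (Matrix.fromBlocks (a * aᴴ + T0) (a * bᴴ) (b * aᴴ) (b * bᴴ + T1))) :
    AD4 := by
  intro d d' _ _ _ _ a b T0 T1 hT0 hT1
  have h1 := h d d' a b T0 T1 hT0 hT1
  have hx : 0 ≤ (a * aᴴ).trace.re :=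
    posSemidef_trace_re_nonneg (Matrix.posSemidef_self_mul_conjTranspose a)
  have hy : 0 ≤ (b * bᴴ).trace.re :=
    posSemidef_trace_re_nonneg (Matrix.posSemidef_self_mul_conjTranspose b)
  rw [phi4_eq_model _ _ _ _ hx hy]
  unfold psi4
  linarith

/-- `(AD4) ⟹ Lprime γ ν` for all `γ, ν ∈ [0, 1]`, in the interface of `GAD/Lprime.lean`. -/
theorem Lprime_of_AD4 (h : AD4) (γ ν : ℝ) (hγ : γ ∈ Set.Icc (0:ℝ) 1) (hν : ν ∈ Set.Icc (0:ℝ) 1) :
    Lprime γ ν :=
  fun d _ _ M hM => lprime_of_AD4 h γ ν hγ hν d M hM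

end Crest.Agent.GAD
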