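import Crest.Agent.GAD.LayerCake

/-!
# Row 341 (GADC), real-variable core of the (AD4) proof (#1597), part 2: Tonelli assembly

Pure real-variable statements (no matrices):

* `I4 x y w0 w1`: the scalar target, a `lintegral` against `lcMeasure`.
* `lintegral_decoupled_le` (ASM): the decoupled (post-Fiedler) `s`-integral is `≤ I4 (∑ p) (∑ q) w0 w1`.
* `lintegral_scalar_eq` (SC): for `d = 1` the `s`-integral is `= I4 x y w0 w1`.
* `lintegral_Ioi_ofReal_of_tendsto` (LIM): improper integral as a limit of interval integrals.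
-/

set_option autoImplicit false
open MeasureTheory Set Filter Topology
open scoped ENNReal

namespace Crest.Agent.GAD

/-- The scalar target: `∫∫ [x/u + y/v - max (x/u - w0, y/v - w1, 0)] du dv/(1+u+v)^2`. -/
noncomputable def I4 (x y w0 w1 : ℝ) : ℝ≥0∞ :=
  ∫⁻ z, ENNReal.ofReal (x / z.1 + y / z.2 - max (max (x / z.1 - w0) (y / z.2 - w1)) 0) ∂lcMeasure

section core

variable {ι κ κ' : Type*} [Fintype ι] [Fintype κ] [Fintype κ']

/-- `N_X(u,s) + N_U(v,s)` as a function of `s` and `z = (u,v)`. -/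
noncomputable def lcG1 (p : κ → ℝ) (q : κ' → ℝ) (s : ℝ) (z : ℝ × ℝ) : ℝ≥0∞ :=
  (∑ j, if z.1 * s < p j then (1:ℝ≥0∞) else 0) + ∑ j, if z.2 * s < q j then (1:ℝ≥0∞) else 0

/-- `∑_k 1[u < α_k(s) or v < β_k(s)]`. -/
noncomputable def lcG2 (al be : ℝ → ι → ℝ) (s : ℝ) (z : ℝ × ℝ) : ℝ≥0∞ :=
  ∑ k, if z.1 < al s k ∨ z.2 < be s k then (1:ℝ≥0∞) else 0

theorem measurable_lcG1 (p : κ → ℝ) (q : κ' → ℝ) :
    Measurable (fun w : ℝ × (ℝ × ℝ) => lcG1 p q w.1 w.2) := by
  unfold lcG1
  apply Measurable.add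
  · apply Finset.measurable_sum
    intro j _
    exact Measurable.ite (measurableSet_lt (by fun_prop) measurable_const)
      measurable_const measurable_const
  · apply Finset.measurable_sum
    intro j _
    exact Measurable.ite (measurableSet_lt (by fun_prop) measurable_const)
      measurable_const measurable_const

theorem measurable_lcG2 (al be : ℝ → ι → ℝ) (hal : ∀ k, Measurable fun s => al s k)
    (hbe : ∀ k, Measurable fun s => be s k) :
    Measurable (fun w : ℝ × (ℝ × ℝ) => lcG2 al be w.1 w.2) := by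
  unfold lcG2
  apply Finset.measurable_sum
  intro k _
  refine Measurable.ite ?_ measurable_const measurable_const
  exact (measurableSet_lt (by fun_prop) ((hal k).comp measurable_fst)).union
    (measurableSet_lt (by fun_prop) ((hbe k).comp measurable_fst))

theorem lcG2_le_lcG1 (p : κ → ℝ) (q : κ' → ℝ) (al be : ℝ → ι → ℝ) (s : ℝ) (z : ℝ × ℝ)
    (hcal : (Finset.univ.filter fun k => z.1 < al s k).card
      ≤ (Finset.univ.filter fun j => z.1 * s < p j).card)
    (hcbe : (Finset.univ.filter fun k => z.2 < be s k).card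
      ≤ (Finset.univ.filter fun j => z.2 * s < q j).card) :
    lcG2 al be s z ≤ lcG1 p q s z := by
  unfold lcG2 lcG1
  calc (∑ k, if z.1 < al s k ∨ z.2 < be s k then (1:ℝ≥0∞) else 0)
      ≤ ∑ k, ((if z.1 < al s k then (1:ℝ≥0∞) else 0) + (if z.2 < be s k then (1:ℝ≥0∞) else 0)) := by
        apply Finset.sum_le_sum
        intro k _
        by_cases h1 : z.1 < al s k
        · simp [h1]
        · by_cases h2 : z.2 < be s k
          · simp [h2]
          · simp [h1, h2]
    _ = ((Finset.univ.filter fun k => z.1 < al s k).card : ℝ≥0∞)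
        + ((Finset.univ.filter fun k => z.2 < be s k).card : ℝ≥0∞) := by
        rw [Finset.sum_add_distrib, Finset.sum_boole, Finset.sum_boole]
    _ ≤ ((Finset.univ.filter fun j => z.1 * s < p j).card : ℝ≥0∞)
        + ((Finset.univ.filter fun j => z.2 * s < q j).card : ℝ≥0∞) := by
        gcongr
    _ = _ := by
        rw [Finset.sum_boole, Finset.sum_boole]

theorem card_le_lcG2_left (al be : ℝ → ι → ℝ) (s : ℝ) (z : ℝ × ℝ) :
    ((Finset.univ.filter fun k => z.1 < al s k).card : ℝ≥0∞) ≤ lcG2 al be s z := by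
  unfold lcG2
  rw [← Finset.sum_boole]
  apply Finset.sum_le_sum
  intro k _
  by_cases h1 : z.1 < al s k
  · simp [h1]
  · simp [h1]

theorem card_le_lcG2_right (al be : ℝ → ι → ℝ) (s : ℝ) (z : ℝ × ℝ) :
    ((Finset.univ.filter fun k => z.2 < be s k).card : ℝ≥0∞) ≤ lcG2 al be s z := by
  unfold lcG2
  rw [← Finset.sum_boole]
  apply Finset.sum_le_sum
  intro k _
  by_cases h1 : z.2 < be s k
  · simp [h1]
  · simp [h1]

/-- `ν`-integral of `lcG1` at fixed `s > 0`. -/
theorem lintegral_lcG1 (p : κ → ℝ) (q : κ' → ℝ) (hp : ∀ j, 0 ≤ p j) (hq : ∀ j, 0 ≤ q j)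
    (s : ℝ) (hs : 0 < s) :
    ∫⁻ z, lcG1 p q s z ∂lcMeasure
      = ENNReal.ofReal ((∑ j, Real.log (1 + p j / s)) + ∑ j, Real.log (1 + q j / s)) := by
  unfold lcG1
  have m1 : ∀ j, Measurable (fun z : ℝ × ℝ => if z.1 * s < p j then (1:ℝ≥0∞) else 0) := fun j =>
    Measurable.ite (measurableSet_lt (by fun_prop) measurable_const) measurable_const
      measurable_const
  have m2 : ∀ j, Measurable (fun z : ℝ × ℝ => if z.2 * s < q j then (1:ℝ≥0∞) else 0) := fun j =>
    Measurable.ite (measurableSet_lt (by fun_prop) measurable_const) measurable_const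
      measurable_const
  rw [lintegral_add_left (Finset.measurable_sum _ fun j _ => m1 j),
    lintegral_finsetSum _ (fun j _ => m1 j), lintegral_finsetSum _ (fun j _ => m2 j)]
  have e1 : ∀ j, ∫⁻ z, (if z.1 * s < p j then (1:ℝ≥0∞) else 0) ∂lcMeasure
      = ENNReal.ofReal (Real.log (1 + p j / s)) := by
    intro j
    rw [← lcMeasure_fst_lt (div_nonneg (hp j) hs.le),
      ← lintegral_indicator_one (measurableSet_lt measurable_fst measurable_const)]
    congr 1
    funext z
    simp only [indicator_apply, mem_ofPred_eq, Pi.one_apply, lt_div_iff₀ hs]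
  have e2 : ∀ j, ∫⁻ z, (if z.2 * s < q j then (1:ℝ≥0∞) else 0) ∂lcMeasure
      = ENNReal.ofReal (Real.log (1 + q j / s)) := by
    intro j
    rw [← lcMeasure_snd_lt (div_nonneg (hq j) hs.le),
      ← lintegral_indicator_one (measurableSet_lt measurable_snd measurable_const)]
    congr 1
    funext z
    simp only [indicator_apply, mem_ofPred_eq, Pi.one_apply, lt_div_iff₀ hs]
  simp_rw [e1, e2]
  have n1 : ∀ j ∈ (Finset.univ : Finset κ), 0 ≤ Real.log (1 + p j / s) := fun j _ =>
    Real.log_nonneg (by have := div_nonneg (hp j) hs.le; linarith)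
  have n2 : ∀ j ∈ (Finset.univ : Finset κ'), 0 ≤ Real.log (1 + q j / s) := fun j _ =>
    Real.log_nonneg (by have := div_nonneg (hq j) hs.le; linarith)
  rw [ENNReal.ofReal_add (Finset.sum_nonneg n1) (Finset.sum_nonneg n2),
    ENNReal.ofReal_sum_of_nonneg n1, ENNReal.ofReal_sum_of_nonneg n2]

/-- `ν`-integral of `lcG2` at fixed `s`. -/
theorem lintegral_lcG2 (al be : ℝ → ι → ℝ) (s : ℝ)
    (hal0 : ∀ k, 0 ≤ al s k) (hbe0 : ∀ k, 0 ≤ be s k) :
    ∫⁻ z, lcG2 al be s z ∂lcMeasure
      = ENNReal.ofReal (∑ k, Real.log (1 + al s k + be s k)) := by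
  unfold lcG2
  have m1 : ∀ k, Measurable
      (fun z : ℝ × ℝ => if z.1 < al s k ∨ z.2 < be s k then (1:ℝ≥0∞) else 0) := fun k =>
    Measurable.ite (measurableSet_lt_or_lt _ _) measurable_const measurable_const
  rw [lintegral_finsetSum _ (fun k _ => m1 k)]
  have e1 : ∀ k, ∫⁻ z, (if z.1 < al s k ∨ z.2 < be s k then (1:ℝ≥0∞) else 0) ∂lcMeasure
      = ENNReal.ofReal (Real.log (1 + al s k + be s k)) := by
    intro k
    rw [← lcMeasure_lt_or_lt (hal0 k) (hbe0 k),
      ← lintegral_indicator_one (measurableSet_lt_or_lt _ _)]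
    congr 1
    funext z
    simp only [indicator_apply, mem_ofPred_eq, Pi.one_apply]
  simp_rw [e1]
  rw [ENNReal.ofReal_sum_of_nonneg]
  intro k _
  exact Real.log_nonneg (by have := hal0 k; have := hbe0 k; linarith)

/-- `s`-integral of an indicator `1[u s < c]`. -/
theorem lintegral_Ioi_ite_mul_lt (u c : ℝ) (hu : 0 < u) :
    ∫⁻ s in Ioi (0:ℝ), (if u * s < c then (1:ℝ≥0∞) else 0) = ENNReal.ofReal (c / u) := by
  have e : ∀ s : ℝ, (if u * s < c then (1:ℝ≥0∞) else 0) = (Iio (c / u)).indicator 1 s := by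
    intro s
    simp only [indicator_apply, mem_Iio, Pi.one_apply, lt_div_iff₀ hu, mul_comm s u]
  simp_rw [e]
  rw [lintegral_indicator_one measurableSet_Iio, Measure.restrict_apply measurableSet_Iio]
  have : Iio (c / u) ∩ Ioi (0:ℝ) = Ioo 0 (c / u) := by
    ext v
    simp [and_comm]
  rw [this, Real.volume_Ioo, sub_zero]

/-- `s`-integral of `lcG1` at fixed `z` in the open quadrant. -/
theorem lintegral_Ioi_lcG1 (p : κ → ℝ) (q : κ' → ℝ) (hp : ∀ j, 0 ≤ p j) (hq : ∀ j, 0 ≤ q j)
    (z : ℝ × ℝ) (hz1 : 0 < z.1) (hz2 : 0 < z.2) :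
    ∫⁻ s in Ioi (0:ℝ), lcG1 p q s z
      = ENNReal.ofReal ((∑ j, p j) / z.1 + (∑ j, q j) / z.2) := by
  unfold lcG1
  have m1 : ∀ j, Measurable (fun s : ℝ => if z.1 * s < p j then (1:ℝ≥0∞) else 0) := fun j =>
    Measurable.ite (measurableSet_lt (by fun_prop) measurable_const) measurable_const
      measurable_const
  have m2 : ∀ j, Measurable (fun s : ℝ => if z.2 * s < q j then (1:ℝ≥0∞) else 0) := fun j =>
    Measurable.ite (measurableSet_lt (by fun_prop) measurable_const) measurable_const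
      measurable_const
  rw [lintegral_add_left (Finset.measurable_sum _ fun j _ => m1 j),
    lintegral_finsetSum _ (fun j _ => m1 j), lintegral_finsetSum _ (fun j _ => m2 j)]
  simp_rw [lintegral_Ioi_ite_mul_lt _ _ hz1, lintegral_Ioi_ite_mul_lt _ _ hz2]
  have n1 : ∀ j ∈ (Finset.univ : Finset κ), 0 ≤ p j / z.1 := fun j _ => div_nonneg (hp j) hz1.le
  have n2 : ∀ j ∈ (Finset.univ : Finset κ'), 0 ≤ q j / z.2 := fun j _ => div_nonneg (hq j) hz2.le
  rw [Finset.sum_div, Finset.sum_div, ENNReal.ofReal_add (Finset.sum_nonneg n1)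
    (Finset.sum_nonneg n2), ENNReal.ofReal_sum_of_nonneg n1, ENNReal.ofReal_sum_of_nonneg n2]

/-- **Core identity** (layer cake at fixed `s` + Tonelli + the `s`-integral of `N_X + N_U`). -/
theorem lintegral_decoupled_eq (p : κ → ℝ) (q : κ' → ℝ) (al be : ℝ → ι → ℝ)
    (hp : ∀ j, 0 ≤ p j) (hq : ∀ j, 0 ≤ q j)
    (hal0 : ∀ s, 0 < s → ∀ k, 0 ≤ al s k) (hbe0 : ∀ s, 0 < s → ∀ k, 0 ≤ be s k)
    (hmal : ∀ k, Measurable fun s => al s k) (hmbe : ∀ k, Measurable fun s => be s k)
    (hcal : ∀ s, 0 < s → ∀ u, 0 < u → (Finset.univ.filter fun k => u < al s k).card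
      ≤ (Finset.univ.filter fun j => u * s < p j).card)
    (hcbe : ∀ s, 0 < s → ∀ v, 0 < v → (Finset.univ.filter fun k => v < be s k).card
      ≤ (Finset.univ.filter fun j => v * s < q j).card) :
    ∫⁻ s in Ioi (0:ℝ), ENNReal.ofReal ((∑ j, Real.log (1 + p j / s))
        + (∑ j, Real.log (1 + q j / s)) - ∑ k, Real.log (1 + al s k + be s k))
      = ∫⁻ z, (ENNReal.ofReal ((∑ j, p j) / z.1 + (∑ j, q j) / z.2)
          - ∫⁻ s in Ioi (0:ℝ), lcG2 al be s z) ∂lcMeasure := by
  have hG2 := measurable_lcG2 al be hmal hmbe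
  have hG1 := measurable_lcG1 p q
  -- step 1: fixed s
  have step1 : ∀ s ∈ Ioi (0:ℝ), ENNReal.ofReal ((∑ j, Real.log (1 + p j / s))
        + (∑ j, Real.log (1 + q j / s)) - ∑ k, Real.log (1 + al s k + be s k))
      = ∫⁻ z, (lcG1 p q s z - lcG2 al be s z) ∂lcMeasure := by
    intro s hs
    have hs0 : 0 < s := hs
    have hle : (fun z => lcG2 al be s z) ≤ᵐ[lcMeasure] fun z => lcG1 p q s z := by
      filter_upwards [ae_lcMeasure_pos] with z hz
      exact lcG2_le_lcG1 p q al be s z (hcal s hs0 z.1 hz.1) (hcbe s hs0 z.2 hz.2)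
    have hfin : ∫⁻ z, lcG2 al be s z ∂lcMeasure ≠ ∞ := by
      rw [lintegral_lcG2 al be s (hal0 s hs0) (hbe0 s hs0)]
      exact ENNReal.ofReal_ne_top
    have hm : Measurable (fun z => lcG2 al be s z) :=
      hG2.comp (measurable_const.prodMk measurable_id)
    rw [lintegral_sub hm hfin hle,
      lintegral_lcG1 p q hp hq s hs0, lintegral_lcG2 al be s (hal0 s hs0) (hbe0 s hs0),
      ENNReal.ofReal_sub]
    exact Finset.sum_nonneg fun k _ =>
      Real.log_nonneg (by have := hal0 s hs0 k; have := hbe0 s hs0 k; linarith)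
  rw [setLIntegral_congr_fun measurableSet_Ioi step1]
  -- step 2: Tonelli
  rw [lintegral_lintegral_swap ((hG1.sub hG2).aemeasurable)]
  -- step 3: fixed z
  apply lintegral_congr_ae
  filter_upwards [ae_lcMeasure_pos] with z hz
  have hle : (fun s => lcG2 al be s z) ≤ᵐ[volume.restrict (Ioi (0:ℝ))] fun s => lcG1 p q s z := by
    filter_upwards [ae_restrict_mem measurableSet_Ioi] with s hs
    exact lcG2_le_lcG1 p q al be s z (hcal s hs z.1 hz.1) (hcbe s hs z.2 hz.2)
  have hfin : ∫⁻ s in Ioi (0:ℝ), lcG2 al be s z ≠ ∞ := by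
    apply ne_top_of_le_ne_top _ (lintegral_mono_ae hle)
    rw [lintegral_Ioi_lcG1 p q hp hq z hz.1 hz.2]
    exact ENNReal.ofReal_ne_top
  have hm : Measurable (fun s => lcG2 al be s z) :=
    hG2.comp (measurable_id.prodMk measurable_const)
  rw [lintegral_sub hm hfin hle, lintegral_Ioi_lcG1 p q hp hq z hz.1 hz.2]

/-- **(ASM)** abstract assembly: the decoupled `s`-integral is at most the scalar target. -/
theorem lintegral_decoupled_le (p : κ → ℝ) (q : κ' → ℝ) (al be : ℝ → ι → ℝ) (w0 w1 : ℝ)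
    (hp : ∀ j, 0 ≤ p j) (hq : ∀ j, 0 ≤ q j)
    (hal0 : ∀ s, 0 < s → ∀ k, 0 ≤ al s k) (hbe0 : ∀ s, 0 < s → ∀ k, 0 ≤ be s k)
    (hmal : ∀ k, Measurable fun s => al s k) (hmbe : ∀ k, Measurable fun s => be s k)
    (hcal : ∀ s, 0 < s → ∀ u, 0 < u → (Finset.univ.filter fun k => u < al s k).card
      ≤ (Finset.univ.filter fun j => u * s < p j).card)
    (hcbe : ∀ s, 0 < s → ∀ v, 0 < v → (Finset.univ.filter fun k => v < be s k).card
      ≤ (Finset.univ.filter fun j => v * s < q j).card)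
    (h4al : ∀ u, 0 < u → ENNReal.ofReal ((∑ j, p j) / u - w0)
      ≤ ∫⁻ s in Ioi (0:ℝ), ((Finset.univ.filter fun k => u < al s k).card : ℝ≥0∞))
    (h4be : ∀ v, 0 < v → ENNReal.ofReal ((∑ j, q j) / v - w1)
      ≤ ∫⁻ s in Ioi (0:ℝ), ((Finset.univ.filter fun k => v < be s k).card : ℝ≥0∞)) :
    ∫⁻ s in Ioi (0:ℝ), ENNReal.ofReal ((∑ j, Real.log (1 + p j / s))
        + (∑ j, Real.log (1 + q j / s)) - ∑ k, Real.log (1 + al s k + be s k))
      ≤ I4 (∑ j, p j) (∑ j, q j) w0 w1 := by
  rw [lintegral_decoupled_eq p q al be hp hq hal0 hbe0 hmal hmbe hcal hcbe]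
  unfold I4
  apply lintegral_mono_ae
  filter_upwards [ae_lcMeasure_pos] with z hz
  have hA : ENNReal.ofReal ((∑ j, p j) / z.1 - w0) ≤ ∫⁻ s in Ioi (0:ℝ), lcG2 al be s z :=
    (h4al z.1 hz.1).trans (lintegral_mono fun s => card_le_lcG2_left al be s z)
  have hB : ENNReal.ofReal ((∑ j, q j) / z.2 - w1) ≤ ∫⁻ s in Ioi (0:ℝ), lcG2 al be s z :=
    (h4be z.2 hz.2).trans (lintegral_mono fun s => card_le_lcG2_right al be s z)
  have hM : ENNReal.ofReal (max (max ((∑ j, p j) / z.1 - w0) ((∑ j, q j) / z.2 - w1)) 0)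
      ≤ ∫⁻ s in Ioi (0:ℝ), lcG2 al be s z := by
    rcases max_choice (max ((∑ j, p j) / z.1 - w0) ((∑ j, q j) / z.2 - w1)) 0 with h | h
    · rw [h]
      rcases max_choice ((∑ j, p j) / z.1 - w0) ((∑ j, q j) / z.2 - w1) with h' | h'
      · rw [h']; exact hA
      · rw [h']; exact hB
    · rw [h]; simp
  rw [ENNReal.ofReal_sub _ (le_max_right _ _)]
  exact tsub_le_tsub_left hM _

end core

/-- **(SC)** the scalar (`d = 1`) chain is an identity. -/
theorem lintegral_scalar_eq (x y w0 w1 : ℝ) (hx : 0 ≤ x) (hy : 0 ≤ y) (hw0 : 0 ≤ w0)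
    (hw1 : 0 ≤ w1) :
    ∫⁻ s in Ioi (0:ℝ), ENNReal.ofReal (Real.log (1 + x / s) + Real.log (1 + y / s)
        - Real.log (1 + x / (w0 + s) + y / (w1 + s)))
      = I4 x y w0 w1 := by
  have key := lintegral_decoupled_eq (ι := Unit) (κ := Unit) (κ' := Unit)
    (fun _ => x) (fun _ => y) (fun s _ => x / (w0 + s)) (fun s _ => y / (w1 + s))
    (fun _ => hx) (fun _ => hy)
    (fun s hs _ => div_nonneg hx (by linarith)) (fun s hs _ => div_nonneg hy (by linarith))
    (fun _ => by fun_prop) (fun _ => by fun_prop)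
    (by
      intro s hs u hu
      apply Finset.card_le_card
      intro k hk
      simp only [Finset.mem_filter, Finset.mem_univ, true_and] at hk ⊢
      have h1 : 0 < w0 + s := by linarith
      rw [lt_div_iff₀ h1] at hk
      nlinarith)
    (by
      intro s hs u hu
      apply Finset.card_le_card
      intro k hk
      simp only [Finset.mem_filter, Finset.mem_univ, true_and] at hk ⊢
      have h1 : 0 < w1 + s := by linarith
      rw [lt_div_iff₀ h1] at hk
      nlinarith)
  simp only [Finset.univ_unique, Finset.sum_singleton] at key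
  rw [key]
  unfold I4
  apply lintegral_congr_ae
  filter_upwards [ae_lcMeasure_pos] with z hz
  have hs : ∫⁻ s in Ioi (0:ℝ), lcG2 (ι := Unit) (fun s _ => x / (w0 + s))
      (fun s _ => y / (w1 + s)) s z
      = ENNReal.ofReal (max (max (x / z.1 - w0) (y / z.2 - w1)) 0) := by
    unfold lcG2
    simp only [Finset.univ_unique, Finset.sum_singleton]
    have e : ∀ s ∈ Ioi (0:ℝ), (if z.1 < x / (w0 + s) ∨ z.2 < y / (w1 + s) then (1:ℝ≥0∞) else 0)
        = (Iio (max (x / z.1 - w0) (y / z.2 - w1))).indicator 1 s := by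
      intro s hs
      have hs0 : 0 < s := hs
      have h0 : 0 < w0 + s := by linarith
      have h1 : 0 < w1 + s := by linarith
      have e0 : z.1 < x / (w0 + s) ↔ s < x / z.1 - w0 := by
        rw [lt_div_iff₀ h0, lt_sub_iff_add_lt, lt_div_iff₀ hz.1]
        constructor <;> intro h <;> nlinarith
      have e1 : z.2 < y / (w1 + s) ↔ s < y / z.2 - w1 := by
        rw [lt_div_iff₀ h1, lt_sub_iff_add_lt, lt_div_iff₀ hz.2]
        constructor <;> intro h <;> nlinarith
      simp only [indicator_apply, mem_Iio, Pi.one_apply, lt_max_iff, e0, e1]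
    rw [setLIntegral_congr_fun measurableSet_Ioi e, lintegral_indicator_one measurableSet_Iio,
      Measure.restrict_apply measurableSet_Iio]
    have : Iio (max (x / z.1 - w0) (y / z.2 - w1)) ∩ Ioi (0:ℝ)
        = Ioo 0 (max (x / z.1 - w0) (y / z.2 - w1)) := by
      ext v
      simp [and_comm]
    rw [this, Real.volume_Ioo, sub_zero]
    rcases le_total (max (x / z.1 - w0) (y / z.2 - w1)) 0 with h | h
    · rw [max_eq_right h, ENNReal.ofReal_of_nonpos h, ENNReal.ofReal_zero]
    · rw [max_eq_left h]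
  rw [hs, ENNReal.ofReal_sub _ (le_max_right _ _)]

/-- **(LIM)** an improper integral of a nonnegative function as the limit of interval
integrals, in `lintegral` form. -/
theorem lintegral_Ioi_ofReal_of_tendsto {f : ℝ → ℝ} {c : ℝ}
    (hf : ∀ s, 0 < s → 0 ≤ f s)
    (hint : ∀ L, 0 < L → IntervalIntegrable f volume 0 L)
    (hlim : Tendsto (fun L => ∫ s in (0:ℝ)..L, f s) atTop (𝓝 c)) :
    ∫⁻ s in Ioi (0:ℝ), ENNReal.ofReal (f s) = ENNReal.ofReal c := by
  have hfi : ∀ L : ℝ, IntegrableOn f (Ioc 0 (id L)) volume := by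
    intro L
    rcases le_or_gt L 0 with h | h
    · show IntegrableOn f (Ioc 0 L) volume
      rw [Ioc_eq_empty (not_lt.2 h)]
      exact integrableOn_empty
    · exact (intervalIntegrable_iff_integrableOn_Ioc_of_le h.le).1 (hint L h)
  have hnorm : Tendsto (fun L : ℝ => ∫ s in (0:ℝ)..(id L), ‖f s‖) atTop (𝓝 c) := by
    refine hlim.congr' ?_
    filter_upwards [eventually_gt_atTop (0:ℝ)] with L hL
    apply intervalIntegral.integral_congr_ae
    refine Filter.Eventually.of_forall fun s hs => ?_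
    rw [uIoc_of_le hL.le] at hs
    rw [Real.norm_of_nonneg (hf s hs.1)]
  have hI : IntegrableOn f (Ioi 0) volume :=
    integrableOn_Ioi_of_intervalIntegral_norm_tendsto c 0 hfi tendsto_id hnorm
  have hval : ∫ s in Ioi (0:ℝ), f s = c :=
    tendsto_nhds_unique (intervalIntegral_tendsto_integral_Ioi 0 hI tendsto_id) hlim
  rw [← hval, ofReal_integral_eq_lintegral_ofReal hI]
  filter_upwards [ae_restrict_mem measurableSet_Ioi] with s hs
  exact hf s hs

/-- A function that is antitone on `(0, ∞)` is measurable after extension by `0`. -/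
theorem measurable_ite_of_antitoneOn_Ioi {f : ℝ → ℝ} (hf : AntitoneOn f (Ioi 0)) :
    Measurable (fun s => if 0 < s then f s else 0) := by
  apply measurable_of_Ioi
  intro c
  have : (fun s => if 0 < s then f s else 0) ⁻¹' Ioi c
      = {s | 0 < s ∧ c < f s} ∪ {s | s ≤ 0 ∧ c < 0} := by
    ext s
    simp only [mem_preimage, mem_Ioi, mem_union, mem_ofPred_eq]
    by_cases h : 0 < s
    · simp [h, not_le.2 h]
    · simp [h, not_lt.1 h]
  rw [this]
  apply MeasurableSet.union
  · apply Set.OrdConnected.measurableSet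
    refine ⟨fun x hx y hy z hz => ?_⟩
    have hz0 : 0 < z := lt_of_lt_of_le hx.1 hz.1
    exact ⟨hz0, lt_of_lt_of_le hy.2 (hf hz0 hy.1 hz.2)⟩
  · by_cases hc : c < 0
    · have : {s : ℝ | s ≤ 0 ∧ c < 0} = Iic 0 := by
        ext s
        simp [hc]
      rw [this]
      exact measurableSet_Iic
    · have : {s : ℝ | s ≤ 0 ∧ c < 0} = ∅ := by
        ext s
        simp [hc]
      rw [this]
      exact MeasurableSet.empty

section core'

variable {ι κ κ' : Type*} [Fintype ι] [Fintype κ] [Fintype κ']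

/-- **(ASM')** the assembly with the measurability hypothesis replaced by monotonicity in `s`
(which is what the matrix side provides: `A0(s) = a* (T0+s)^-1 a` is Loewner-decreasing). -/
theorem lintegral_decoupled_le_of_antitoneOn (p : κ → ℝ) (q : κ' → ℝ) (al be : ℝ → ι → ℝ)
    (w0 w1 : ℝ) (hp : ∀ j, 0 ≤ p j) (hq : ∀ j, 0 ≤ q j)
    (hal0 : ∀ s, 0 < s → ∀ k, 0 ≤ al s k) (hbe0 : ∀ s, 0 < s → ∀ k, 0 ≤ be s k)
    (hanti_al : ∀ k, AntitoneOn (fun s => al s k) (Ioi 0))
    (hanti_be : ∀ k, AntitoneOn (fun s => be s k) (Ioi 0))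
    (hcal : ∀ s, 0 < s → ∀ u, 0 < u → (Finset.univ.filter fun k => u < al s k).card
      ≤ (Finset.univ.filter fun j => u * s < p j).card)
    (hcbe : ∀ s, 0 < s → ∀ v, 0 < v → (Finset.univ.filter fun k => v < be s k).card
      ≤ (Finset.univ.filter fun j => v * s < q j).card)
    (h4al : ∀ u, 0 < u → ENNReal.ofReal ((∑ j, p j) / u - w0)
      ≤ ∫⁻ s in Ioi (0:ℝ), ((Finset.univ.filter fun k => u < al s k).card : ℝ≥0∞))
    (h4be : ∀ v, 0 < v → ENNReal.ofReal ((∑ j, q j) / v - w1)
      ≤ ∫⁻ s in Ioi (0:ℝ), ((Finset.univ.filter fun k => v < be s k).card : ℝ≥0∞)) :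
    ∫⁻ s in Ioi (0:ℝ), ENNReal.ofReal ((∑ j, Real.log (1 + p j / s))
        + (∑ j, Real.log (1 + q j / s)) - ∑ k, Real.log (1 + al s k + be s k))
      ≤ I4 (∑ j, p j) (∑ j, q j) w0 w1 := by
  have key := lintegral_decoupled_le p q (fun s k => if 0 < s then al s k else 0)
    (fun s k => if 0 < s then be s k else 0) w0 w1 hp hq
    (fun s hs k => by simp only [if_pos hs]; exact hal0 s hs k)
    (fun s hs k => by simp only [if_pos hs]; exact hbe0 s hs k)
    (fun k => measurable_ite_of_antitoneOn_Ioi (hanti_al k))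
    (fun k => measurable_ite_of_antitoneOn_Ioi (hanti_be k))
    (fun s hs u hu => by simp only [if_pos hs]; exact hcal s hs u hu)
    (fun s hs u hu => by simp only [if_pos hs]; exact hcbe s hs u hu)
    (fun u hu => by
      refine (h4al u hu).trans (le_of_eq ?_)
      apply setLIntegral_congr_fun measurableSet_Ioi
      intro s hs
      have hs0 : 0 < s := hs
      simp only [if_pos hs0])
    (fun u hu => by
      refine (h4be u hu).trans (le_of_eq ?_)
      apply setLIntegral_congr_fun measurableSet_Ioi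
      intro s hs
      have hs0 : 0 < s := hs
      simp only [if_pos hs0])
  refine le_trans (le_of_eq ?_) key
  apply setLIntegral_congr_fun measurableSet_Ioi
  intro s hs
  have hs0 : 0 < s := hs
  simp only [if_pos hs0]

end core'

end Crest.Agent.GAD
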