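/-
Row 341 (GADC), lane B.  helper95.

Fiedler's determinant inequality (lower bound): for positive semidefinite `A`, `B` with
decreasingly sorted eigenvalues `α`, `β` (Mathlib's `eigenvalues₀`),
  `∏ k, (α k + β k) ≤ det (A + B)`,
together with the shifted forms `∏ (α k + β k + t) ≤ det (A + B + t • 1)` (`t ≥ 0`),
`∏ (1 + α k + β k) ≤ det (1 + A + B)` and its logarithm, and Ky Fan's partial-sum
inequality `∑_{i<k} γ i ≤ ∑_{i<k} (α i + β i)` for the sorted eigenvalues `γ` of `A + B`.

Proof (elementary, Mathlib only):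
* Ky Fan: with `V` the eigenvector unitary of `A + B`, `γ j = (Vᴴ A V) j j + (Vᴴ B V) j j`
  and `(Vᴴ A V) j j = ∑ i, α i * ‖W i j‖²` with `W = Uᴴ V` unitary; a fractional-knapsack
  bound finishes.
* product: `y ↦ ∏ y` against the majorisation, via `t ≤ exp (t - 1)` and Abel summation.

Main statements (namespace `Crest.Agent.GAD`): `kyFan_partial_sums`, `fiedler_prod_add_le`,
`fiedler_det_add_smul_one_ge`, `fiedler_det_ge`, `fiedler_det_one_add_ge`, `fiedler_sum_log_le`.
Auxiliary lemmas live in `Crest.Agent.GAD.Fiedler`.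
-/
import Mathlib

set_option autoImplicit false

namespace Crest.Agent.GAD

open Finset Matrix
open scoped ComplexOrder

namespace Fiedler

section Abstract

/-- Abel summation: if `c` is nondecreasing on `[0, N)`, all partial sums of `d` are
nonnegative and the total sum of `d` vanishes, then `∑ c i * d i ≤ 0`. -/
theorem abel_sum_nonpos (N : ℕ) (c d : ℕ → ℝ)
    (hc : ∀ i, i + 1 < N → c i ≤ c (i + 1))
    (hD : ∀ k, k ≤ N → 0 ≤ ∑ i ∈ range k, d i)
    (hN : ∑ i ∈ range N, d i = 0) :
    ∑ i ∈ range N, c i * d i ≤ 0 := by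
  have key : ∀ m, m + 1 ≤ N →
      ∑ i ∈ range (m + 1), c i * d i ≤ c m * ∑ i ∈ range (m + 1), d i := by
    intro m
    induction m with
    | zero => intro _; simp
    | succ m ih =>
      intro hm
      have h1 := ih (by omega)
      have h2 := hc m (by omega)
      have h3 := hD (m + 1) (by omega)
      rw [sum_range_succ, sum_range_succ (fun i => d i) (m + 1)]
      nlinarith [mul_le_mul_of_nonneg_right h2 h3]
  rcases Nat.eq_zero_or_pos N with h0 | hpos
  · subst h0; simp
  · obtain ⟨m, rfl⟩ : ∃ m, N = m + 1 := ⟨N - 1, by omega⟩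
    have := key m le_rfl
    rw [hN, mul_zero] at this
    exact this

/-- Karamata-type product inequality: if `x` is nonincreasing and nonnegative on `[0, N)`,
`y ≥ 0`, the partial sums of `x` are dominated by those of `y` and the total sums agree,
then `∏ y ≤ ∏ x`. -/
theorem prod_le_prod_of_partial_sums (N : ℕ) (x y : ℕ → ℝ)
    (hx : ∀ i, i + 1 < N → x (i + 1) ≤ x i)
    (hx0 : ∀ i, i < N → 0 ≤ x i) (hy0 : ∀ i, i < N → 0 ≤ y i)
    (hpart : ∀ k, k ≤ N → ∑ i ∈ range k, x i ≤ ∑ i ∈ range k, y i)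
    (htot : ∑ i ∈ range N, x i = ∑ i ∈ range N, y i) :
    ∏ i ∈ range N, y i ≤ ∏ i ∈ range N, x i := by
  rcases Nat.eq_zero_or_pos N with h0 | hpos
  · subst h0; simp
  obtain ⟨m, rfl⟩ : ∃ m, N = m + 1 := ⟨N - 1, by omega⟩
  -- the last entry: `y m ≤ x m`
  have hlast : y m ≤ x m := by
    have h1 := hpart m (by omega)
    rw [sum_range_succ, sum_range_succ] at htot
    linarith
  have hxprod : 0 ≤ ∏ i ∈ range (m + 1), x i :=
    prod_nonneg fun i hi => hx0 i (mem_range.mp hi)
  rcases (hx0 m (by omega)).eq_or_lt with hxm | hxm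
  · -- `x m = 0`, hence `y m = 0` and the left product vanishes
    have hym : y m = 0 := le_antisymm (by linarith) (hy0 m (by omega))
    have : ∏ i ∈ range (m + 1), y i = 0 :=
      prod_eq_zero (mem_range.mpr (Nat.lt_succ_self m)) hym
    rw [this]; exact hxprod
  · -- all `x i > 0`
    have hxanti : ∀ i j, i ≤ j → j < m + 1 → x j ≤ x i := by
      intro i j hij hj
      induction j with
      | zero =>
        have : i = 0 := by omega
        subst this; exact le_rfl
      | succ j ih =>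
        rcases Nat.lt_or_ge i (j + 1) with h | h
        · exact (hx j (by omega)).trans (ih (by omega) (by omega))
        · have : i = j + 1 := by omega
          subst this; exact le_rfl
    have hxpos : ∀ i, i < m + 1 → 0 < x i := fun i hi =>
      lt_of_lt_of_le hxm (hxanti i m (by omega) (by omega))
    -- Abel summation with `c i = 1 / x i`, `d i = y i - x i`
    have habel : ∑ i ∈ range (m + 1), (x i)⁻¹ * (y i - x i) ≤ 0 := by
      apply abel_sum_nonpos (m + 1) (fun i => (x i)⁻¹) (fun i => y i - x i)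
      · intro i hi
        have h1 := hxpos (i + 1) hi
        have h2 := hx i hi
        exact inv_anti₀ h1 h2
      · intro k hk
        rw [sum_sub_distrib]
        linarith [hpart k hk]
      · rw [sum_sub_distrib]; linarith
    have hsum : ∑ i ∈ range (m + 1), (y i / x i - 1) ≤ 0 := by
      refine le_trans (le_of_eq ?_) habel
      apply sum_congr rfl
      intro i hi
      have := (hxpos i (mem_range.mp hi)).ne'
      field_simp
    have hratio : ∏ i ∈ range (m + 1), (y i / x i) ≤ 1 := by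
      calc ∏ i ∈ range (m + 1), (y i / x i)
          ≤ ∏ i ∈ range (m + 1), Real.exp (y i / x i - 1) := by
            apply prod_le_prod
            · intro i hi
              exact div_nonneg (hy0 i (mem_range.mp hi)) (hxpos i (mem_range.mp hi)).le
            · intro i hi
              have := Real.add_one_le_exp (y i / x i - 1)
              linarith
        _ = Real.exp (∑ i ∈ range (m + 1), (y i / x i - 1)) := (Real.exp_sum _ _).symm
        _ ≤ 1 := Real.exp_le_one_iff.mpr hsum
    have hsplit : ∏ i ∈ range (m + 1), y i =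
        (∏ i ∈ range (m + 1), (y i / x i)) * ∏ i ∈ range (m + 1), x i := by
      rw [← prod_mul_distrib]
      apply prod_congr rfl
      intro i hi
      have := (hxpos i (mem_range.mp hi)).ne'
      field_simp
    rw [hsplit]
    calc (∏ i ∈ range (m + 1), (y i / x i)) * ∏ i ∈ range (m + 1), x i
        ≤ 1 * ∏ i ∈ range (m + 1), x i := mul_le_mul_of_nonneg_right hratio hxprod
      _ = ∏ i ∈ range (m + 1), x i := one_mul _


/-- Fractional knapsack: weights in `[0,1]` of total mass `k` against a nonincreasing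
sequence collect at most the sum of its first `k` terms. -/
theorem knapsack (N k : ℕ) (hk : k ≤ N) (a q : ℕ → ℝ)
    (ha : ∀ i j, i ≤ j → j < N → a j ≤ a i)
    (hq0 : ∀ i, i < N → 0 ≤ q i) (hq1 : ∀ i, i < N → q i ≤ 1)
    (hsum : ∑ i ∈ range N, q i = k) :
    ∑ i ∈ range N, a i * q i ≤ ∑ i ∈ range k, a i := by
  rcases Nat.eq_zero_or_pos k with h0 | hpos
  · subst h0
    have hz : ∀ i ∈ range N, q i = 0 :=
      (Finset.sum_eq_zero_iff_of_nonneg (fun i hi => hq0 i (mem_range.mp hi))).mp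
        (by simpa using hsum)
    simp only [range_zero, sum_empty]
    apply le_of_eq
    apply Finset.sum_eq_zero
    intro i hi
    rw [hz i hi, mul_zero]
  · set c := a (k - 1) with hc
    have h1 : ∀ i ∈ range k, a i * q i ≤ a i + c * (q i - 1) := by
      intro i hi
      have hi' := mem_range.mp hi
      have hai : c ≤ a i := ha i (k - 1) (by omega) (by omega)
      have := hq1 i (by omega)
      nlinarith
    have h2 : ∀ i ∈ Ico k N, a i * q i ≤ c * q i := by
      intro i hi
      have hi' := mem_Ico.mp hi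
      have hai : a i ≤ c := ha (k - 1) i (by omega) hi'.2
      have := hq0 i hi'.2
      nlinarith
    rw [← sum_range_add_sum_Ico _ hk]
    have hs' : ∑ i ∈ range k, q i + ∑ i ∈ Ico k N, q i = k := by
      rw [sum_range_add_sum_Ico _ hk]; exact hsum
    calc ∑ i ∈ range k, a i * q i + ∑ i ∈ Ico k N, a i * q i
        ≤ ∑ i ∈ range k, (a i + c * (q i - 1)) + ∑ i ∈ Ico k N, c * q i :=
          add_le_add (sum_le_sum h1) (sum_le_sum h2)
      _ = ∑ i ∈ range k, a i + c * ((∑ i ∈ range k, q i + ∑ i ∈ Ico k N, q i) - k) := by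
          rw [sum_add_distrib, ← mul_sum, ← mul_sum, sum_sub_distrib]
          simp only [sum_const, card_range, nsmul_eq_mul, mul_one]
          ring
      _ = ∑ i ∈ range k, a i := by rw [hs']; ring

end Abstract

section Matrix

variable {𝕜 : Type*} [RCLike 𝕜] {n : Type*} [Fintype n] [DecidableEq n]

lemma conjTranspose_diagonal_mul_apply_self (W : Matrix n n 𝕜) (d : n → ℝ) (j : n) :
    (Wᴴ * diagonal (fun i => (d i : 𝕜)) * W) j j = ((∑ i, d i * ‖W i j‖ ^ 2 : ℝ) : 𝕜) := by
  rw [Matrix.mul_apply]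
  push_cast
  apply Finset.sum_congr rfl
  intro i _
  rw [Matrix.mul_diagonal, Matrix.conjTranspose_apply, ← RCLike.conj_mul, RCLike.star_def]
  ring

lemma col_sum_of_conjTranspose_mul_self (W : Matrix n n 𝕜) (hW : Wᴴ * W = 1) (j : n) :
    ∑ i, ‖W i j‖ ^ 2 = 1 := by
  have h := congrFun (congrFun hW j) j
  rw [Matrix.mul_apply, Matrix.one_apply_eq] at h
  apply RCLike.ofReal_injective (K := 𝕜)
  push_cast
  rw [← h]
  apply Finset.sum_congr rfl
  intro i _
  rw [Matrix.conjTranspose_apply, ← RCLike.conj_mul, RCLike.star_def]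

lemma row_sum_of_mul_conjTranspose_self (W : Matrix n n 𝕜) (hW : W * Wᴴ = 1) (i : n) :
    ∑ j, ‖W i j‖ ^ 2 = 1 := by
  have h := congrFun (congrFun hW i) i
  rw [Matrix.mul_apply, Matrix.one_apply_eq] at h
  apply RCLike.ofReal_injective (K := 𝕜)
  push_cast
  rw [← h]
  apply Finset.sum_congr rfl
  intro j _
  rw [Matrix.conjTranspose_apply, ← RCLike.conj_mul, RCLike.star_def]
  ring

/-- Diagonal entries of `Vᴴ A V` through the spectral decomposition of `A`. -/
lemma conj_apply_self_eq {A : Matrix n n 𝕜} (hA : A.IsHermitian) (V : Matrix n n 𝕜) (j : n) :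
    (Vᴴ * A * V) j j =
      ((∑ i, hA.eigenvalues i *
        ‖((hA.eigenvectorUnitary : Matrix n n 𝕜)ᴴ * V) i j‖ ^ 2 : ℝ) : 𝕜) := by
  rw [← conjTranspose_diagonal_mul_apply_self]
  have hs := hA.spectral_theorem
  rw [Unitary.conjStarAlgAut_apply] at hs
  conv_lhs => rw [hs]
  simp only [Matrix.conjTranspose_mul, Matrix.conjTranspose_conjTranspose, Matrix.mul_assoc,
    Matrix.star_eq_conjTranspose]
  rfl

lemma eigenvalues_equiv {A : Matrix n n 𝕜} (hA : A.IsHermitian) (i : Fin (Fintype.card n)) :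
    hA.eigenvalues ((Fintype.equivOfCardEq (Fintype.card_fin _)) i) = hA.eigenvalues₀ i := by
  simp [Matrix.IsHermitian.eigenvalues]

/-- For a "doubly stochastic" weight matrix coming from a unitary `W`, the sum over `k`
columns of the `α`-weighted column sums is at most the sum of the `k` largest eigenvalues. -/
lemma top_sum_le {A : Matrix n n 𝕜} (hA : A.IsHermitian) (W : Matrix n n 𝕜)
    (hW1 : Wᴴ * W = 1) (hW2 : W * Wᴴ = 1) (k : ℕ) (hk : k ≤ Fintype.card n)
    (ι : Fin k → n) (hι : Function.Injective ι) :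
    ∑ i : Fin k, ∑ l, hA.eigenvalues l * ‖W l (ι i)‖ ^ 2 ≤
      ∑ i : Fin k, hA.eigenvalues₀ (Fin.castLE hk i) := by
  classical
  set N := Fintype.card n with hN
  set e : Fin N ≃ n := Fintype.equivOfCardEq (Fintype.card_fin _) with he
  -- weights
  set P : n → ℝ := fun l => ∑ i : Fin k, ‖W l (ι i)‖ ^ 2 with hP
  have hP0 : ∀ l, 0 ≤ P l := fun l => sum_nonneg fun i _ => by positivity
  have hP1 : ∀ l, P l ≤ 1 := by
    intro l
    rw [← row_sum_of_mul_conjTranspose_self W hW2 l]
    have : P l = ∑ j ∈ (univ : Finset (Fin k)).image ι, ‖W l j‖ ^ 2 := by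
      rw [sum_image (fun x _ y _ h => hι h)]
    rw [this]
    exact sum_le_sum_of_subset_of_nonneg (subset_univ _) (fun j _ _ => by positivity)
  have hPsum : ∑ l, P l = k := by
    simp only [hP]
    rw [sum_comm]
    simp [col_sum_of_conjTranspose_mul_self W hW1]
  -- rewrite the left side
  have hL : ∑ i : Fin k, ∑ l, hA.eigenvalues l * ‖W l (ι i)‖ ^ 2
      = ∑ m : Fin N, hA.eigenvalues₀ m * P (e m) := by
    rw [sum_comm]
    rw [← Equiv.sum_comp e]
    apply sum_congr rfl
    intro m _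
    rw [← mul_sum, eigenvalues_equiv]
  rw [hL]
  -- ℕ-indexed sequences
  set a : ℕ → ℝ := fun i => if h : i < N then hA.eigenvalues₀ ⟨i, h⟩ else 0 with ha
  set q : ℕ → ℝ := fun i => if h : i < N then P (e ⟨i, h⟩) else 0 with hq
  have h1 : ∑ m : Fin N, hA.eigenvalues₀ m * P (e m) = ∑ i ∈ range N, a i * q i := by
    rw [Finset.sum_range]
    apply sum_congr rfl
    intro m _
    simp [ha, hq, m.is_lt]
  have h2 : ∑ i : Fin k, hA.eigenvalues₀ (Fin.castLE hk i) = ∑ i ∈ range k, a i := by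
    rw [Finset.sum_range]
    apply sum_congr rfl
    intro i _
    have : (i : ℕ) < N := lt_of_lt_of_le i.is_lt hk
    simp [ha, this]
    rfl
  rw [h1, h2]
  apply knapsack N k hk a q
  · intro i j hij hj
    have hi : i < N := lt_of_le_of_lt hij hj
    simp only [ha, dif_pos hi, dif_pos hj]
    exact hA.eigenvalues₀_antitone (Fin.mk_le_mk.mpr hij)
  · intro i hi
    simp only [hq, dif_pos hi]; exact hP0 _
  · intro i hi
    simp only [hq, dif_pos hi]; exact hP1 _
  · have : ∑ i ∈ range N, q i = ∑ m : Fin N, P (e m) := by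
      rw [Finset.sum_range]
      apply sum_congr rfl
      intro m _
      simp [hq, m.is_lt]
    rw [this, Equiv.sum_comp e, hPsum]

/-- The matrix `Uᴴ V` for unitaries `U`, `V` is unitary. -/
lemma unitary_conjTranspose_mul (U V : Matrix.unitaryGroup n 𝕜) :
    ((U : Matrix n n 𝕜)ᴴ * (V : Matrix n n 𝕜))ᴴ * ((U : Matrix n n 𝕜)ᴴ * (V : Matrix n n 𝕜)) = 1 ∧
    ((U : Matrix n n 𝕜)ᴴ * (V : Matrix n n 𝕜)) * ((U : Matrix n n 𝕜)ᴴ * (V : Matrix n n 𝕜))ᴴ = 1 := by
  have hU1 : (U : Matrix n n 𝕜)ᴴ * (U : Matrix n n 𝕜) = 1 := by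
    rw [← Matrix.star_eq_conjTranspose]; exact Matrix.mem_unitaryGroup_iff'.mp U.2
  have hU2 : (U : Matrix n n 𝕜) * (U : Matrix n n 𝕜)ᴴ = 1 := by
    rw [← Matrix.star_eq_conjTranspose]; exact Matrix.mem_unitaryGroup_iff.mp U.2
  have hV1 : (V : Matrix n n 𝕜)ᴴ * (V : Matrix n n 𝕜) = 1 := by
    rw [← Matrix.star_eq_conjTranspose]; exact Matrix.mem_unitaryGroup_iff'.mp V.2
  have hV2 : (V : Matrix n n 𝕜) * (V : Matrix n n 𝕜)ᴴ = 1 := by
    rw [← Matrix.star_eq_conjTranspose]; exact Matrix.mem_unitaryGroup_iff.mp V.2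
  constructor
  · rw [Matrix.conjTranspose_mul, Matrix.conjTranspose_conjTranspose]
    calc (V : Matrix n n 𝕜)ᴴ * (U : Matrix n n 𝕜) * ((U : Matrix n n 𝕜)ᴴ * (V : Matrix n n 𝕜))
        = (V : Matrix n n 𝕜)ᴴ * ((U : Matrix n n 𝕜) * (U : Matrix n n 𝕜)ᴴ) * (V : Matrix n n 𝕜) := by
          simp only [Matrix.mul_assoc]
      _ = 1 := by rw [hU2, Matrix.mul_one, hV1]
  · rw [Matrix.conjTranspose_mul, Matrix.conjTranspose_conjTranspose]
    calc (U : Matrix n n 𝕜)ᴴ * (V : Matrix n n 𝕜) * ((V : Matrix n n 𝕜)ᴴ * (U : Matrix n n 𝕜))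
        = (U : Matrix n n 𝕜)ᴴ * ((V : Matrix n n 𝕜) * (V : Matrix n n 𝕜)ᴴ) * (U : Matrix n n 𝕜) := by
          simp only [Matrix.mul_assoc]
      _ = 1 := by rw [hV2, Matrix.mul_one, hU1]

end Matrix

end Fiedler

section KyFan

variable {𝕜 : Type*} [RCLike 𝕜] {n : Type*} [Fintype n] [DecidableEq n]

open Fiedler in
/-- **Ky Fan's inequality** for partial sums of sorted eigenvalues. -/
theorem kyFan_partial_sums {A B : Matrix n n 𝕜} (hA : A.IsHermitian) (hB : B.IsHermitian)
    (hC : (A + B).IsHermitian) (k : ℕ) (hk : k ≤ Fintype.card n) :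
    ∑ i : Fin k, hC.eigenvalues₀ (Fin.castLE hk i) ≤
      ∑ i : Fin k, (hA.eigenvalues₀ (Fin.castLE hk i) + hB.eigenvalues₀ (Fin.castLE hk i)) := by
  classical
  set N := Fintype.card n with hN
  set e : Fin N ≃ n := Fintype.equivOfCardEq (Fintype.card_fin _) with he
  set V : Matrix n n 𝕜 := (hC.eigenvectorUnitary : Matrix n n 𝕜) with hV
  -- diagonalisation of `A + B`
  have hdiag : Vᴴ * (A + B) * V = diagonal (RCLike.ofReal ∘ hC.eigenvalues) := by
    have := hC.conjStarAlgAut_star_eigenvectorUnitary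
    rw [Unitary.conjStarAlgAut_star_apply] at this
    rw [← this, Matrix.star_eq_conjTranspose]
  have hγ : ∀ j, hC.eigenvalues j =
      (∑ l, hA.eigenvalues l * ‖((hA.eigenvectorUnitary : Matrix n n 𝕜)ᴴ * V) l j‖ ^ 2) +
      (∑ l, hB.eigenvalues l * ‖((hB.eigenvectorUnitary : Matrix n n 𝕜)ᴴ * V) l j‖ ^ 2) := by
    intro j
    apply RCLike.ofReal_injective (K := 𝕜)
    have h1 := congrFun (congrFun hdiag j) j
    rw [Matrix.diagonal_apply_eq] at h1
    rw [Matrix.mul_add, Matrix.add_mul, Matrix.add_apply, conj_apply_self_eq hA V j,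
      conj_apply_self_eq hB V j] at h1
    rw [RCLike.ofReal_add]
    exact h1.symm
  set ι : Fin k → n := fun i => e (Fin.castLE hk i) with hι
  have hιinj : Function.Injective ι := by
    intro i j hij
    have := e.injective hij
    exact Fin.castLE_injective hk this
  have hWA := unitary_conjTranspose_mul hA.eigenvectorUnitary hC.eigenvectorUnitary
  have hWB := unitary_conjTranspose_mul hB.eigenvectorUnitary hC.eigenvectorUnitary
  have hTA := top_sum_le hA _ hWA.1 hWA.2 k hk ι hιinj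
  have hTB := top_sum_le hB _ hWB.1 hWB.2 k hk ι hιinj
  calc ∑ i : Fin k, hC.eigenvalues₀ (Fin.castLE hk i)
      = ∑ i : Fin k, hC.eigenvalues (ι i) := by
        apply sum_congr rfl; intro i _; rw [hι]; exact (eigenvalues_equiv hC _).symm
    _ = (∑ i : Fin k, ∑ l, hA.eigenvalues l *
            ‖((hA.eigenvectorUnitary : Matrix n n 𝕜)ᴴ * V) l (ι i)‖ ^ 2) +
        (∑ i : Fin k, ∑ l, hB.eigenvalues l *
            ‖((hB.eigenvectorUnitary : Matrix n n 𝕜)ᴴ * V) l (ι i)‖ ^ 2) := by
        rw [← sum_add_distrib]; apply sum_congr rfl; intro i _; exact hγ _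
    _ ≤ ∑ i : Fin k, hA.eigenvalues₀ (Fin.castLE hk i) +
          ∑ i : Fin k, hB.eigenvalues₀ (Fin.castLE hk i) := add_le_add hTA hTB
    _ = _ := by rw [← sum_add_distrib]

end KyFan

namespace Fiedler

section Matrix2

variable {𝕜 : Type*} [RCLike 𝕜] {n : Type*} [Fintype n] [DecidableEq n]

/-- `det (C + t • 1) = ∏ (γ j + t)` for Hermitian `C` with eigenvalues `γ`. -/
lemma det_add_smul_one_eq_prod {C : Matrix n n 𝕜} (hC : C.IsHermitian) (t : ℝ) :
    (C + (t : 𝕜) • (1 : Matrix n n 𝕜)).det = ∏ j, ((hC.eigenvalues j + t : ℝ) : 𝕜) := by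
  set U : Matrix n n 𝕜 := (hC.eigenvectorUnitary : Matrix n n 𝕜) with hU
  have hUU : U * star U = 1 := Matrix.mem_unitaryGroup_iff.mp hC.eigenvectorUnitary.2
  have hUU' : star U * U = 1 := Matrix.mem_unitaryGroup_iff'.mp hC.eigenvectorUnitary.2
  have hs := hC.spectral_theorem
  rw [Unitary.conjStarAlgAut_apply] at hs
  have h1 : C + (t : 𝕜) • (1 : Matrix n n 𝕜) =
      U * diagonal (fun j => ((hC.eigenvalues j + t : ℝ) : 𝕜)) * star U := by
    have hd : diagonal (fun j => ((hC.eigenvalues j + t : ℝ) : 𝕜)) =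
        diagonal (RCLike.ofReal ∘ hC.eigenvalues) + (t : 𝕜) • (1 : Matrix n n 𝕜) := by
      ext i j
      by_cases hij : i = j
      · subst hij
        rw [Matrix.add_apply, Matrix.diagonal_apply_eq, Matrix.diagonal_apply_eq,
          Matrix.smul_apply, Matrix.one_apply_eq, smul_eq_mul, mul_one]
        push_cast; rfl
      · rw [Matrix.add_apply, Matrix.diagonal_apply_ne _ hij, Matrix.diagonal_apply_ne _ hij,
          Matrix.smul_apply, Matrix.one_apply_ne hij, smul_zero, add_zero]
    rw [hd, Matrix.mul_add, Matrix.add_mul, Matrix.mul_smul, Matrix.smul_mul, Matrix.mul_one, hUU]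
    conv_lhs => rw [hs]
  rw [h1, Matrix.det_conj_of_mul_eq_one hUU hUU', Matrix.det_diagonal]

lemma sum_eigenvalues₀_eq {A : Matrix n n 𝕜} (hA : A.IsHermitian) :
    ∑ i, hA.eigenvalues₀ i = ∑ j, hA.eigenvalues j := by
  rw [← Equiv.sum_comp (Fintype.equivOfCardEq (Fintype.card_fin (Fintype.card n)))]
  apply sum_congr rfl; intro i _; exact (eigenvalues_equiv hA i).symm

lemma prod_eigenvalues₀_eq {A : Matrix n n 𝕜} (hA : A.IsHermitian) :
    ∏ i, hA.eigenvalues₀ i = ∏ j, hA.eigenvalues j := by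
  rw [← Equiv.prod_comp (Fintype.equivOfCardEq (Fintype.card_fin (Fintype.card n)))]
  apply prod_congr rfl; intro i _; exact (eigenvalues_equiv hA i).symm

lemma eigenvalues₀_nonneg {A : Matrix n n 𝕜} (hA : A.PosSemidef) (i : Fin (Fintype.card n)) :
    0 ≤ hA.isHermitian.eigenvalues₀ i := by
  rw [← eigenvalues_equiv]; exact hA.eigenvalues_nonneg _

/-- Trace additivity for sorted eigenvalues. -/
lemma sum_eigenvalues₀_add {A B : Matrix n n 𝕜} (hA : A.IsHermitian) (hB : B.IsHermitian)
    (hC : (A + B).IsHermitian) :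
    ∑ i, hC.eigenvalues₀ i = ∑ i, (hA.eigenvalues₀ i + hB.eigenvalues₀ i) := by
  rw [sum_add_distrib, sum_eigenvalues₀_eq, sum_eigenvalues₀_eq, sum_eigenvalues₀_eq]
  apply RCLike.ofReal_injective (K := 𝕜)
  push_cast
  rw [← hC.trace_eq_sum_eigenvalues, ← hA.trace_eq_sum_eigenvalues,
    ← hB.trace_eq_sum_eigenvalues, Matrix.trace_add]

end Matrix2

end Fiedler

section Main

variable {𝕜 : Type*} [RCLike 𝕜] {n : Type*} [Fintype n] [DecidableEq n]

open Fiedler

/-- **Fiedler's inequality** (lower bound), shifted product form on sorted eigenvalues: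
`∏ (α k + β k + t) ≤ ∏ (γ k + t)` for `t ≥ 0`, `γ` the eigenvalues of `A + B`. -/
theorem fiedler_prod_add_le {A B : Matrix n n 𝕜} (hA : A.PosSemidef) (hB : B.PosSemidef)
    {t : ℝ} (ht : 0 ≤ t) :
    ∏ i, (hA.isHermitian.eigenvalues₀ i + hB.isHermitian.eigenvalues₀ i + t) ≤
      ∏ i, ((hA.add hB).isHermitian.eigenvalues₀ i + t) := by
  classical
  set N := Fintype.card n with hN
  have hAh := hA.isHermitian
  have hBh := hB.isHermitian
  have hCh := (hA.add hB).isHermitian
  set x : ℕ → ℝ := fun i => if h : i < N then hCh.eigenvalues₀ ⟨i, h⟩ + t else 0 with hx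
  set y : ℕ → ℝ := fun i => if h : i < N then
    hAh.eigenvalues₀ ⟨i, h⟩ + hBh.eigenvalues₀ ⟨i, h⟩ + t else 0 with hy
  have hX : ∏ i, (hCh.eigenvalues₀ i + t) = ∏ i ∈ range N, x i := by
    rw [Finset.prod_range]; apply prod_congr rfl; intro i _; simp [hx]
  have hY : ∏ i, (hAh.eigenvalues₀ i + hBh.eigenvalues₀ i + t) = ∏ i ∈ range N, y i := by
    rw [Finset.prod_range]; apply prod_congr rfl; intro i _; simp [hy]
  rw [hX, hY]
  apply prod_le_prod_of_partial_sums N x y
  · intro i hi
    have hi' : i < N := by omega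
    simp only [hx, dif_pos hi, dif_pos hi']
    have := hCh.eigenvalues₀_antitone (Fin.mk_le_mk.mpr (Nat.le_succ i) :
      (⟨i, hi'⟩ : Fin N) ≤ ⟨i + 1, hi⟩)
    linarith
  · intro i hi
    simp only [hx, dif_pos hi]
    exact add_nonneg (eigenvalues₀_nonneg (hA.add hB) _) ht
  · intro i hi
    simp only [hy, dif_pos hi]
    exact add_nonneg (add_nonneg (eigenvalues₀_nonneg hA _) (eigenvalues₀_nonneg hB _)) ht
  · intro k hk
    rw [Finset.sum_range, Finset.sum_range]
    have h := kyFan_partial_sums hAh hBh hCh k hk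
    have e1 : ∀ i : Fin k, x (i : ℕ) = hCh.eigenvalues₀ (Fin.castLE hk i) + t := by
      intro i
      have : (i : ℕ) < N := lt_of_lt_of_le i.is_lt hk
      simp only [hx, dif_pos this]; rfl
    have e2 : ∀ i : Fin k, y (i : ℕ) =
        hAh.eigenvalues₀ (Fin.castLE hk i) + hBh.eigenvalues₀ (Fin.castLE hk i) + t := by
      intro i
      have : (i : ℕ) < N := lt_of_lt_of_le i.is_lt hk
      simp only [hy, dif_pos this]; rfl
    simp only [e1, e2, sum_add_distrib] at h ⊢
    linarith
  · rw [Finset.sum_range, Finset.sum_range]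
    have h := sum_eigenvalues₀_add hAh hBh hCh
    have e1 : ∀ i : Fin N, x (i : ℕ) = hCh.eigenvalues₀ i + t := by
      intro i; simp only [hx, dif_pos i.is_lt, Fin.eta]
    have e2 : ∀ i : Fin N, y (i : ℕ) = hAh.eigenvalues₀ i + hBh.eigenvalues₀ i + t := by
      intro i; simp only [hy, dif_pos i.is_lt, Fin.eta]
    simp only [e1, e2]
    rw [sum_add_distrib, sum_add_distrib, h]

/-- **Fiedler's determinant inequality** (lower bound), shifted form: for positive
semidefinite `A`, `B` with decreasingly sorted eigenvalues `α`, `β` (Mathlib's `eigenvalues₀`)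
and `t ≥ 0`:  `∏ (α k + β k + t) ≤ det (A + B + t • 1)`. -/
theorem fiedler_det_add_smul_one_ge {A B : Matrix n n 𝕜} (hA : A.PosSemidef)
    (hB : B.PosSemidef) {t : ℝ} (ht : 0 ≤ t) :
    ∏ i, (hA.isHermitian.eigenvalues₀ i + hB.isHermitian.eigenvalues₀ i + t) ≤
      RCLike.re (A + B + (t : 𝕜) • (1 : Matrix n n 𝕜)).det := by
  have h := fiedler_prod_add_le hA hB ht
  have hCh := (hA.add hB).isHermitian
  have hdet : RCLike.re (A + B + (t : 𝕜) • (1 : Matrix n n 𝕜)).det =
      ∏ i, (hCh.eigenvalues₀ i + t) := by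
    rw [det_add_smul_one_eq_prod hCh t, ← RCLike.ofReal_prod, RCLike.ofReal_re,
      ← Equiv.prod_comp (Fintype.equivOfCardEq (Fintype.card_fin (Fintype.card n)))]
    apply prod_congr rfl; intro i _; rw [eigenvalues_equiv]
  rw [hdet]; exact h

/-- **Fiedler's determinant inequality** (lower bound): for positive semidefinite `A`, `B`
with decreasingly sorted eigenvalues `α`, `β` (Mathlib's `eigenvalues₀`),
`∏ (α k + β k) ≤ det (A + B)`. -/
theorem fiedler_det_ge {A B : Matrix n n 𝕜} (hA : A.PosSemidef) (hB : B.PosSemidef) :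
    ∏ i, (hA.isHermitian.eigenvalues₀ i + hB.isHermitian.eigenvalues₀ i) ≤
      RCLike.re (A + B).det := by
  have h := fiedler_det_add_smul_one_ge (𝕜 := 𝕜) hA hB (le_refl (0 : ℝ))
  simpa using h

/-- The form used in the log-det argument:
`∏ (1 + α k + β k) ≤ det (1 + A + B)` for positive semidefinite `A`, `B`. -/
theorem fiedler_det_one_add_ge {A B : Matrix n n 𝕜} (hA : A.PosSemidef) (hB : B.PosSemidef) :
    ∏ i, (1 + hA.isHermitian.eigenvalues₀ i + hB.isHermitian.eigenvalues₀ i) ≤
      RCLike.re (1 + A + B).det := by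
  have h := fiedler_det_add_smul_one_ge (𝕜 := 𝕜) hA hB (zero_le_one' ℝ)
  have e : A + B + ((1 : ℝ) : 𝕜) • (1 : Matrix n n 𝕜) = 1 + A + B := by
    rw [RCLike.ofReal_one, one_smul]; abel
  rw [e] at h
  refine le_trans (le_of_eq ?_) h
  apply prod_congr rfl; intro i _; ring

/-- Logarithmic form: `∑ log (1 + α k + β k) ≤ log det (1 + A + B)`. -/
theorem fiedler_sum_log_le {A B : Matrix n n 𝕜} (hA : A.PosSemidef) (hB : B.PosSemidef) :
    ∑ i, Real.log (1 + hA.isHermitian.eigenvalues₀ i + hB.isHermitian.eigenvalues₀ i) ≤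
      Real.log (RCLike.re (1 + A + B).det) := by
  have h := fiedler_det_one_add_ge (𝕜 := 𝕜) hA hB
  have hpos : ∀ i, 0 < 1 + hA.isHermitian.eigenvalues₀ i + hB.isHermitian.eigenvalues₀ i := by
    intro i
    have h1 := eigenvalues₀_nonneg hA i
    have h2 := eigenvalues₀_nonneg hB i
    linarith
  rw [← Real.log_prod (fun i _ => (hpos i).ne')]
  exact Real.log_le_log (prod_pos fun i _ => hpos i) h

end Main

end Crest.Agent.GAD
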