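import Mathlib
import Crest.Agent.GAD.Entropy

/-!
# Eigenvalue counting, Loewner monotonicity and the inertia inequality (row 341, matrix side)

Everything is phrased through the real quadratic form `qf A v = re (v* A v)` and the counting
function `countGt hA c = #{i | c < eigenvalue i}` of a Hermitian matrix.  No subspaces, no matrix
square roots, no continuity of eigenvalues.
-/

set_option autoImplicit false
set_option linter.unusedSectionVars false

namespace Crest.Agent.GAD.Inertia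

open Matrix
open scoped ComplexOrder

section basic

variable {n m : Type*} [Fintype n] [Fintype m]

/-- the real quadratic form `re (v* A v)` -/
noncomputable def qf (A : Matrix n n ℂ) (v : n → ℂ) : ℝ := (star v ⬝ᵥ A *ᵥ v).re

/-- the squared Euclidean norm `re (v* v)` -/
noncomputable def nsq (v : n → ℂ) : ℝ := (star v ⬝ᵥ v).re

theorem nsq_eq_sum (v : n → ℂ) : nsq v = ∑ i, Complex.normSq (v i) := by
  unfold nsq
  simp only [dotProduct, Pi.star_apply, Complex.re_sum]
  refine Finset.sum_congr rfl fun i _ => ?_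
  rw [Complex.star_def, mul_comm, Complex.mul_conj]
  simp

theorem nsq_nonneg (v : n → ℂ) : 0 ≤ nsq v := by
  rw [nsq_eq_sum]
  exact Finset.sum_nonneg fun i _ => Complex.normSq_nonneg _

theorem nsq_eq_zero_iff (v : n → ℂ) : nsq v = 0 ↔ v = 0 := by
  rw [nsq_eq_sum, Finset.sum_eq_zero_iff_of_nonneg fun i _ => Complex.normSq_nonneg _]
  constructor
  · intro h
    funext i
    simpa using h i (Finset.mem_univ i)
  · intro h i _
    simp [h]

theorem nsq_pos {v : n → ℂ} (hv : v ≠ 0) : 0 < nsq v :=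
  lt_of_le_of_ne (nsq_nonneg v) fun h => hv ((nsq_eq_zero_iff v).1 h.symm)

theorem nsq_zero : nsq (0 : n → ℂ) = 0 := (nsq_eq_zero_iff 0).2 rfl

theorem qf_zero_vec (A : Matrix n n ℂ) : qf A 0 = 0 := by
  unfold qf; simp

theorem qf_add (A B : Matrix n n ℂ) (v : n → ℂ) : qf (A + B) v = qf A v + qf B v := by
  unfold qf
  rw [Matrix.add_mulVec, dotProduct_add, Complex.add_re]

theorem qf_sub (A B : Matrix n n ℂ) (v : n → ℂ) : qf (A - B) v = qf A v - qf B v := by
  unfold qf
  rw [Matrix.sub_mulVec, dotProduct_sub, Complex.sub_re]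

theorem qf_smul (c : ℝ) (A : Matrix n n ℂ) (v : n → ℂ) : qf ((c : ℂ) • A) v = c * qf A v := by
  unfold qf
  rw [Matrix.smul_mulVec, dotProduct_smul, smul_eq_mul, Complex.re_ofReal_mul]

theorem qf_one [DecidableEq n] (v : n → ℂ) : qf (1 : Matrix n n ℂ) v = nsq v := by
  unfold qf nsq
  rw [Matrix.one_mulVec]

theorem qf_smul_vec (c : ℝ) (A : Matrix n n ℂ) (v : n → ℂ) :
    qf A ((c : ℂ) • v) = c ^ 2 * qf A v := by
  unfold qf
  rw [Matrix.mulVec_smul, star_smul, smul_dotProduct, dotProduct_smul, smul_eq_mul, smul_eq_mul,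
    ← mul_assoc]
  have : star (c : ℂ) * (c : ℂ) = ((c ^ 2 : ℝ) : ℂ) := by
    rw [Complex.star_def, Complex.conj_ofReal]; push_cast; ring
  rw [this, Complex.re_ofReal_mul]

/-- `x* (C* R C) x = (C x)* R (C x)` -/
theorem qf_conj (C : Matrix m n ℂ) (R : Matrix m m ℂ) (x : n → ℂ) :
    qf (Cᴴ * R * C) x = qf R (C *ᵥ x) := by
  unfold qf
  rw [Matrix.star_mulVec, ← Matrix.mulVec_mulVec, ← Matrix.mulVec_mulVec,
    Matrix.dotProduct_mulVec]

theorem nsq_mulVec [DecidableEq m] (C : Matrix m n ℂ) (x : n → ℂ) :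
    nsq (C *ᵥ x) = qf (Cᴴ * C) x := by
  have := qf_conj C (1 : Matrix m m ℂ) x
  rw [Matrix.mul_one, qf_one] at this
  exact this.symm

theorem qf_nonneg {A : Matrix n n ℂ} (hA : A.PosSemidef) (v : n → ℂ) : 0 ≤ qf A v :=
  hA.re_dotProduct_nonneg v

/-- `re (q* r) = re (r* q)` -/
theorem re_star_dotProduct_comm (q r : n → ℂ) : (star q ⬝ᵥ r).re = (star r ⬝ᵥ q).re := by
  rw [Matrix.star_dotProduct, Complex.star_def, Complex.conj_re]

end basic

section spectral

variable {n : Type*} [Fintype n] [DecidableEq n]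

theorem nsq_star_unitary {U : Matrix n n ℂ} (hU : U ∈ Matrix.unitaryGroup n ℂ) (v : n → ℂ) :
    nsq (star U *ᵥ v) = nsq v := by
  rw [nsq_mulVec, Matrix.star_eq_conjTranspose, Matrix.conjTranspose_conjTranspose,
    ← Matrix.star_eq_conjTranspose, (Matrix.mem_unitaryGroup_iff).1 hU, qf_one]

theorem qf_conj_diagonal (U : Matrix n n ℂ) (c : n → ℝ) (v : n → ℂ) :
    qf (U * Matrix.diagonal (fun i => (c i : ℂ)) * star U) v
      = ∑ i, c i * Complex.normSq ((star U *ᵥ v) i) := by
  have h := qf_conj (star U) (Matrix.diagonal (fun i => (c i : ℂ))) v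
  rw [Matrix.star_eq_conjTranspose, Matrix.conjTranspose_conjTranspose,
    ← Matrix.star_eq_conjTranspose] at h
  rw [h]
  unfold qf
  simp only [dotProduct, Pi.star_apply, Matrix.mulVec_diagonal, Complex.re_sum]
  refine Finset.sum_congr rfl fun i _ => ?_
  set y := (star U *ᵥ v) i
  have : star y * ((c i : ℂ) * y) = ((c i * Complex.normSq y : ℝ) : ℂ) := by
    rw [Complex.star_def]
    have h2 : (starRingEnd ℂ) y * y = (Complex.normSq y : ℂ) := by
      rw [mul_comm, Complex.mul_conj]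
    push_cast
    rw [← h2]; ring
  rw [this, Complex.ofReal_re]

/-- the number of eigenvalues of a Hermitian matrix exceeding `c` -/
noncomputable def countGt {A : Matrix n n ℂ} (hA : A.IsHermitian) (c : ℝ) : ℕ :=
  Fintype.card {i // c < hA.eigenvalues i}

/-- extension by zero, as a linear map -/
noncomputable def extL (p : n → Prop) [DecidablePred p] : ({i // p i} → ℂ) →ₗ[ℂ] (n → ℂ) where
  toFun z i := if h : p i then z ⟨i, h⟩ else 0
  map_add' x y := by
    funext i
    by_cases h : p i <;> simp [h]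
  map_smul' c x := by
    funext i
    by_cases h : p i <;> simp [h]

omit [Fintype n] [DecidableEq n] in
theorem extL_apply (p : n → Prop) [DecidablePred p] (z : {i // p i} → ℂ) (i : n) :
    extL p z i = if h : p i then z ⟨i, h⟩ else 0 := rfl

omit [DecidableEq n] in
theorem sum_extL (p : n → Prop) [DecidablePred p] (z : {i // p i} → ℂ) (f : n → ℂ → ℝ)
    (hf : ∀ i, f i 0 = 0) : ∑ i, f i (extL p z i) = ∑ j : {i // p i}, f j.1 (z j) := by
  have h1 : ∑ j : {i // p i}, f j.1 (z j) = ∑ j : {i // p i}, f j.1 (extL p z j.1) := by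
    refine Finset.sum_congr rfl fun j _ => ?_
    rw [extL_apply, dif_pos j.2]
  rw [h1, ← Finset.sum_subtype (Finset.univ.filter p) (by simp) (fun i => f i (extL p z i)),
    Finset.sum_filter]
  refine Finset.sum_congr rfl fun i _ => ?_
  by_cases h : p i
  · simp [h]
  · simp [h, extL_apply, hf]

/-- eigen-coordinates of a vector -/
noncomputable def coords {A : Matrix n n ℂ} (hA : A.IsHermitian) (v : n → ℂ) : n → ℂ :=
  star (hA.eigenvectorUnitary : Matrix n n ℂ) *ᵥ v

theorem nsq_coords {A : Matrix n n ℂ} (hA : A.IsHermitian) (v : n → ℂ) :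
    nsq (coords hA v) = nsq v :=
  nsq_star_unitary hA.eigenvectorUnitary.2 v

theorem qf_eq_sum {A : Matrix n n ℂ} (hA : A.IsHermitian) (v : n → ℂ) :
    qf A v = ∑ i, hA.eigenvalues i * Complex.normSq (coords hA v i) := by
  have h := qf_conj_diagonal (hA.eigenvectorUnitary : Matrix n n ℂ) hA.eigenvalues v
  have h2 : A = (hA.eigenvectorUnitary : Matrix n n ℂ)
      * Matrix.diagonal (fun i => (hA.eigenvalues i : ℂ))
      * star (hA.eigenvectorUnitary : Matrix n n ℂ) := by
    conv_lhs => rw [hA.spectral_theorem]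
    rfl
  rw [← h2] at h
  exact h

/-- (I1) the counting lemma: a linear map from `ι → ℂ` whose image lies in the cone
`c |w|² < w* A w` shows that `A` has at least `card ι` eigenvalues above `c`. -/
theorem card_le_countGt {ι : Type*} [Fintype ι] {A : Matrix n n ℂ} (hA : A.IsHermitian) (c : ℝ)
    (φ : (ι → ℂ) →ₗ[ℂ] (n → ℂ)) (hφ : ∀ z, z ≠ 0 → c * nsq (φ z) < qf A (φ z)) :
    Fintype.card ι ≤ countGt hA c := by
  classical
  -- restriction of the eigen-coordinates to the indices above `c`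
  let P : (n → ℂ) →ₗ[ℂ] ({i // c < hA.eigenvalues i} → ℂ) :=
    (LinearMap.funLeft ℂ ℂ (Subtype.val : {i // c < hA.eigenvalues i} → n)).comp
      (Matrix.mulVecLin (star (hA.eigenvectorUnitary : Matrix n n ℂ)))
  have hP : ∀ v j, P v j = coords hA v j.1 := fun v j => rfl
  have hinj : Function.Injective (P.comp φ) := by
    rw [← LinearMap.ker_eq_bot, LinearMap.ker_eq_bot']
    intro z hz
    by_contra hne
    have h1 := hφ z hne
    have h2 : qf A (φ z) ≤ c * nsq (φ z) := by
      rw [qf_eq_sum hA, ← nsq_coords hA, nsq_eq_sum, Finset.mul_sum]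
      refine Finset.sum_le_sum fun i _ => ?_
      by_cases hi : c < hA.eigenvalues i
      · have : coords hA (φ z) i = 0 := by
          have := congrFun hz ⟨i, hi⟩
          simpa [hP] using this
        simp [this]
      · exact mul_le_mul_of_nonneg_right (not_lt.1 hi) (Complex.normSq_nonneg _)
    exact absurd h1 (not_lt.2 h2)
  have := LinearMap.finrank_le_finrank_of_injective hinj
  simpa [countGt] using this

/-- (I2) the eigenvectors above `c` span a space of dimension `countGt hA c` inside the cone. -/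
noncomputable def posMap {A : Matrix n n ℂ} (hA : A.IsHermitian) (c : ℝ) :
    ({i // c < hA.eigenvalues i} → ℂ) →ₗ[ℂ] (n → ℂ) :=
  (Matrix.mulVecLin (hA.eigenvectorUnitary : Matrix n n ℂ)).comp
    (extL fun i => c < hA.eigenvalues i)

theorem coords_posMap {A : Matrix n n ℂ} (hA : A.IsHermitian) (c : ℝ)
    (z : {i // c < hA.eigenvalues i} → ℂ) :
    coords hA (posMap hA c z) = extL (fun i => c < hA.eigenvalues i) z := by
  unfold coords posMap
  simp only [LinearMap.comp_apply, Matrix.mulVecLin_apply, Matrix.mulVec_mulVec]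
  rw [(Matrix.mem_unitaryGroup_iff').1 hA.eigenvectorUnitary.2, Matrix.one_mulVec]

theorem posMap_pos {A : Matrix n n ℂ} (hA : A.IsHermitian) (c : ℝ)
    (z : {i // c < hA.eigenvalues i} → ℂ) (hz : z ≠ 0) :
    c * nsq (posMap hA c z) < qf A (posMap hA c z) := by
  rw [qf_eq_sum hA, ← nsq_coords hA, nsq_eq_sum, coords_posMap, Finset.mul_sum,
    sum_extL _ z (fun _ w => c * Complex.normSq w) (by simp),
    sum_extL _ z (fun i w => hA.eigenvalues i * Complex.normSq w) (by simp)]
  obtain ⟨j, hj⟩ : ∃ j, z j ≠ 0 := by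
    by_contra h
    simp only [not_exists, not_not] at h
    exact hz (funext h)
  refine Finset.sum_lt_sum (fun i _ => ?_) ⟨j, Finset.mem_univ j, ?_⟩
  · exact mul_le_mul_of_nonneg_right i.2.le (Complex.normSq_nonneg _)
  · exact mul_lt_mul_of_pos_right j.2 (Complex.normSq_pos.2 hj)

/-- (I3) monotonicity of the count in the quadratic-form (Loewner) order, also between matrices of
different sizes through a linear map. -/
theorem countGt_le_of_map {m : Type*} [Fintype m] [DecidableEq m] {A : Matrix n n ℂ}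
    {B : Matrix m m ℂ} (hA : A.IsHermitian) (hB : B.IsHermitian) (c c' : ℝ)
    (ψ : (n → ℂ) →ₗ[ℂ] (m → ℂ))
    (h : ∀ v, c * nsq v < qf A v → c' * nsq (ψ v) < qf B (ψ v)) :
    countGt hA c ≤ countGt hB c' := by
  have := card_le_countGt hB c' (ψ.comp (posMap hA c)) fun z hz => h _ (posMap_pos hA c z hz)
  simpa [countGt] using this

theorem countGt_mono {A B : Matrix n n ℂ} (hA : A.IsHermitian) (hB : B.IsHermitian) (c : ℝ)
    (h : ∀ v, qf A v ≤ qf B v) : countGt hA c ≤ countGt hB c :=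
  countGt_le_of_map hA hB c c LinearMap.id fun v hv => lt_of_lt_of_le hv (h v)

theorem countGt_mono_of_posSemidef {A B : Matrix n n ℂ} (hA : A.IsHermitian)
    (hB : B.IsHermitian) (c : ℝ) (h : (B - A).PosSemidef) : countGt hA c ≤ countGt hB c :=
  countGt_mono hA hB c fun v => by
    have := qf_nonneg h v
    rw [qf_sub] at this
    linarith

/-! ### sorted eigenvalues -/

theorem countGt_eq_card_sorted {A : Matrix n n ℂ} (hA : A.IsHermitian) (c : ℝ) :
    countGt hA c = Fintype.card {k : Fin (Fintype.card n) // c < hA.eigenvalues₀ k} := by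
  unfold countGt
  exact Fintype.card_congr (Equiv.subtypeEquiv
    (Fintype.equivOfCardEq (Fintype.card_fin _)).symm (fun i => Iff.rfl))

theorem lt_card_iff_of_antitone {N : ℕ} {α : Fin N → ℝ} (hα : Antitone α) (c : ℝ) (k : Fin N) :
    (k : ℕ) < Fintype.card {j // c < α j} ↔ c < α k := by
  rw [Fintype.card_subtype]
  constructor
  · intro h
    by_contra hk
    have hsub : (Finset.univ.filter fun j => c < α j) ⊆ Finset.Iio k := by
      intro j hj
      simp only [Finset.mem_filter, Finset.mem_univ, true_and] at hj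
      rw [Finset.mem_Iio]
      by_contra hjk
      exact hk (lt_of_lt_of_le hj (hα (not_lt.1 hjk)))
    have := Finset.card_le_card hsub
    rw [Fin.card_Iio] at this
    omega
  · intro h
    have hsub : Finset.Iic k ⊆ (Finset.univ.filter fun j => c < α j) := by
      intro j hj
      rw [Finset.mem_Iic] at hj
      simp only [Finset.mem_filter, Finset.mem_univ, true_and]
      exact lt_of_lt_of_le h (hα hj)
    have := Finset.card_le_card hsub
    rw [Fin.card_Iic] at this
    omega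

/-- (I4) `k < countGt hA c ↔ c < k`-th largest eigenvalue. -/
theorem lt_countGt_iff {A : Matrix n n ℂ} (hA : A.IsHermitian) (c : ℝ)
    (k : Fin (Fintype.card n)) : (k : ℕ) < countGt hA c ↔ c < hA.eigenvalues₀ k := by
  rw [countGt_eq_card_sorted]
  exact lt_card_iff_of_antitone hA.eigenvalues₀_antitone c k

theorem eigenvalues₀_eq_eigenvalues {A : Matrix n n ℂ} (hA : A.IsHermitian)
    (k : Fin (Fintype.card n)) :
    hA.eigenvalues₀ k = hA.eigenvalues (Fintype.equivOfCardEq (Fintype.card_fin _) k) := by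
  unfold Matrix.IsHermitian.eigenvalues
  rw [Equiv.symm_apply_apply]

theorem sum_eigenvalues₀ {A : Matrix n n ℂ} (hA : A.IsHermitian) :
    ∑ k, hA.eigenvalues₀ k = A.trace.re := by
  rw [Crest.Agent.GAD.trace_re_eq_sum_eigenvalues hA]
  simp_rw [eigenvalues₀_eq_eigenvalues hA]
  exact Equiv.sum_comp (Fintype.equivOfCardEq (Fintype.card_fin _)) hA.eigenvalues

theorem eigenvalues₀_nonneg {A : Matrix n n ℂ} (hA : A.PosSemidef) (k : Fin (Fintype.card n)) :
    0 ≤ hA.1.eigenvalues₀ k := by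
  rw [eigenvalues₀_eq_eigenvalues]
  exact hA.eigenvalues_nonneg _

/-- sorted eigenvalues are monotone as soon as the counting functions are. -/
theorem eigenvalues₀_le_of_countGt_le {A B : Matrix n n ℂ} (hA : A.IsHermitian)
    (hB : B.IsHermitian) (h : ∀ c, countGt hA c ≤ countGt hB c) (k : Fin (Fintype.card n)) :
    hA.eigenvalues₀ k ≤ hB.eigenvalues₀ k := by
  by_contra hlt
  rw [not_le] at hlt
  have h1 := (lt_countGt_iff hA (hB.eigenvalues₀ k) k).2 hlt
  have h2 := (lt_countGt_iff hB (hB.eigenvalues₀ k) k).1 (lt_of_lt_of_le h1 (h _))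
  exact lt_irrefl _ h2

/-- (I3') Weyl monotonicity: sorted eigenvalues are monotone in the quadratic-form order. -/
theorem eigenvalues₀_mono {A B : Matrix n n ℂ} (hA : A.IsHermitian) (hB : B.IsHermitian)
    (h : ∀ v, qf A v ≤ qf B v) (k : Fin (Fintype.card n)) :
    hA.eigenvalues₀ k ≤ hB.eigenvalues₀ k :=
  eigenvalues₀_le_of_countGt_le hA hB (fun c => countGt_mono hA hB c h) k

theorem countGt_add_smul_one {A : Matrix n n ℂ} (hA : A.IsHermitian) (c : ℝ)
    (hAc : (A + (c : ℂ) • (1 : Matrix n n ℂ)).IsHermitian) (t : ℝ) :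
    countGt hAc t = countGt hA (t - c) := by
  have key : ∀ v : n → ℂ, qf (A + (c : ℂ) • (1 : Matrix n n ℂ)) v = qf A v + c * nsq v := by
    intro v
    rw [qf_add, qf_smul, qf_one]
  apply le_antisymm
  · refine countGt_le_of_map hAc hA t (t - c) LinearMap.id fun v hv => ?_
    rw [key] at hv
    simp only [LinearMap.id_apply]
    linarith
  · refine countGt_le_of_map hA hAc (t - c) t LinearMap.id fun v hv => ?_
    simp only [LinearMap.id_apply]
    rw [key]
    linarith

/-- sorted eigenvalues of `A + c` are those of `A` shifted by `c`. -/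
theorem eigenvalues₀_add_smul_one {A : Matrix n n ℂ} (hA : A.IsHermitian) (c : ℝ)
    (hAc : (A + (c : ℂ) • (1 : Matrix n n ℂ)).IsHermitian) (k : Fin (Fintype.card n)) :
    hAc.eigenvalues₀ k = hA.eigenvalues₀ k + c := by
  have key : ∀ t : ℝ, t < hAc.eigenvalues₀ k ↔ t < hA.eigenvalues₀ k + c := by
    intro t
    rw [← lt_countGt_iff hAc t k, countGt_add_smul_one hA c hAc t, lt_countGt_iff hA (t - c) k]
    constructor <;> intro h <;> linarith
  apply le_antisymm
  · exact le_of_forall_lt fun t ht => (key t).1 ht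
  · exact le_of_forall_lt fun t ht => (key t).2 ht

theorem countGt_smul {A : Matrix n n ℂ} (hA : A.IsHermitian) {r : ℝ} (hr : 0 < r)
    (hAr : ((r : ℂ) • A).IsHermitian) (t : ℝ) :
    countGt hAr t = countGt hA (t / r) := by
  have key : ∀ v : n → ℂ, qf ((r : ℂ) • A) v = r * qf A v := fun v => qf_smul r A v
  apply le_antisymm
  · refine countGt_le_of_map hAr hA t (t / r) LinearMap.id fun v hv => ?_
    rw [key] at hv
    simp only [LinearMap.id_apply]
    rw [div_mul_eq_mul_div, div_lt_iff₀ hr]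
    linarith
  · refine countGt_le_of_map hA hAr (t / r) t LinearMap.id fun v hv => ?_
    simp only [LinearMap.id_apply]
    rw [key]
    rw [div_mul_eq_mul_div, div_lt_iff₀ hr] at hv
    linarith

/-- sorted eigenvalues of `r A` (`r > 0`) are `r` times those of `A`. -/
theorem eigenvalues₀_smul {A : Matrix n n ℂ} (hA : A.IsHermitian) {r : ℝ} (hr : 0 < r)
    (hAr : ((r : ℂ) • A).IsHermitian) (k : Fin (Fintype.card n)) :
    hAr.eigenvalues₀ k = r * hA.eigenvalues₀ k := by
  have key : ∀ t : ℝ, t < hAr.eigenvalues₀ k ↔ t < r * hA.eigenvalues₀ k := by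
    intro t
    rw [← lt_countGt_iff hAr t k, countGt_smul hA hr hAr t, lt_countGt_iff hA (t / r) k,
      div_lt_iff₀ hr, mul_comm]
  apply le_antisymm
  · exact le_of_forall_lt fun t ht => (key t).1 ht
  · exact le_of_forall_lt fun t ht => (key t).2 ht

/-! ### the inverse in quadratic-form terms -/

/-- (V) `2 re (r* q) - r* B r ≤ q* B⁻¹ q` for `B ≥ 0` with inverse `R`. -/
theorem two_re_sub_qf_le {B R : Matrix n n ℂ} (hB : B.PosSemidef) (hR : R.IsHermitian)
    (hBR : B * R = 1) (q r : n → ℂ) :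
    2 * (star r ⬝ᵥ q).re - qf B r ≤ qf R q := by
  have hRB : R * B = 1 := mul_eq_one_comm.mp hBR
  have h0 := qf_nonneg hB (R *ᵥ q - r)
  have e1 : star (R *ᵥ q) ⬝ᵥ q = star q ⬝ᵥ R *ᵥ q := by
    rw [Matrix.star_mulVec, ← Matrix.dotProduct_mulVec, hR.eq]
  have e2 : star (R *ᵥ q) ⬝ᵥ B *ᵥ r = star q ⬝ᵥ r := by
    rw [Matrix.star_mulVec, ← Matrix.dotProduct_mulVec, hR.eq, Matrix.mulVec_mulVec, hRB,
      Matrix.one_mulVec]
  have hexp : qf B (R *ᵥ q - r) = qf R q - 2 * (star r ⬝ᵥ q).re + qf B r := by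
    unfold qf
    rw [Matrix.mulVec_sub, Matrix.mulVec_mulVec, hBR, Matrix.one_mulVec, star_sub,
      sub_dotProduct, dotProduct_sub, dotProduct_sub, e1, e2]
    simp only [Complex.sub_re]
    rw [re_star_dotProduct_comm q r]
    ring
  linarith

theorem qf_inv_eq {B R : Matrix n n ℂ} (hR : R.IsHermitian) (hBR : B * R = 1) (q : n → ℂ) :
    (star (R *ᵥ q) ⬝ᵥ q).re = qf R q ∧ qf B (R *ᵥ q) = qf R q := by
  have e1 : star (R *ᵥ q) ⬝ᵥ q = star q ⬝ᵥ R *ᵥ q := by
    rw [Matrix.star_mulVec, ← Matrix.dotProduct_mulVec, hR.eq]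
  refine ⟨by rw [e1]; rfl, ?_⟩
  unfold qf
  rw [Matrix.mulVec_mulVec, hBR, Matrix.one_mulVec, e1]

/-- inversion reverses the quadratic-form order. -/
theorem qf_inv_anti {B B' R R' : Matrix n n ℂ} (hB : B.PosSemidef) (hR : R.IsHermitian)
    (hR' : R'.IsHermitian) (hBR : B * R = 1) (hBR' : B' * R' = 1)
    (h : ∀ v, qf B v ≤ qf B' v) (q : n → ℂ) : qf R' q ≤ qf R q := by
  obtain ⟨e1, e2⟩ := qf_inv_eq hR' hBR' q
  have h1 := two_re_sub_qf_le hB hR hBR q (R' *ᵥ q)
  have h2 := h (R' *ᵥ q)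
  linarith

end spectral

section resolvent

variable {d d' : Type*} [Fintype d] [DecidableEq d] [Fintype d'] [DecidableEq d']

theorem qf_add_smul_one (T : Matrix d d ℂ) (s : ℝ) (v : d → ℂ) :
    qf (T + (s : ℂ) • (1 : Matrix d d ℂ)) v = qf T v + s * nsq v := by
  rw [qf_add, qf_smul, qf_one]

theorem posDef_add_smul_one {T : Matrix d d ℂ} (hT : T.PosSemidef) {s : ℝ} (hs : 0 < s) :
    (T + (s : ℂ) • (1 : Matrix d d ℂ)).PosDef := by
  refine Matrix.PosDef.posSemidef_add hT ?_
  exact Matrix.PosDef.one.smul (Complex.zero_lt_real.2 hs)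

theorem add_smul_one_mul_inv {T : Matrix d d ℂ} (hT : T.PosSemidef) {s : ℝ} (hs : 0 < s) :
    (T + (s : ℂ) • (1 : Matrix d d ℂ)) * (T + (s : ℂ) • (1 : Matrix d d ℂ))⁻¹ = 1 :=
  Matrix.mul_nonsing_inv _ ((Matrix.isUnit_iff_isUnit_det _).1 (posDef_add_smul_one hT hs).isUnit)

theorem isHermitian_add_smul_one {T : Matrix d d ℂ} (hT : T.IsHermitian) (s : ℝ) :
    (T + (s : ℂ) • (1 : Matrix d d ℂ)).IsHermitian := by
  refine hT.add ?_
  unfold Matrix.IsHermitian
  rw [Matrix.conjTranspose_smul, Matrix.conjTranspose_one]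
  simp

theorem isHermitian_inv_add_smul_one {T : Matrix d d ℂ} (hT : T.IsHermitian) (s : ℝ) :
    ((T + (s : ℂ) • (1 : Matrix d d ℂ))⁻¹).IsHermitian :=
  (isHermitian_add_smul_one hT s).inv

/-- `A₀(s) = aᴴ (T + s)⁻¹ a` -/
noncomputable def resA (a : Matrix d d' ℂ) (T : Matrix d d ℂ) (s : ℝ) : Matrix d' d' ℂ :=
  aᴴ * (T + (s : ℂ) • (1 : Matrix d d ℂ))⁻¹ * a

theorem resA_isHermitian (a : Matrix d d' ℂ) {T : Matrix d d ℂ} (hT : T.IsHermitian) (s : ℝ) :
    (resA a T s).IsHermitian :=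
  Matrix.isHermitian_conjTranspose_mul_mul a (isHermitian_inv_add_smul_one hT s)

theorem resA_posSemidef (a : Matrix d d' ℂ) {T : Matrix d d ℂ} (hT : T.PosSemidef) {s : ℝ}
    (hs : 0 < s) : (resA a T s).PosSemidef :=
  (posDef_add_smul_one hT hs).inv.posSemidef.conjTranspose_mul_mul_same a

theorem qf_resA (a : Matrix d d' ℂ) (T : Matrix d d ℂ) (s : ℝ) (w : d' → ℂ) :
    qf (resA a T s) w = qf ((T + (s : ℂ) • (1 : Matrix d d ℂ))⁻¹) (a *ᵥ w) :=
  qf_conj a _ w

/-- `A₀(s) ≤ aᴴ a / s`. -/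
theorem qf_resA_le (a : Matrix d d' ℂ) {T : Matrix d d ℂ} (hT : T.PosSemidef) {s : ℝ}
    (hs : 0 < s) (w : d' → ℂ) : qf (resA a T s) w ≤ qf (aᴴ * a) w / s := by
  rw [qf_resA, ← nsq_mulVec]
  have hB : ((s : ℂ) • (1 : Matrix d d ℂ)).PosSemidef :=
    (Matrix.PosDef.one.smul (Complex.zero_lt_real.2 hs)).posSemidef
  have hR : (((s⁻¹ : ℝ) : ℂ) • (1 : Matrix d d ℂ)).IsHermitian := by
    unfold Matrix.IsHermitian
    rw [Matrix.conjTranspose_smul, Matrix.conjTranspose_one]
    simp
  have hBR : ((s : ℂ) • (1 : Matrix d d ℂ)) * (((s⁻¹ : ℝ) : ℂ) • (1 : Matrix d d ℂ)) = 1 := by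
    rw [Matrix.smul_mul, Matrix.mul_smul, Matrix.one_mul, smul_smul, ← Complex.ofReal_mul,
      mul_inv_cancel₀ hs.ne']
    simp
  have h := qf_inv_anti hB hR (isHermitian_inv_add_smul_one hT.1 s) hBR
    (add_smul_one_mul_inv hT hs) (fun v => by
      rw [qf_add_smul_one, qf_smul, qf_one]
      have := qf_nonneg hT v
      linarith) (a *ᵥ w)
  rw [qf_smul, qf_one] at h
  rw [div_eq_inv_mul]
  exact h

/-- `A₀(s)` is decreasing in `s`. -/
theorem qf_resA_anti (a : Matrix d d' ℂ) {T : Matrix d d ℂ} (hT : T.PosSemidef) {s s' : ℝ}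
    (hs : 0 < s) (hss' : s ≤ s') (w : d' → ℂ) : qf (resA a T s') w ≤ qf (resA a T s) w := by
  rw [qf_resA, qf_resA]
  refine qf_inv_anti (posDef_add_smul_one hT hs).posSemidef (isHermitian_inv_add_smul_one hT.1 s)
    (isHermitian_inv_add_smul_one hT.1 s') (add_smul_one_mul_inv hT hs)
    (add_smul_one_mul_inv hT (lt_of_lt_of_le hs hss')) (fun v => ?_) (a *ᵥ w)
  rw [qf_add_smul_one, qf_add_smul_one]
  have := nsq_nonneg v
  nlinarith

/-- the pencil `X / u - T` with `X = a aᴴ` -/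
noncomputable def pencil (a : Matrix d d' ℂ) (T : Matrix d d ℂ) (u : ℝ) : Matrix d d ℂ :=
  ((u⁻¹ : ℝ) : ℂ) • (a * aᴴ) - T

theorem pencil_isHermitian (a : Matrix d d' ℂ) {T : Matrix d d ℂ} (hT : T.IsHermitian) (u : ℝ) :
    (pencil a T u).IsHermitian := by
  refine Matrix.IsHermitian.sub ?_ hT
  unfold Matrix.IsHermitian
  rw [Matrix.conjTranspose_smul, (Matrix.isHermitian_mul_conjTranspose_self a).eq]
  simp

theorem qf_mul_conjTranspose (a : Matrix d d' ℂ) (v : d → ℂ) :
    qf (a * aᴴ) v = nsq (aᴴ *ᵥ v) := by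
  rw [nsq_mulVec, Matrix.conjTranspose_conjTranspose]

theorem qf_pencil (a : Matrix d d' ℂ) (T : Matrix d d ℂ) (u : ℝ) (v : d → ℂ) :
    qf (pencil a T u) v = u⁻¹ * nsq (aᴴ *ᵥ v) - qf T v := by
  unfold pencil
  rw [qf_sub, qf_smul, qf_mul_conjTranspose]

theorem trace_pencil (a : Matrix d d' ℂ) (T : Matrix d d ℂ) (u : ℝ) :
    (pencil a T u).trace.re = (a * aᴴ).trace.re / u - T.trace.re := by
  unfold pencil
  rw [Matrix.trace_sub, Matrix.trace_smul, Complex.sub_re, smul_eq_mul, Complex.re_ofReal_mul]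
  ring

/-- (I5) the inertia inequality:
`#{eigenvalues of a aᴴ / u - T above s} ≤ #{eigenvalues of aᴴ (T + s)⁻¹ a above u}`. -/
theorem countGt_pencil_le (a : Matrix d d' ℂ) {T : Matrix d d ℂ} (hT : T.PosSemidef) {s u : ℝ}
    (hs : 0 < s) (hu : 0 < u) :
    countGt (pencil_isHermitian a hT.1 u) s ≤ countGt (resA_isHermitian a hT.1 s) u := by
  refine countGt_le_of_map _ _ s u (Matrix.mulVecLin aᴴ) fun v hv => ?_
  rw [qf_pencil] at hv
  simp only [Matrix.mulVecLin_apply]
  rw [qf_resA]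
  have hV := two_re_sub_qf_le (posDef_add_smul_one hT hs).posSemidef
    (isHermitian_inv_add_smul_one hT.1 s) (add_smul_one_mul_inv hT hs) (a *ᵥ aᴴ *ᵥ v)
    ((u : ℂ) • v)
  have e1 : (star ((u : ℂ) • v) ⬝ᵥ a *ᵥ aᴴ *ᵥ v).re = u * nsq (aᴴ *ᵥ v) := by
    have e0 : star v ⬝ᵥ a *ᵥ aᴴ *ᵥ v = star (aᴴ *ᵥ v) ⬝ᵥ aᴴ *ᵥ v := by
      rw [Matrix.star_mulVec, Matrix.conjTranspose_conjTranspose, Matrix.dotProduct_mulVec]
    rw [star_smul, smul_dotProduct, e0, smul_eq_mul, Complex.star_def, Complex.conj_ofReal,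
      Complex.re_ofReal_mul]
    rfl
  rw [e1, qf_smul_vec, qf_add_smul_one] at hV
  have h2 : qf T v + s * nsq v < u⁻¹ * nsq (aᴴ *ᵥ v) := by linarith
  have h3 : u ^ 2 * (qf T v + s * nsq v) < u * nsq (aᴴ *ᵥ v) := by
    have h4 : u ^ 2 * (qf T v + s * nsq v) < u ^ 2 * (u⁻¹ * nsq (aᴴ *ᵥ v)) :=
      mul_lt_mul_of_pos_left h2 (pow_pos hu 2)
    have h5 : u ^ 2 * (u⁻¹ * nsq (aᴴ *ᵥ v)) = u * nsq (aᴴ *ᵥ v) := by
      field_simp
    linarith
  linarith

end resolvent

section integral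

open MeasureTheory

variable {n : Type*} [Fintype n] [DecidableEq n]

/-- (I6) layer cake for the counting function. -/
theorem lintegral_countGt {A : Matrix n n ℂ} (hA : A.IsHermitian) :
    ∫⁻ s in Set.Ioi (0 : ℝ), (countGt hA s : ENNReal) = ∑ i, ENNReal.ofReal (hA.eigenvalues i) := by
  have h1 : ∀ s : ℝ, (countGt hA s : ENNReal)
      = ∑ i, Set.indicator (Set.Iio (hA.eigenvalues i)) (fun _ => (1 : ENNReal)) s := by
    intro s
    unfold countGt
    rw [Fintype.card_subtype, Finset.card_filter]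
    push_cast
    refine Finset.sum_congr rfl fun i _ => ?_
    simp [Set.indicator_apply]
  simp_rw [h1]
  rw [lintegral_finsetSum _ (fun i _ => measurable_const.indicator measurableSet_Iio)]
  refine Finset.sum_congr rfl fun i _ => ?_
  rw [lintegral_indicator measurableSet_Iio, setLIntegral_const, one_mul,
    Measure.restrict_apply measurableSet_Iio]
  have : Set.Iio (hA.eigenvalues i) ∩ Set.Ioi 0 = Set.Ioo 0 (hA.eigenvalues i) := by
    ext x; simp [and_comm]
  rw [this, Real.volume_Ioo, sub_zero]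

theorem ofReal_sum_le {ι : Type*} (t : Finset ι) (f : ι → ℝ) :
    ENNReal.ofReal (∑ i ∈ t, f i) ≤ ∑ i ∈ t, ENNReal.ofReal (f i) := by
  classical
  induction t using Finset.induction_on with
  | empty => simp
  | insert a t ha ih =>
    rw [Finset.sum_insert ha, Finset.sum_insert ha]
    exact le_trans ENNReal.ofReal_add_le (add_le_add le_rfl ih)

theorem ofReal_trace_le_lintegral_countGt {A : Matrix n n ℂ} (hA : A.IsHermitian) :
    ENNReal.ofReal A.trace.re ≤ ∫⁻ s in Set.Ioi (0 : ℝ), (countGt hA s : ENNReal) := by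
  rw [lintegral_countGt, Crest.Agent.GAD.trace_re_eq_sum_eigenvalues hA]
  exact ofReal_sum_le _ _

end integral

section package

open MeasureTheory

variable {d d' : Type*} [Fintype d] [DecidableEq d] [Fintype d'] [DecidableEq d']

/-- sorted (decreasing) eigenvalues of `A₀(s) = aᴴ (T + s)⁻¹ a` -/
noncomputable def al (a : Matrix d d' ℂ) {T : Matrix d d ℂ} (hT : T.IsHermitian) (s : ℝ) :
    Fin (Fintype.card d') → ℝ :=
  (resA_isHermitian a hT s).eigenvalues₀

/-- sorted (decreasing) eigenvalues of `aᴴ a` -/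
noncomputable def pp (a : Matrix d d' ℂ) : Fin (Fintype.card d') → ℝ :=
  (Matrix.isHermitian_conjTranspose_mul_self a).eigenvalues₀

theorem pp_antitone (a : Matrix d d' ℂ) : Antitone (pp a) :=
  (Matrix.isHermitian_conjTranspose_mul_self a).eigenvalues₀_antitone

theorem pp_nonneg (a : Matrix d d' ℂ) (k : Fin (Fintype.card d')) : 0 ≤ pp a k :=
  eigenvalues₀_nonneg (Matrix.posSemidef_conjTranspose_mul_self a) k

theorem sum_pp (a : Matrix d d' ℂ) : ∑ k, pp a k = (a * aᴴ).trace.re := by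
  unfold pp
  rw [sum_eigenvalues₀, Matrix.trace_mul_comm]

/-- (h1a) -/
theorem al_antitone (a : Matrix d d' ℂ) {T : Matrix d d ℂ} (hT : T.IsHermitian) (s : ℝ) :
    Antitone (al a hT s) :=
  (resA_isHermitian a hT s).eigenvalues₀_antitone

/-- (h1b) -/
theorem al_nonneg (a : Matrix d d' ℂ) {T : Matrix d d ℂ} (hT : T.PosSemidef) {s : ℝ} (hs : 0 < s)
    (k : Fin (Fintype.card d')) : 0 ≤ al a hT.1 s k :=
  eigenvalues₀_nonneg (resA_posSemidef a hT hs) k

/-- (h2) each sorted eigenvalue of `A₀(s)` is antitone in `s > 0`. -/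
theorem al_antitoneOn (a : Matrix d d' ℂ) {T : Matrix d d ℂ} (hT : T.PosSemidef)
    (k : Fin (Fintype.card d')) : AntitoneOn (fun s => al a hT.1 s k) (Set.Ioi 0) := by
  intro s hs s' _ hss'
  exact eigenvalues₀_mono _ _ (fun w => qf_resA_anti a hT hs hss' w) k

theorem card_al_eq_countGt (a : Matrix d d' ℂ) {T : Matrix d d ℂ} (hT : T.IsHermitian) (s u : ℝ) :
    Fintype.card {k // u < al a hT s k} = countGt (resA_isHermitian a hT s) u :=
  (countGt_eq_card_sorted _ u).symm

theorem card_pp_eq_countGt (a : Matrix d d' ℂ) (c : ℝ) :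
    Fintype.card {k // c < pp a k} = countGt (Matrix.isHermitian_conjTranspose_mul_self a) c :=
  (countGt_eq_card_sorted _ c).symm

/-- (h3) `#{k | u < α_k(s)} ≤ #{k | u s < p_k}`. -/
theorem card_al_le (a : Matrix d d' ℂ) {T : Matrix d d ℂ} (hT : T.PosSemidef) {s : ℝ} (hs : 0 < s)
    (u : ℝ) :
    Fintype.card {k // u < al a hT.1 s k} ≤ Fintype.card {k // u * s < pp a k} := by
  rw [card_al_eq_countGt, card_pp_eq_countGt]
  refine countGt_le_of_map _ _ u (u * s) LinearMap.id fun w hw => ?_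
  simp only [LinearMap.id_apply]
  have h1 := qf_resA_le a hT hs w
  rw [le_div_iff₀ hs] at h1
  have h2 : u * nsq w * s < qf (resA a T s) w * s := mul_lt_mul_of_pos_right hw hs
  linarith

/-- (h4) `(x / u - w₀)₊ ≤ ∫₀^∞ #{k | u < α_k(s)} ds`, `x = tr a aᴴ`, `w₀ = tr T`. -/
theorem ofReal_le_lintegral_card_al (a : Matrix d d' ℂ) {T : Matrix d d ℂ} (hT : T.PosSemidef)
    {u : ℝ} (hu : 0 < u) :
    ENNReal.ofReal ((a * aᴴ).trace.re / u - T.trace.re)
      ≤ ∫⁻ s in Set.Ioi (0 : ℝ), (Fintype.card {k // u < al a hT.1 s k} : ENNReal) := by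
  rw [← trace_pencil]
  refine le_trans (ofReal_trace_le_lintegral_countGt (pencil_isHermitian a hT.1 u)) ?_
  refine setLIntegral_mono' measurableSet_Ioi fun s hs => ?_
  rw [card_al_eq_countGt]
  exact_mod_cast countGt_pencil_le a hT hs hu

end package

end Crest.Agent.GAD.Inertia
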