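import Mathlib
import Crest.Prelude.Def_QState

/-!
# R3: the log-det representation of the von Neumann entropy

For a positive semidefinite matrix `A` indexed by `d`,
`S(A) = lim_{L → ∞} [ ∫_0^L ln det (A + s) ds - |d| (L ln L - L) - tr A (ln L + 1) ]`.

Only Mathlib's eigenvalues of a Hermitian matrix and scalar integrals of `log` are used.
-/

set_option autoImplicit false

open Crest.Quantum
open scoped ComplexOrder
open Filter Topology MeasureTheory

namespace Crest.Agent.GAD

/-! ### Scalar core -/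

/-- `∫_0^L log (λ + s) ds`, for all real `λ` and `L`. -/
theorem ld_integral_log_add (lam L : ℝ) :
    (∫ s in (0:ℝ)..L, Real.log (lam + s)) =
      (lam + L) * Real.log (lam + L) - (lam + L) - lam * Real.log lam + lam := by
  have h := intervalIntegral.integral_comp_add_right (f := Real.log) (a := 0) (b := L) lam
  have h2 : (∫ s in (0:ℝ)..L, Real.log (lam + s)) = ∫ s in (0:ℝ)..L, Real.log (s + lam) := by
    congr 1; ext s; rw [add_comm]
  rw [h2, h, integral_log, zero_add, add_comm L lam]; ring

theorem ld_intervalIntegrable_log_add (lam a b : ℝ) :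
    IntervalIntegrable (fun s : ℝ => Real.log (lam + s)) volume a b := by
  have h : IntervalIntegrable (fun s : ℝ => Real.log (s + lam)) volume a b := by
    simpa using (intervalIntegral.intervalIntegrable_log' (a := a + lam) (b := b + lam)).comp_add_right lam
  have h2 : (fun s : ℝ => Real.log (lam + s)) = fun s : ℝ => Real.log (s + lam) := by
    ext s; rw [add_comm]
  rw [h2]; exact h

/-- The scalar limit behind R3. -/
theorem ld_tendsto_scalar (lam : ℝ) (hlam : 0 ≤ lam) :
    Tendsto (fun L : ℝ => (∫ s in (0:ℝ)..L, Real.log (lam + s)) - (L * Real.log L - L)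
        - lam * (Real.log L + 1)) atTop (𝓝 (-(lam * Real.log lam))) := by
  have hlog : Tendsto (fun L : ℝ => Real.log (1 + lam / L)) atTop (𝓝 0) := by
    have h1 : Tendsto (fun L : ℝ => 1 + lam / L) atTop (𝓝 (1 + 0)) :=
      tendsto_const_nhds.add (tendsto_const_nhds.div_atTop tendsto_id)
    rw [add_zero] at h1
    have h2 := h1.log one_ne_zero
    simpa using h2
  have hmul := Real.tendsto_mul_log_one_add_div_atTop lam
  have hmain : Tendsto (fun L : ℝ => lam * Real.log (1 + lam / L) + L * Real.log (1 + lam / L)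
      - lam * Real.log lam - lam) atTop (𝓝 (lam * 0 + lam - lam * Real.log lam - lam)) :=
    (((hlog.const_mul lam).add hmul).sub tendsto_const_nhds).sub tendsto_const_nhds
  have heq : lam * 0 + lam - lam * Real.log lam - lam = -(lam * Real.log lam) := by ring
  rw [heq] at hmain
  refine hmain.congr' ?_
  filter_upwards [eventually_gt_atTop (0:ℝ)] with L hL
  rw [ld_integral_log_add]
  have h1 : lam + L = L * (1 + lam / L) := by field_simp; ring
  have h2 : Real.log (lam + L) = Real.log L + Real.log (1 + lam / L) := by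
    rw [h1, Real.log_mul hL.ne']
    have : 0 < 1 + lam / L := by positivity
    exact this.ne'
  rw [h2]; ring

/-! ### The determinant of a shift -/

variable {d : Type*} [Fintype d] [DecidableEq d]

/-- `det (A + s) = ∏ (λ_i + s)` for a Hermitian matrix `A` and a real `s`. -/
theorem ld_det_add_smul_one (A : Matrix d d ℂ) (hA : A.IsHermitian) (s : ℝ) :
    (A + (s : ℂ) • (1 : Matrix d d ℂ)).det = ((∏ i, (hA.eigenvalues i + s) : ℝ) : ℂ) := by
  have h1 := Matrix.eval_charpoly A (-(s:ℂ))
  rw [hA.charpoly_eq] at h1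
  have h2 : (Matrix.scalar d (-(s:ℂ)) - A) = -(A + (s:ℂ) • (1 : Matrix d d ℂ)) := by
    ext i j
    by_cases hij : i = j
    · subst hij; simp [Matrix.scalar_apply]; ring
    · simp [Matrix.scalar_apply, hij]
  rw [h2, Matrix.det_neg, Polynomial.eval_prod] at h1
  simp only [Polynomial.eval_sub, Polynomial.eval_X, Polynomial.eval_C] at h1
  have key : ∀ x : ℝ, (RCLike.ofReal x : ℂ) = (x : ℂ) := fun x => rfl
  simp only [key] at h1
  have h3 : ∏ i, (-(s:ℂ) - ((hA.eigenvalues i : ℝ) : ℂ))
      = (-1) ^ Fintype.card d * ∏ i, (((hA.eigenvalues i : ℝ) : ℂ) + s) := by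
    rw [← Finset.card_univ, ← Finset.prod_const, ← Finset.prod_mul_distrib]
    exact Finset.prod_congr rfl (fun i _ => by ring)
  rw [h3] at h1
  have h4 : ((-1 : ℂ) ^ Fintype.card d) ≠ 0 := pow_ne_zero _ (by norm_num)
  have h5 := mul_left_cancel₀ h4 h1
  rw [← h5]; push_cast; rfl

theorem ld_det_add_smul_one_re (A : Matrix d d ℂ) (hA : A.IsHermitian) (s : ℝ) :
    ((A + (s : ℂ) • (1 : Matrix d d ℂ)).det).re = ∏ i, (hA.eigenvalues i + s) := by
  rw [ld_det_add_smul_one A hA s, Complex.ofReal_re]

/-! ### The log-det integral of a positive semidefinite matrix -/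

/-- For PSD `A` and `s > 0`: `log det (A + s) = ∑ log (λ_i + s)`. -/
theorem ld_log_det_add_smul_one (A : Matrix d d ℂ) (hA : A.PosSemidef) {s : ℝ} (hs : 0 < s) :
    Real.log ((A + (s : ℂ) • (1 : Matrix d d ℂ)).det.re)
      = ∑ i, Real.log (hA.1.eigenvalues i + s) := by
  rw [ld_det_add_smul_one_re A hA.1 s, Real.log_prod]
  intro i _
  have := hA.eigenvalues_nonneg i
  positivity

/-- For PSD `A` and `s > 0`: `det (A + s) > 0`. -/
theorem ld_det_add_smul_one_re_pos (A : Matrix d d ℂ) (hA : A.PosSemidef) {s : ℝ} (hs : 0 < s) :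
    0 < (A + (s : ℂ) • (1 : Matrix d d ℂ)).det.re := by
  rw [ld_det_add_smul_one_re A hA.1 s]
  refine Finset.prod_pos (fun i _ => ?_)
  have := hA.eigenvalues_nonneg i
  positivity

/-- The integrand `s ↦ log det (A + s)` agrees a.e. on `(0, L]` with `∑ log (λ_i + s)`. -/
theorem ld_ae_eq (A : Matrix d d ℂ) (hA : A.PosSemidef) {L : ℝ} (hL : 0 ≤ L) :
    (fun s : ℝ => ∑ i, Real.log (hA.1.eigenvalues i + s))
      =ᵐ[volume.restrict (Set.uIoc 0 L)]
    (fun s : ℝ => Real.log ((A + (s : ℂ) • (1 : Matrix d d ℂ)).det.re)) := by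
  refine (ae_restrict_mem measurableSet_uIoc).mono (fun s hs => ?_)
  rw [Set.uIoc_of_le hL] at hs
  exact (ld_log_det_add_smul_one A hA hs.1).symm

/-- `s ↦ log det (A + s)` is interval integrable on `[0, L]`. -/
theorem ld_intervalIntegrable (A : Matrix d d ℂ) (hA : A.PosSemidef) {L : ℝ} (hL : 0 ≤ L) :
    IntervalIntegrable (fun s : ℝ => Real.log ((A + (s : ℂ) • (1 : Matrix d d ℂ)).det.re))
      volume 0 L := by
  have h : IntervalIntegrable (fun s : ℝ => ∑ i, Real.log (hA.1.eigenvalues i + s)) volume 0 L := by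
    have h0 := IntervalIntegrable.sum (μ := volume) (a := 0) (b := L) Finset.univ
      (f := fun i (s : ℝ) => Real.log (hA.1.eigenvalues i + s))
      (fun i _ => ld_intervalIntegrable_log_add _ 0 L)
    have e : (fun s : ℝ => ∑ i, Real.log (hA.1.eigenvalues i + s))
        = ∑ i, fun (s : ℝ) => Real.log (hA.1.eigenvalues i + s) := by
      ext s; simp
    rw [e]; exact h0
  exact h.congr_ae (ld_ae_eq A hA hL)

/-- `∫_0^L log det (A + s) ds = ∑_i ∫_0^L log (λ_i + s) ds`. -/
theorem ld_integral_eq_sum (A : Matrix d d ℂ) (hA : A.PosSemidef) {L : ℝ} (hL : 0 ≤ L) :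
    (∫ s in (0:ℝ)..L, Real.log ((A + (s : ℂ) • (1 : Matrix d d ℂ)).det.re))
      = ∑ i, ∫ s in (0:ℝ)..L, Real.log (hA.1.eigenvalues i + s) := by
  rw [← intervalIntegral.integral_finsetSum (fun i _ => ld_intervalIntegrable_log_add _ 0 L)]
  refine intervalIntegral.integral_congr_ae ?_
  refine Filter.Eventually.of_forall (fun s hs => ?_)
  rw [Set.uIoc_of_le hL] at hs
  exact ld_log_det_add_smul_one A hA hs.1

/-- `vnEntropy` of a Hermitian matrix, unfolded. -/
theorem ld_vnEntropy_eq_sum (A : Matrix d d ℂ) (hA : A.IsHermitian) :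
    vnEntropy A = ∑ i, -(hA.eigenvalues i * Real.log (hA.eigenvalues i)) := by
  unfold vnEntropy
  rw [dif_pos hA, Finset.sum_neg_distrib]

/-- **R3 (log-det representation).** For a positive semidefinite `A`,
`S(A) = lim_{L → ∞} [ ∫_0^L ln det (A + s) ds - |d| (L ln L - L) - tr A (ln L + 1) ]`. -/
theorem vnEntropy_eq_lim_logdet (A : Matrix d d ℂ) (hA : A.PosSemidef) :
    Tendsto (fun L : ℝ =>
        (∫ s in (0:ℝ)..L, Real.log ((A + (s : ℂ) • (1 : Matrix d d ℂ)).det.re))
          - (Fintype.card d : ℝ) * (L * Real.log L - L) - A.trace.re * (Real.log L + 1))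
      atTop (𝓝 (vnEntropy A)) := by
  rw [ld_vnEntropy_eq_sum A hA.1]
  have hsum : Tendsto (fun L : ℝ => ∑ i, ((∫ s in (0:ℝ)..L, Real.log (hA.1.eigenvalues i + s))
      - (L * Real.log L - L) - hA.1.eigenvalues i * (Real.log L + 1))) atTop
      (𝓝 (∑ i, -(hA.1.eigenvalues i * Real.log (hA.1.eigenvalues i)))) :=
    tendsto_finsetSum _ (fun i _ => ld_tendsto_scalar _ (hA.eigenvalues_nonneg i))
  refine hsum.congr' ?_
  filter_upwards [eventually_ge_atTop (0:ℝ)] with L hL
  have htr : A.trace.re = ∑ i, hA.1.eigenvalues i := by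
    rw [hA.1.trace_eq_sum_eigenvalues]
    simp
  rw [ld_integral_eq_sum A hA hL, htr, Finset.sum_sub_distrib, Finset.sum_sub_distrib,
    Finset.sum_const, Finset.card_univ, nsmul_eq_mul, Finset.sum_mul]

/-! ### An abstract calculus: "pointwise-in-`s` inequality ⇒ entropy inequality"

`LogDetRep S n t f` says that the number `S` is represented by the integrand `f` with "dimension"
`n` and "trace" `t`:
`S = lim_{L → ∞} [ ∫_0^L f(s) ds - n (L ln L - L) - t (ln L + 1) ]`.
`vnEntropy A` is represented by `s ↦ ln det (A + s)` with `n = |d|`, `t = tr A`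
(`logDetRep_vnEntropy`); representations add, subtract and scale; and a representation with
`n = 0`, `t = 0` and a nonnegative integrand on `s > 0` has `S ≥ 0` (`LogDetRep.nonneg`). -/

/-- `S = lim_{L → ∞} [ ∫_0^L f - n (L ln L - L) - t (ln L + 1) ]`, with `f` interval integrable
on every `[0, L]`. -/
structure LogDetRep (S n t : ℝ) (f : ℝ → ℝ) : Prop where
  integrable : ∀ L : ℝ, 0 ≤ L → IntervalIntegrable f volume 0 L
  tendsto : Tendsto (fun L : ℝ => (∫ s in (0:ℝ)..L, f s) - n * (L * Real.log L - L)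
      - t * (Real.log L + 1)) atTop (𝓝 S)

/-- The entropy of a positive semidefinite matrix is represented by `s ↦ ln det (A + s)`. -/
theorem logDetRep_vnEntropy (A : Matrix d d ℂ) (hA : A.PosSemidef) :
    LogDetRep (vnEntropy A) (Fintype.card d) A.trace.re
      (fun s : ℝ => Real.log ((A + (s : ℂ) • (1 : Matrix d d ℂ)).det.re)) :=
  ⟨fun _ hL => ld_intervalIntegrable A hA hL, vnEntropy_eq_lim_logdet A hA⟩

/-- The scalar entropy `-x ln x` (`x ≥ 0`) is represented by `s ↦ ln (x + s)`. -/
theorem logDetRep_negMulLog (x : ℝ) (hx : 0 ≤ x) :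
    LogDetRep (Real.negMulLog x) 1 x (fun s : ℝ => Real.log (x + s)) := by
  refine ⟨fun L _ => ld_intervalIntegrable_log_add x 0 L, ?_⟩
  have h := ld_tendsto_scalar x hx
  have e : Real.negMulLog x = -(x * Real.log x) := by rw [Real.negMulLog]; ring
  rw [e]
  simpa using h

namespace LogDetRep

variable {S S' n n' t t' : ℝ} {f f' : ℝ → ℝ}

theorem add (h : LogDetRep S n t f) (h' : LogDetRep S' n' t' f') :
    LogDetRep (S + S') (n + n') (t + t') (fun s => f s + f' s) := by
  refine ⟨fun L hL => (h.integrable L hL).add (h'.integrable L hL), ?_⟩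
  refine (h.tendsto.add h'.tendsto).congr' ?_
  filter_upwards [eventually_ge_atTop (0:ℝ)] with L hL
  rw [intervalIntegral.integral_add (h.integrable L hL) (h'.integrable L hL)]
  ring

theorem sub (h : LogDetRep S n t f) (h' : LogDetRep S' n' t' f') :
    LogDetRep (S - S') (n - n') (t - t') (fun s => f s - f' s) := by
  refine ⟨fun L hL => (h.integrable L hL).sub (h'.integrable L hL), ?_⟩
  refine (h.tendsto.sub h'.tendsto).congr' ?_
  filter_upwards [eventually_ge_atTop (0:ℝ)] with L hL
  rw [intervalIntegral.integral_sub (h.integrable L hL) (h'.integrable L hL)]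
  ring

theorem const_mul (c : ℝ) (h : LogDetRep S n t f) :
    LogDetRep (c * S) (c * n) (c * t) (fun s => c * f s) := by
  refine ⟨fun L hL => (h.integrable L hL).const_mul c, ?_⟩
  refine (h.tendsto.const_mul c).congr' ?_
  filter_upwards [eventually_ge_atTop (0:ℝ)] with L hL
  rw [intervalIntegral.integral_const_mul]
  ring

theorem neg (h : LogDetRep S n t f) : LogDetRep (-S) (-n) (-t) (fun s => -f s) := by
  have := h.const_mul (-1)
  simpa using this

/-- Change the data by equalities (the integrand only on `s > 0`). -/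
theorem congr (h : LogDetRep S n t f) (hS : S = S') (hn : n = n') (ht : t = t')
    (hf : ∀ s : ℝ, 0 < s → f s = f' s) : LogDetRep S' n' t' f' := by
  subst hS hn ht
  have hae : ∀ L : ℝ, 0 ≤ L → f =ᵐ[volume.restrict (Set.uIoc 0 L)] f' := by
    intro L hL
    refine (ae_restrict_mem measurableSet_uIoc).mono (fun s hs => ?_)
    rw [Set.uIoc_of_le hL] at hs
    exact hf s hs.1
  refine ⟨fun L hL => (h.integrable L hL).congr_ae (hae L hL), ?_⟩
  refine h.tendsto.congr' ?_
  filter_upwards [eventually_ge_atTop (0:ℝ)] with L hL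
  have : (∫ s in (0:ℝ)..L, f s) = ∫ s in (0:ℝ)..L, f' s := by
    refine intervalIntegral.integral_congr_ae (Filter.Eventually.of_forall (fun s hs => ?_))
    rw [Set.uIoc_of_le hL] at hs
    exact hf s hs.1
  rw [this]

/-- **Pointwise-in-`s` nonnegativity ⇒ nonnegativity of the represented number**, when the
dimension and trace parts vanish. -/
theorem nonneg (h : LogDetRep S n t f) (hn : n = 0) (ht : t = 0)
    (hf : ∀ s : ℝ, 0 < s → 0 ≤ f s) : 0 ≤ S := by
  subst hn ht
  refine ge_of_tendsto h.tendsto ?_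
  filter_upwards [eventually_ge_atTop (0:ℝ)] with L hL
  have h0 : 0 ≤ ∫ s in (0:ℝ)..L, f s := by
    rw [intervalIntegral.integral_of_le hL]
    exact MeasureTheory.setIntegral_nonneg measurableSet_Ioc (fun s hs => hf s hs.1)
  simpa using h0

/-- **Pointwise-in-`s` inequality ⇒ inequality of the represented numbers**, when the dimension
and trace parts agree. -/
theorem le (h : LogDetRep S n t f) (h' : LogDetRep S' n' t' f') (hn : n = n') (ht : t = t')
    (hf : ∀ s : ℝ, 0 < s → f s ≤ f' s) : S ≤ S' := by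
  have := (h'.sub h).nonneg (by rw [hn]; ring) (by rw [ht]; ring)
    (fun s hs => sub_nonneg.mpr (hf s hs))
  linarith

/-- Equality version of `LogDetRep.le`. -/
theorem eq (h : LogDetRep S n t f) (h' : LogDetRep S' n' t' f') (hn : n = n') (ht : t = t')
    (hf : ∀ s : ℝ, 0 < s → f s = f' s) : S = S' :=
  le_antisymm (h.le h' hn ht (fun s hs => (hf s hs).le))
    (h'.le h hn.symm ht.symm (fun s hs => (hf s hs).ge))

/-- Any `f` interval integrable on all `[0, L]` whose truncated integrals converge represents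
the limit, with `n = 0`, `t = 0`. -/
theorem of_tendsto (hf : ∀ L : ℝ, 0 ≤ L → IntervalIntegrable f volume 0 L)
    (h : Tendsto (fun L : ℝ => ∫ s in (0:ℝ)..L, f s) atTop (𝓝 S)) : LogDetRep S 0 0 f :=
  ⟨hf, by simpa using h⟩

/-- With `n = 0`, `t = 0` the represented number is the limit of the truncated integrals. -/
theorem tendsto_integral (h : LogDetRep S 0 0 f) :
    Tendsto (fun L : ℝ => ∫ s in (0:ℝ)..L, f s) atTop (𝓝 S) := by
  simpa using h.tendsto

/-- An integrable function on `(0, ∞)` represents its integral. -/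
theorem of_integrableOn (hf : IntegrableOn f (Set.Ioi 0) volume) :
    LogDetRep (∫ s in Set.Ioi (0:ℝ), f s) 0 0 f := by
  refine of_tendsto (fun L hL => ?_) (intervalIntegral_tendsto_integral_Ioi 0 hf tendsto_id)
  rw [intervalIntegrable_iff, Set.uIoc_of_le hL]
  exact hf.mono_set Set.Ioc_subset_Ioi_self

/-- With `n = 0`, `t = 0` and an integrand integrable on `(0, ∞)`, the represented number is the
improper integral. -/
theorem eq_integral_Ioi (h : LogDetRep S 0 0 f) (hf : IntegrableOn f (Set.Ioi 0) volume) :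
    S = ∫ s in Set.Ioi (0:ℝ), f s :=
  tendsto_nhds_unique h.tendsto_integral (intervalIntegral_tendsto_integral_Ioi 0 hf tendsto_id)

/-- With `n = 0`, `t = 0` and an integrand that is nonnegative on `s > 0`, the integrand is
integrable on `(0, ∞)`. -/
theorem integrableOn_Ioi_of_nonneg (h : LogDetRep S 0 0 f) (hf : ∀ s : ℝ, 0 < s → 0 ≤ f s) :
    IntegrableOn f (Set.Ioi 0) volume := by
  refine integrableOn_Ioi_of_intervalIntegral_norm_tendsto (l := atTop) (b := fun L : ℝ => max L 0)
    S 0 (fun L => ?_) ?_ ?_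
  · have := h.integrable (max L 0) (le_max_right _ _)
    rw [intervalIntegrable_iff, Set.uIoc_of_le (le_max_right _ _)] at this
    exact this
  · exact tendsto_atTop_mono (fun L => le_max_left L 0) tendsto_id
  · refine h.tendsto_integral.congr' ?_
    filter_upwards [eventually_ge_atTop (0:ℝ)] with L hL
    rw [max_eq_left hL]
    refine intervalIntegral.integral_congr_ae (Filter.Eventually.of_forall (fun s hs => ?_))
    rw [Set.uIoc_of_le hL] at hs
    exact (Real.norm_of_nonneg (hf s hs.1)).symm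

/-- With `n = 0`, `t = 0`: `ofReal S ≤ ∫⁻_{(0,∞)} ofReal (f s) ds` (no sign condition on `f`). -/
theorem ofReal_le_lintegral (h : LogDetRep S 0 0 f) :
    ENNReal.ofReal S ≤ ∫⁻ s in Set.Ioi (0:ℝ), ENNReal.ofReal (f s) := by
  have key : ∀ L : ℝ, 0 ≤ L → ENNReal.ofReal (∫ s in (0:ℝ)..L, f s)
      ≤ ∫⁻ s in Set.Ioi (0:ℝ), ENNReal.ofReal (f s) := by
    intro L hL
    have hint : IntegrableOn f (Set.Ioc 0 L) volume := by
      have := h.integrable L hL
      rwa [intervalIntegrable_iff, Set.uIoc_of_le hL] at this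
    rw [intervalIntegral.integral_of_le hL]
    calc ENNReal.ofReal (∫ s in Set.Ioc 0 L, f s)
        ≤ ENNReal.ofReal (∫ s in Set.Ioc 0 L, max (f s) 0) :=
          ENNReal.ofReal_le_ofReal (integral_mono hint hint.pos_part (fun s => le_max_left _ _))
      _ = ∫⁻ s in Set.Ioc 0 L, ENNReal.ofReal (max (f s) 0) :=
          ofReal_integral_eq_lintegral_ofReal hint.pos_part
            (Filter.Eventually.of_forall (fun s => le_max_right _ _))
      _ = ∫⁻ s in Set.Ioc 0 L, ENNReal.ofReal (f s) := by
          refine lintegral_congr (fun s => ?_)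
          rcases le_total (f s) 0 with h0 | h0
          · rw [max_eq_right h0, ENNReal.ofReal_zero, ENNReal.ofReal_of_nonpos h0]
          · rw [max_eq_left h0]
      _ ≤ ∫⁻ s in Set.Ioi (0:ℝ), ENNReal.ofReal (f s) := lintegral_mono_set Set.Ioc_subset_Ioi_self
  have ht : Tendsto (fun L : ℝ => ENNReal.ofReal (∫ s in (0:ℝ)..L, f s)) atTop
      (𝓝 (ENNReal.ofReal S)) :=
    (ENNReal.continuous_ofReal.tendsto S).comp h.tendsto_integral
  refine le_of_tendsto ht ?_
  filter_upwards [eventually_ge_atTop (0:ℝ)] with L hL using key L hL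

/-- With `n = 0`, `t = 0` and `f ≥ 0` on `s > 0`: `∫⁻_{(0,∞)} ofReal (f s) ds = ofReal S`. -/
theorem lintegral_eq_ofReal (h : LogDetRep S 0 0 f) (hf : ∀ s : ℝ, 0 < s → 0 ≤ f s) :
    ∫⁻ s in Set.Ioi (0:ℝ), ENNReal.ofReal (f s) = ENNReal.ofReal S := by
  have hint := h.integrableOn_Ioi_of_nonneg hf
  rw [h.eq_integral_Ioi hint]
  exact (ofReal_integral_eq_lintegral_ofReal hint
    ((ae_restrict_iff' measurableSet_Ioi).mpr (Filter.Eventually.of_forall (fun s hs => hf s hs)))).symm

end LogDetRep

/-- The "`n ln s`" term: `0` is represented by `ln s` with `n = 1`, `t = 0`. -/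
theorem logDetRep_log : LogDetRep 0 1 0 Real.log := by
  have h := logDetRep_negMulLog 0 le_rfl
  exact h.congr (by simp) rfl rfl (fun s _ => by simp)

end Crest.Agent.GAD
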