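import Mathlib
import Crest.Prelude.Def_QState
import Crest.Agent.GAD.LogDetRep

/-!
# Step (0) of the (AD4) proof: the 4-path entropy defect as an `s`-integral

For `a b : Matrix d e ℂ` and positive semidefinite `T0 T1 : Matrix d d ℂ` put `X = a aᴴ`,
`U = b bᴴ`, `O = [[X + T0, a bᴴ], [b aᴴ, U + T1]]`. Then
`S(X) + S(U) + S(T0) + S(T1) - S(O) = lim_{L → ∞} ∫_0^L g(s) ds`, where
`g(s) = ln det (1 + aᴴ a / s) + ln det (1 + bᴴ b / s) - ln det (1 + A0(s) + A1(s))`,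
`A0(s) = aᴴ (T0 + s)⁻¹ a`, `A1(s) = bᴴ (T1 + s)⁻¹ b`.
-/

set_option autoImplicit false

open Crest.Quantum
open scoped ComplexOrder Matrix
open Filter Topology MeasureTheory

namespace Crest.Agent.GAD

variable {d e : Type*} [Fintype d] [DecidableEq d] [Fintype e] [DecidableEq e]

/-- The 4-path matrix `O = [[a aᴴ + T0, a bᴴ], [b aᴴ, b bᴴ + T1]]`. -/
noncomputable def step0O (a b : Matrix d e ℂ) (T0 T1 : Matrix d d ℂ) : Matrix (d ⊕ d) (d ⊕ d) ℂ :=
  Matrix.fromBlocks (a * aᴴ + T0) (a * bᴴ) (b * aᴴ) (b * bᴴ + T1)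

/-- `A(s) = aᴴ (T + s)⁻¹ a`. -/
noncomputable def step0Res (a : Matrix d e ℂ) (T : Matrix d d ℂ) (s : ℝ) : Matrix e e ℂ :=
  aᴴ * (T + (s : ℂ) • (1 : Matrix d d ℂ))⁻¹ * a

/-- The integrand
`g(s) = ln det (1 + aᴴ a / s) + ln det (1 + bᴴ b / s) - ln det (1 + A0(s) + A1(s))`. -/
noncomputable def step0Integrand (a b : Matrix d e ℂ) (T0 T1 : Matrix d d ℂ) (s : ℝ) : ℝ :=
  Real.log ((1 + (s : ℂ)⁻¹ • (aᴴ * a)).det.re) + Real.log ((1 + (s : ℂ)⁻¹ • (bᴴ * b)).det.re)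
    - Real.log ((1 + step0Res a T0 s + step0Res b T1 s).det.re)

/-- `O = diag(T0, T1) + [a; b] [a; b]ᴴ`. -/
theorem step0O_eq (a b : Matrix d e ℂ) (T0 T1 : Matrix d d ℂ) :
    step0O a b T0 T1 = Matrix.fromBlocks T0 0 0 T1
      + Matrix.fromRows a b * (Matrix.fromRows a b)ᴴ := by
  rw [Matrix.conjTranspose_fromRows_eq_fromCols_conjTranspose, Matrix.fromRows_mul_fromCols,
    Matrix.fromBlocks_add]
  simp [step0O, add_comm]

theorem step0_posSemidef_diag {T0 T1 : Matrix d d ℂ} (hT0 : T0.PosSemidef) (hT1 : T1.PosSemidef) :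
    (Matrix.fromBlocks T0 0 0 T1 : Matrix (d ⊕ d) (d ⊕ d) ℂ).PosSemidef := by
  refine Matrix.PosSemidef.of_dotProduct_mulVec_nonneg
    (Matrix.IsHermitian.fromBlocks hT0.1 (by simp) hT1.1) (fun x => ?_)
  rw [← Sum.elim_comp_inl_inr x, Matrix.fromBlocks_mulVec]
  simp only [Matrix.zero_mulVec, add_zero, zero_add]
  have hstar : star (Sum.elim (x ∘ Sum.inl) (x ∘ Sum.inr))
      = Sum.elim (star (x ∘ Sum.inl)) (star (x ∘ Sum.inr)) := by
    ext (i | i) <;> simp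
  rw [hstar, sumElim_dotProduct_sumElim]
  simp only [Sum.elim_comp_inl, Sum.elim_comp_inr]
  exact add_nonneg (hT0.dotProduct_mulVec_nonneg _) (hT1.dotProduct_mulVec_nonneg _)

theorem step0O_posSemidef (a b : Matrix d e ℂ) {T0 T1 : Matrix d d ℂ}
    (hT0 : T0.PosSemidef) (hT1 : T1.PosSemidef) : (step0O a b T0 T1).PosSemidef := by
  rw [step0O_eq]
  exact (step0_posSemidef_diag hT0 hT1).add (Matrix.posSemidef_self_mul_conjTranspose _)

theorem step0O_trace (a b : Matrix d e ℂ) (T0 T1 : Matrix d d ℂ) :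
    (step0O a b T0 T1).trace = (a * aᴴ).trace + (b * bᴴ).trace + T0.trace + T1.trace := by
  simp only [step0O, Matrix.trace, Fintype.sum_sum_type, Matrix.diag_apply, Matrix.fromBlocks_apply₁₁,
    Matrix.fromBlocks_apply₂₂, Matrix.add_apply, Finset.sum_add_distrib]
  ring

/-! ### Determinant identities -/

/-- For Hermitian `A` and real `s`, `det (A + s)` is real. -/
theorem step0_det_eq_ofReal_re (A : Matrix d d ℂ) (hA : A.IsHermitian) (s : ℝ) :
    (A + (s : ℂ) • (1 : Matrix d d ℂ)).det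
      = (((A + (s : ℂ) • (1 : Matrix d d ℂ)).det.re : ℝ) : ℂ) := by
  rw [ld_det_add_smul_one A hA s, Complex.ofReal_re]

/-- Matrix determinant lemma for the 4-path matrix:
`det (O + s) = det (T0 + s) det (T1 + s) det (1 + A0(s) + A1(s))`. -/
theorem step0_det (a b : Matrix d e ℂ) {T0 T1 : Matrix d d ℂ}
    (hT0 : T0.PosSemidef) (hT1 : T1.PosSemidef) {s : ℝ} (hs : 0 < s) :
    (step0O a b T0 T1 + (s : ℂ) • (1 : Matrix (d ⊕ d) (d ⊕ d) ℂ)).det
      = (T0 + (s : ℂ) • (1 : Matrix d d ℂ)).det * (T1 + (s : ℂ) • (1 : Matrix d d ℂ)).det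
        * (1 + step0Res a T0 s + step0Res b T1 s).det := by
  have hPdet : IsUnit (T0 + (s : ℂ) • (1 : Matrix d d ℂ)).det := by
    refine isUnit_iff_ne_zero.mpr (fun h => ?_)
    have := ld_det_add_smul_one_re_pos T0 hT0 hs
    rw [h] at this; simp at this
  have hQdet : IsUnit (T1 + (s : ℂ) • (1 : Matrix d d ℂ)).det := by
    refine isUnit_iff_ne_zero.mpr (fun h => ?_)
    have := ld_det_add_smul_one_re_pos T1 hT1 hs
    rw [h] at this; simp at this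
  set P := T0 + (s : ℂ) • (1 : Matrix d d ℂ) with hP
  set Q := T1 + (s : ℂ) • (1 : Matrix d d ℂ) with hQ
  have h1 : step0O a b T0 T1 + (s : ℂ) • (1 : Matrix (d ⊕ d) (d ⊕ d) ℂ)
      = Matrix.fromBlocks P 0 0 Q + Matrix.fromRows a b * Matrix.fromCols aᴴ bᴴ := by
    rw [Matrix.fromRows_mul_fromCols, Matrix.fromBlocks_add, ← Matrix.fromBlocks_one,
      Matrix.fromBlocks_smul, step0O, Matrix.fromBlocks_add, hP, hQ]
    congr 1 <;> simp <;> abel
  have hD : IsUnit (Matrix.fromBlocks P 0 0 Q : Matrix (d ⊕ d) (d ⊕ d) ℂ).det := by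
    rw [Matrix.det_fromBlocks_zero₂₁]; exact hPdet.mul hQdet
  have hinv : (Matrix.fromBlocks P 0 0 Q : Matrix (d ⊕ d) (d ⊕ d) ℂ)⁻¹
      = Matrix.fromBlocks P⁻¹ 0 0 Q⁻¹ := by
    rw [Matrix.inv_fromBlocks_zero₂₁_of_isUnit_iff]
    · simp
    · rw [Matrix.isUnit_iff_isUnit_det, Matrix.isUnit_iff_isUnit_det]
      exact ⟨fun _ => hQdet, fun _ => hPdet⟩
  rw [h1, Matrix.det_add_mul _ _ hD, Matrix.det_fromBlocks_zero₂₁, hinv,
    Matrix.fromCols_mul_fromBlocks, Matrix.fromCols_mul_fromRows]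
  simp only [Matrix.mul_zero, add_zero, zero_add, step0Res, ← hP, ← hQ, add_assoc]

/-- Weinstein–Aronszajn: `det (a aᴴ + s) = s ^ |d| det (1 + aᴴ a / s)`. -/
theorem step0_det_gram (a : Matrix d e ℂ) {s : ℝ} (hs : s ≠ 0) :
    (a * aᴴ + (s : ℂ) • (1 : Matrix d d ℂ)).det
      = (s : ℂ) ^ Fintype.card d * (1 + (s : ℂ)⁻¹ • (aᴴ * a)).det := by
  have hs' : (s : ℂ) ≠ 0 := Complex.ofReal_ne_zero.mpr hs
  have h1 : a * aᴴ + (s : ℂ) • (1 : Matrix d d ℂ)
      = (s : ℂ) • (1 + ((s : ℂ)⁻¹ • a) * aᴴ) := by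
    rw [smul_add, Matrix.smul_mul, smul_smul, mul_inv_cancel₀ hs', one_smul, add_comm]
  rw [h1, Matrix.det_smul, Matrix.det_one_add_mul_comm, Matrix.mul_smul]

/-! ### Logarithms -/

theorem step0_log_gram (a : Matrix d e ℂ) {s : ℝ} (hs : 0 < s) :
    Real.log ((1 + (s : ℂ)⁻¹ • (aᴴ * a)).det.re)
      = Real.log ((a * aᴴ + (s : ℂ) • (1 : Matrix d d ℂ)).det.re)
        - (Fintype.card d : ℝ) * Real.log s := by
  have hX : (a * aᴴ).PosSemidef := Matrix.posSemidef_self_mul_conjTranspose a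
  have hpos := ld_det_add_smul_one_re_pos (a * aᴴ) hX hs
  have h1 := step0_det_gram a hs.ne'
  rw [step0_det_eq_ofReal_re (a * aᴴ) hX.1 s] at h1
  have hsn : ((s : ℂ)) ^ Fintype.card d ≠ 0 :=
    pow_ne_zero _ (Complex.ofReal_ne_zero.mpr hs.ne')
  have h2 : (1 + (s : ℂ)⁻¹ • (aᴴ * a)).det
      = (((a * aᴴ + (s : ℂ) • (1 : Matrix d d ℂ)).det.re / s ^ Fintype.card d : ℝ) : ℂ) := by
    push_cast
    rw [h1]
    field_simp
  rw [h2, Complex.ofReal_re, Real.log_div hpos.ne' (pow_ne_zero _ hs.ne'), Real.log_pow]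

theorem step0_log_core (a b : Matrix d e ℂ) {T0 T1 : Matrix d d ℂ}
    (hT0 : T0.PosSemidef) (hT1 : T1.PosSemidef) {s : ℝ} (hs : 0 < s) :
    Real.log ((1 + step0Res a T0 s + step0Res b T1 s).det.re)
      = Real.log ((step0O a b T0 T1 + (s : ℂ) • (1 : Matrix (d ⊕ d) (d ⊕ d) ℂ)).det.re)
        - Real.log ((T0 + (s : ℂ) • (1 : Matrix d d ℂ)).det.re)
        - Real.log ((T1 + (s : ℂ) • (1 : Matrix d d ℂ)).det.re) := by
  have hO := step0O_posSemidef a b hT0 hT1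
  have h := step0_det a b hT0 hT1 hs
  rw [step0_det_eq_ofReal_re _ hO.1 s, step0_det_eq_ofReal_re T0 hT0.1 s,
    step0_det_eq_ofReal_re T1 hT1.1 s] at h
  have pO := ld_det_add_smul_one_re_pos _ hO hs
  have p0 := ld_det_add_smul_one_re_pos T0 hT0 hs
  have p1 := ld_det_add_smul_one_re_pos T1 hT1 hs
  have c0 : (((T0 + (s : ℂ) • (1 : Matrix d d ℂ)).det.re : ℝ) : ℂ) ≠ 0 :=
    Complex.ofReal_ne_zero.mpr p0.ne'
  have c1 : (((T1 + (s : ℂ) • (1 : Matrix d d ℂ)).det.re : ℝ) : ℂ) ≠ 0 :=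
    Complex.ofReal_ne_zero.mpr p1.ne'
  have h2 : (1 + step0Res a T0 s + step0Res b T1 s).det
      = (((step0O a b T0 T1 + (s : ℂ) • (1 : Matrix (d ⊕ d) (d ⊕ d) ℂ)).det.re
          / ((T0 + (s : ℂ) • (1 : Matrix d d ℂ)).det.re
            * (T1 + (s : ℂ) • (1 : Matrix d d ℂ)).det.re) : ℝ) : ℂ) := by
    push_cast
    rw [h]
    field_simp
  rw [h2, Complex.ofReal_re, Real.log_div pO.ne' (mul_pos p0 p1).ne', Real.log_mul p0.ne' p1.ne']
  ring

/-! ### Step (0) -/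

/-- **Step (0).** `S(X) + S(U) + S(T0) + S(T1) - S(O) = lim_{L → ∞} ∫_0^L g(s) ds` with
`g = step0Integrand`, in the `LogDetRep` calculus. -/
theorem step0_logDetRep (a b : Matrix d e ℂ) {T0 T1 : Matrix d d ℂ}
    (hT0 : T0.PosSemidef) (hT1 : T1.PosSemidef) :
    LogDetRep (vnEntropy (a * aᴴ) + vnEntropy (b * bᴴ) + vnEntropy T0 + vnEntropy T1
        - vnEntropy (step0O a b T0 T1)) 0 0 (step0Integrand a b T0 T1) := by
  have hX : (a * aᴴ).PosSemidef := Matrix.posSemidef_self_mul_conjTranspose a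
  have hU : (b * bᴴ).PosSemidef := Matrix.posSemidef_self_mul_conjTranspose b
  have hO := step0O_posSemidef a b hT0 hT1
  have rep := ((((logDetRep_vnEntropy _ hX).add (logDetRep_vnEntropy _ hU)).add
    (logDetRep_vnEntropy _ hT0)).add (logDetRep_vnEntropy _ hT1)).sub (logDetRep_vnEntropy _ hO)
  have rep2 := rep.sub (logDetRep_log.const_mul (2 * (Fintype.card d : ℝ)))
  refine rep2.congr (by ring) ?_ ?_ ?_
  · rw [Fintype.card_sum]; push_cast; ring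
  · rw [step0O_trace]; simp only [Complex.add_re]; ring
  · intro s hs
    simp only [step0Integrand]
    rw [step0_log_gram a hs, step0_log_gram b hs, step0_log_core a b hT0 hT1 hs]
    ring

/-- **Step (0), `lintegral` form** (the shape used by the Tonelli assembly):
`ofReal (S(X) + S(U) + S(T0) + S(T1) - S(O)) ≤ ∫⁻_{(0,∞)} ofReal (g(s)) ds`. -/
theorem step0_ofReal_le_lintegral (a b : Matrix d e ℂ) {T0 T1 : Matrix d d ℂ}
    (hT0 : T0.PosSemidef) (hT1 : T1.PosSemidef) :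
    ENNReal.ofReal (vnEntropy (a * aᴴ) + vnEntropy (b * bᴴ) + vnEntropy T0 + vnEntropy T1
        - vnEntropy (step0O a b T0 T1))
      ≤ ∫⁻ s in Set.Ioi (0:ℝ), ENNReal.ofReal (step0Integrand a b T0 T1 s) :=
  (step0_logDetRep a b hT0 hT1).ofReal_le_lintegral

end Crest.Agent.GAD
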