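import Mathlib
import Crest.Prelude.Def_QState
import Crest.Agent.GAD.LogDetRep
import Crest.Agent.GAD.Step0
import Crest.Agent.GAD.Entropy

/-!
# Step (0), scalar instance (`d = e = Unit`) and the top-level reduction of (AD4)

* `step0Scal x` is the `1 × 1` matrix `[x]`; for `x, y, w0, w1 ≥ 0` the Step-(0) integrand of
  `([√x], [√y], [w0], [w1])` is `g_sc(s) = ln(1 + x/s) + ln(1 + y/s) - ln(1 + x/(w0+s) + y/(w1+s))`,
  it is nonnegative, and `∫⁻ ofReal g_sc = ofReal (-Φ4)`.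
* `step0_AD4_of_lintegral_le`: (AD4) for `(a, b, T0, T1)` follows from the single `lintegral`
  inequality `∫⁻ ofReal (step0Integrand a b T0 T1) ≤ ∫⁻ ofReal g_sc` at the four traces.
-/

set_option autoImplicit false

open Crest.Quantum
open scoped ComplexOrder Matrix
open Filter Topology MeasureTheory

namespace Crest.Agent.GAD

/-- The `1 × 1` matrix with real entry `x`. -/
abbrev step0Scal (x : ℝ) : Matrix Unit Unit ℂ := Matrix.of fun _ _ => ((x : ℝ) : ℂ)

/-- The scalar Step-(0) integrand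
`g_sc(s) = ln(1 + x/s) + ln(1 + y/s) - ln(1 + x/(w0+s) + y/(w1+s))`. -/
noncomputable def step0ScalarIntegrand (x y w0 w1 s : ℝ) : ℝ :=
  Real.log (1 + x / s) + Real.log (1 + y / s) - Real.log (1 + x / (w0 + s) + y / (w1 + s))

theorem step0Scal_conjTranspose (x : ℝ) : (step0Scal x)ᴴ = step0Scal x := by
  ext i j; simp [step0Scal, Matrix.conjTranspose_apply]

theorem step0Scal_mul (x y : ℝ) : step0Scal x * step0Scal y = step0Scal (x * y) := by
  ext i j; simp [step0Scal, Matrix.mul_apply]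

theorem step0Scal_add (x y : ℝ) : step0Scal x + step0Scal y = step0Scal (x + y) := by
  ext i j; simp [step0Scal]

theorem step0Scal_eq_diagonal (x : ℝ) :
    step0Scal x = Matrix.diagonal (fun _ : Unit => ((x : ℝ) : ℂ)) := by
  ext i j; simp [step0Scal, Matrix.diagonal]

theorem step0Scal_posSemidef {w : ℝ} (hw : 0 ≤ w) : (step0Scal w).PosSemidef := by
  rw [step0Scal_eq_diagonal]
  exact Matrix.PosSemidef.diagonal (fun _ => Complex.zero_le_real.mpr hw)

theorem step0Scal_trace (x : ℝ) : (step0Scal x).trace = (x : ℂ) := by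
  simp [Matrix.trace, step0Scal]

/-- The entropy of the `1 × 1` matrix `[x]` is `η(x) = -x ln x`. -/
theorem step0Scal_vnEntropy (x : ℝ) : vnEntropy (step0Scal x) = Real.negMulLog x := by
  rw [step0Scal_eq_diagonal, vnEntropy_diagonal]
  simp

theorem step0Scal_res (α w s : ℝ) :
    step0Res (step0Scal α) (step0Scal w) s = step0Scal (α * α / (w + s)) := by
  ext i j
  simp [step0Res, Matrix.mul_apply, Matrix.inv_subsingleton, step0Scal, Matrix.conjTranspose_apply]
  ring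

theorem step0Scal_det_gram (α s : ℝ) :
    (1 + (s : ℂ)⁻¹ • ((step0Scal α)ᴴ * step0Scal α)).det = ((1 + α * α / s : ℝ) : ℂ) := by
  rw [Matrix.det_unique]
  simp [Matrix.mul_apply, step0Scal, Matrix.conjTranspose_apply]
  ring

theorem step0Scal_det_core (α β w0 w1 s : ℝ) :
    (1 + step0Res (step0Scal α) (step0Scal w0) s + step0Res (step0Scal β) (step0Scal w1) s).det
      = ((1 + α * α / (w0 + s) + β * β / (w1 + s) : ℝ) : ℂ) := by
  rw [step0Scal_res, step0Scal_res, Matrix.det_unique]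
  simp [step0Scal]

/-- The Step-(0) integrand at `d = e = Unit`. -/
theorem step0Integrand_scal {x y : ℝ} (hx : 0 ≤ x) (hy : 0 ≤ y) (w0 w1 s : ℝ) :
    step0Integrand (step0Scal (Real.sqrt x)) (step0Scal (Real.sqrt y)) (step0Scal w0)
      (step0Scal w1) s = step0ScalarIntegrand x y w0 w1 s := by
  unfold step0Integrand step0ScalarIntegrand
  rw [step0Scal_det_gram, step0Scal_det_gram, step0Scal_det_core, Complex.ofReal_re,
    Complex.ofReal_re, Complex.ofReal_re, Real.mul_self_sqrt hx, Real.mul_self_sqrt hy]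

theorem step0ScalarIntegrand_nonneg {x y w0 w1 s : ℝ} (hx : 0 ≤ x) (hy : 0 ≤ y)
    (hw0 : 0 ≤ w0) (hw1 : 0 ≤ w1) (hs : 0 < s) : 0 ≤ step0ScalarIntegrand x y w0 w1 s := by
  unfold step0ScalarIntegrand
  have h1 : 0 < 1 + x / s := by positivity
  have h2 : 0 < 1 + y / s := by positivity
  have h3 : 0 < 1 + x / (w0 + s) + y / (w1 + s) := by positivity
  have hxs : x / (w0 + s) ≤ x / s := div_le_div_of_nonneg_left hx hs (by linarith)
  have hys : y / (w1 + s) ≤ y / s := div_le_div_of_nonneg_left hy hs (by linarith)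
  have hle : 1 + x / (w0 + s) + y / (w1 + s) ≤ (1 + x / s) * (1 + y / s) := by
    have : 0 ≤ x / s * (y / s) := by positivity
    nlinarith
  rw [← Real.log_mul h1.ne' h2.ne']
  exact sub_nonneg.mpr (Real.log_le_log h3 hle)

/-- The scalar (`d = e = Unit`) entropy defect `-Φ4(x, y, w0, w1)`, in the literal form
"`-Ψ4` at `([√x], [√y], [w0], [w1])`". -/
noncomputable def step0ScalarDefect (x y w0 w1 : ℝ) : ℝ :=
  vnEntropy (step0Scal (Real.sqrt x) * (step0Scal (Real.sqrt x))ᴴ)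
    + vnEntropy (step0Scal (Real.sqrt y) * (step0Scal (Real.sqrt y))ᴴ)
    + vnEntropy (step0Scal w0) + vnEntropy (step0Scal w1)
    - vnEntropy (step0O (step0Scal (Real.sqrt x)) (step0Scal (Real.sqrt y)) (step0Scal w0)
        (step0Scal w1))

theorem step0Scalar_logDetRep {x y w0 w1 : ℝ} (hx : 0 ≤ x) (hy : 0 ≤ y)
    (hw0 : 0 ≤ w0) (hw1 : 0 ≤ w1) :
    LogDetRep (step0ScalarDefect x y w0 w1) 0 0 (step0ScalarIntegrand x y w0 w1) :=
  (step0_logDetRep (step0Scal (Real.sqrt x)) (step0Scal (Real.sqrt y))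
    (step0Scal_posSemidef hw0) (step0Scal_posSemidef hw1)).congr rfl rfl rfl
    (fun s _ => step0Integrand_scal hx hy w0 w1 s)

/-- `-Φ4 ≥ 0`. -/
theorem step0ScalarDefect_nonneg {x y w0 w1 : ℝ} (hx : 0 ≤ x) (hy : 0 ≤ y)
    (hw0 : 0 ≤ w0) (hw1 : 0 ≤ w1) : 0 ≤ step0ScalarDefect x y w0 w1 :=
  (step0Scalar_logDetRep hx hy hw0 hw1).nonneg rfl rfl
    (fun _ hs => step0ScalarIntegrand_nonneg hx hy hw0 hw1 hs)

/-- **Scalar identity** (`d = 1` is an equality): `∫⁻_{(0,∞)} ofReal g_sc = ofReal (-Φ4)`. -/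
theorem step0Scalar_lintegral {x y w0 w1 : ℝ} (hx : 0 ≤ x) (hy : 0 ≤ y)
    (hw0 : 0 ≤ w0) (hw1 : 0 ≤ w1) :
    ∫⁻ s in Set.Ioi (0:ℝ), ENNReal.ofReal (step0ScalarIntegrand x y w0 w1 s)
      = ENNReal.ofReal (step0ScalarDefect x y w0 w1) :=
  (step0Scalar_logDetRep hx hy hw0 hw1).lintegral_eq_ofReal
    (fun _ hs => step0ScalarIntegrand_nonneg hx hy hw0 hw1 hs)

/-- `-Φ4` in `η` / skeleton form:
`η(x) + η(y) + η(w0) + η(w1) - S([[x + w0, √x √y], [√x √y, y + w1]])`. -/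
theorem step0ScalarDefect_eq {x y : ℝ} (hx : 0 ≤ x) (hy : 0 ≤ y) (w0 w1 : ℝ) :
    step0ScalarDefect x y w0 w1
      = Real.negMulLog x + Real.negMulLog y + Real.negMulLog w0 + Real.negMulLog w1
        - vnEntropy (Matrix.fromBlocks (step0Scal (x + w0)) (step0Scal (Real.sqrt x * Real.sqrt y))
            (step0Scal (Real.sqrt x * Real.sqrt y)) (step0Scal (y + w1))
            : Matrix (Unit ⊕ Unit) (Unit ⊕ Unit) ℂ) := by
  unfold step0ScalarDefect step0O
  simp only [step0Scal_conjTranspose, step0Scal_mul, step0Scal_add, step0Scal_vnEntropy,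
    Real.mul_self_sqrt hx, Real.mul_self_sqrt hy]
  rw [mul_comm (Real.sqrt y) (Real.sqrt x)]

/-- **Top-level reduction of (AD4).** For rectangular `a, b` and PSD `T0, T1` with traces
`x = tr a aᴴ`, `y = tr b bᴴ`, `w0 = tr T0`, `w1 = tr T1`: if
`∫⁻ ofReal (step0Integrand a b T0 T1) ≤ ∫⁻ ofReal (g_sc x y w0 w1)` then
`S(X) + S(U) + S(T0) + S(T1) - S(O) ≤ -Φ4(x, y, w0, w1)`, i.e. `Φ4 ≤ Ψ4`. -/
theorem step0_AD4_of_lintegral_le {d e : Type*} [Fintype d] [DecidableEq d] [Fintype e]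
    [DecidableEq e] (a b : Matrix d e ℂ) {T0 T1 : Matrix d d ℂ}
    (hT0 : T0.PosSemidef) (hT1 : T1.PosSemidef)
    (hmid : ∫⁻ s in Set.Ioi (0:ℝ), ENNReal.ofReal (step0Integrand a b T0 T1 s)
      ≤ ∫⁻ s in Set.Ioi (0:ℝ), ENNReal.ofReal
          (step0ScalarIntegrand (a * aᴴ).trace.re (b * bᴴ).trace.re T0.trace.re T1.trace.re s)) :
    vnEntropy (a * aᴴ) + vnEntropy (b * bᴴ) + vnEntropy T0 + vnEntropy T1
        - vnEntropy (step0O a b T0 T1)
      ≤ step0ScalarDefect (a * aᴴ).trace.re (b * bᴴ).trace.re T0.trace.re T1.trace.re := by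
  have hx : 0 ≤ (a * aᴴ).trace.re :=
    (Complex.nonneg_iff.mp (Matrix.posSemidef_self_mul_conjTranspose a).trace_nonneg).1
  have hy : 0 ≤ (b * bᴴ).trace.re :=
    (Complex.nonneg_iff.mp (Matrix.posSemidef_self_mul_conjTranspose b).trace_nonneg).1
  have hw0 : 0 ≤ T0.trace.re := (Complex.nonneg_iff.mp hT0.trace_nonneg).1
  have hw1 : 0 ≤ T1.trace.re := (Complex.nonneg_iff.mp hT1.trace_nonneg).1
  have h1 := step0_ofReal_le_lintegral a b hT0 hT1
  have h2 := step0Scalar_lintegral hx hy hw0 hw1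
  have h3 := (h1.trans hmid).trans_eq h2
  exact (ENNReal.ofReal_le_ofReal_iff (step0ScalarDefect_nonneg hx hy hw0 hw1)).mp h3

end Crest.Agent.GAD
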