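import Mathlib
import Crest.Agent.GAD.Entropy
import Crest.Agent.GAD.Inertia
import Crest.Agent.GAD.Step0
import Crest.Agent.GAD.Step0Scalar
import Crest.Agent.GAD.Fiedler
import Crest.Agent.GAD.Assembly
import Crest.Agent.GAD.AD4Lprime

/-!
# (AD4): final assembly (helper24)

`ad4 : AD4` from Step (0) (`Step0`, `Step0Scalar`), Fiedler's inequality (`Fiedler`), the
layer-cake/Tonelli assembly (`Assembly`) and the matrix-side package (`Inertia`).
-/

set_option autoImplicit false

open Crest.Quantum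
open scoped ComplexOrder Matrix
open MeasureTheory

namespace Crest.Agent.GAD.AD4h24

open Crest.Agent.GAD Crest.Agent.GAD.Inertia

variable {d e : Type*} [Fintype d] [DecidableEq d] [Fintype e] [DecidableEq e]

/-- `log det (1 + A / s) = ∑ log (1 + λ_k / s)` over the sorted eigenvalues. -/
theorem log_det_one_add_smul {A : Matrix e e ℂ} (hA : A.PosSemidef) {s : ℝ} (hs : 0 < s) :
    Real.log ((1 + (s : ℂ)⁻¹ • A).det.re) = ∑ k, Real.log (1 + hA.1.eigenvalues₀ k / s) := by
  have hs' : (s : ℂ) ≠ 0 := Complex.ofReal_ne_zero.mpr hs.ne'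
  have h1 : 1 + (s : ℂ)⁻¹ • A = (s : ℂ)⁻¹ • (A + (s : ℂ) • (1 : Matrix e e ℂ)) := by
    rw [smul_add, smul_smul, inv_mul_cancel₀ hs', one_smul, add_comm]
  have h2 : (1 + (s : ℂ)⁻¹ • A).det
      = ((∏ i, (1 + hA.1.eigenvalues i / s) : ℝ) : ℂ) := by
    rw [h1, Matrix.det_smul, ld_det_add_smul_one A hA.1 s]
    push_cast
    rw [← Finset.card_univ, ← Finset.prod_const, ← Finset.prod_mul_distrib]
    refine Finset.prod_congr rfl fun i _ => ?_
    field_simp
    ring
  rw [h2, Complex.ofReal_re, Real.log_prod]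
  · simp_rw [eigenvalues₀_eq_eigenvalues hA.1]
    exact (Equiv.sum_comp (Fintype.equivOfCardEq (Fintype.card_fin _))
      (fun i => Real.log (1 + hA.1.eigenvalues i / s))).symm
  · intro i _
    have := hA.eigenvalues_nonneg i
    positivity

/-- (A4) Fiedler applied pointwise in `s`. -/
theorem step0Integrand_le (a b : Matrix d e ℂ) {T0 T1 : Matrix d d ℂ} (hT0 : T0.PosSemidef)
    (hT1 : T1.PosSemidef) {s : ℝ} (hs : 0 < s) :
    step0Integrand a b T0 T1 s
      ≤ (∑ j, Real.log (1 + pp a j / s)) + (∑ j, Real.log (1 + pp b j / s))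
        - ∑ k, Real.log (1 + al a hT0.1 s k + al b hT1.1 s k) := by
  unfold step0Integrand
  have e1 := log_det_one_add_smul (Matrix.posSemidef_conjTranspose_mul_self a) hs
  have e2 := log_det_one_add_smul (Matrix.posSemidef_conjTranspose_mul_self b) hs
  have hF := fiedler_sum_log_le (𝕜 := ℂ) (resA_posSemidef a hT0 hs) (resA_posSemidef b hT1 hs)
  rw [e1, e2]
  have hF' : ∑ k, Real.log (1 + al a hT0.1 s k + al b hT1.1 s k)
      ≤ Real.log ((1 + step0Res a T0 s + step0Res b T1 s).det.re) := hF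
  unfold pp
  linarith

/-- (MID) the single `lintegral` inequality. -/
theorem lintegral_step0Integrand_le (a b : Matrix d e ℂ) {T0 T1 : Matrix d d ℂ}
    (hT0 : T0.PosSemidef) (hT1 : T1.PosSemidef) :
    ∫⁻ s in Set.Ioi (0:ℝ), ENNReal.ofReal (step0Integrand a b T0 T1 s)
      ≤ ∫⁻ s in Set.Ioi (0:ℝ), ENNReal.ofReal
          (step0ScalarIntegrand (a * aᴴ).trace.re (b * bᴴ).trace.re T0.trace.re T1.trace.re s) := by
  have hx : 0 ≤ (a * aᴴ).trace.re :=
    (Complex.nonneg_iff.mp (Matrix.posSemidef_self_mul_conjTranspose a).trace_nonneg).1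
  have hy : 0 ≤ (b * bᴴ).trace.re :=
    (Complex.nonneg_iff.mp (Matrix.posSemidef_self_mul_conjTranspose b).trace_nonneg).1
  have hw0 : 0 ≤ T0.trace.re := (Complex.nonneg_iff.mp hT0.trace_nonneg).1
  have hw1 : 0 ≤ T1.trace.re := (Complex.nonneg_iff.mp hT1.trace_nonneg).1
  -- step 1: Fiedler pointwise
  have h1 : ∫⁻ s in Set.Ioi (0:ℝ), ENNReal.ofReal (step0Integrand a b T0 T1 s)
      ≤ ∫⁻ s in Set.Ioi (0:ℝ), ENNReal.ofReal ((∑ j, Real.log (1 + pp a j / s))
          + (∑ j, Real.log (1 + pp b j / s))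
          - ∑ k, Real.log (1 + al a hT0.1 s k + al b hT1.1 s k)) :=
    setLIntegral_mono' measurableSet_Ioi fun s hs =>
      ENNReal.ofReal_le_ofReal (step0Integrand_le a b hT0 hT1 hs)
  -- step 2: the layer-cake assembly
  have h2 := lintegral_decoupled_le_of_antitoneOn (pp a) (pp b)
    (fun s k => al a hT0.1 s k) (fun s k => al b hT1.1 s k) T0.trace.re T1.trace.re
    (pp_nonneg a) (pp_nonneg b)
    (fun s hs k => al_nonneg a hT0 hs k) (fun s hs k => al_nonneg b hT1 hs k)
    (fun k => al_antitoneOn a hT0 k) (fun k => al_antitoneOn b hT1 k)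
    (fun s hs u _ => by
      have := card_al_le a hT0 hs u
      rwa [Fintype.card_subtype, Fintype.card_subtype] at this)
    (fun s hs u _ => by
      have := card_al_le b hT1 hs u
      rwa [Fintype.card_subtype, Fintype.card_subtype] at this)
    (fun u hu => by
      have := ofReal_le_lintegral_card_al a hT0 hu
      simp_rw [Fintype.card_subtype] at this
      rwa [sum_pp])
    (fun u hu => by
      have := ofReal_le_lintegral_card_al b hT1 hu
      simp_rw [Fintype.card_subtype] at this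
      rwa [sum_pp])
  rw [sum_pp, sum_pp] at h2
  -- step 3: the scalar identity
  have h3 := lintegral_scalar_eq (a * aᴴ).trace.re (b * bᴴ).trace.re T0.trace.re T1.trace.re
    hx hy hw0 hw1
  calc ∫⁻ s in Set.Ioi (0:ℝ), ENNReal.ofReal (step0Integrand a b T0 T1 s)
      ≤ _ := h1
    _ ≤ I4 (a * aᴴ).trace.re (b * bᴴ).trace.re T0.trace.re T1.trace.re := h2
    _ = _ := h3.symm

/-- **(AD4)**. -/
theorem ad4 : AD4 := by
  intro d d' _ _ _ _ a b T0 T1 hT0 hT1
  have h := step0_AD4_of_lintegral_le a b hT0 hT1 (lintegral_step0Integrand_le a b hT0 hT1)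
  have e1 : psi4 a b T0 T1 = vnEntropy (step0O a b T0 T1) - vnEntropy (a * aᴴ)
      - vnEntropy (b * bᴴ) - vnEntropy T0 - vnEntropy T1 := rfl
  have e2 : ∀ x y w0 w1 : ℝ, phi4 x y w0 w1 = - step0ScalarDefect x y w0 w1 := by
    intro x y w0 w1
    unfold phi4 psi4 step0ScalarDefect step0O
    ring
  rw [e1, e2]
  linarith

end Crest.Agent.GAD.AD4h24
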