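import Mathlib
import Crest.Prelude.Def_QState
import Crest.Prelude.Def_QChannel
import Crest.Prelude.Def_AmpDamp

/-!
# Channel plumbing for the generalized amplitude-damping channel (row 341, lane B, tail module M4)

helper56.  Block formulas for `qubitTensor (gadMap γ ν) Ψ`, reduction to `Ψ = id` through
`blockwise`, preservation of positive semidefiniteness / density matrices, linearity over
ensembles, partial traces and product states.  No entropy in this file.
Everything lives in the sub-namespace `Crest.Agent.GAD.Plumb` (no clash with `GAD/PreludeFacts.lean`).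
-/

set_option autoImplicit false
set_option linter.unusedSectionVars false

open scoped ComplexOrder
open Matrix
open Crest.Quantum Crest.MathPhysics.AmpDamp

namespace Crest.Agent.GAD.Plumb

section Coeff

variable (γ ν : ℝ)

theorem qubitCoeff_gad_ff (s' t' : Bool) :
    qubitCoeff (gadMap γ ν) false false s' t' =
      if s' = false ∧ t' = false then ((1 - γ * ν : ℝ) : ℂ)
      else if s' = true ∧ t' = true then ((γ * (1 - ν) : ℝ) : ℂ) else 0 := by
  cases s' <;> cases t' <;> simp [qubitCoeff, gadMap, Matrix.single_apply]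

theorem qubitCoeff_gad_tt (s' t' : Bool) :
    qubitCoeff (gadMap γ ν) true true s' t' =
      if s' = false ∧ t' = false then ((γ * ν : ℝ) : ℂ)
      else if s' = true ∧ t' = true then ((1 - γ + γ * ν : ℝ) : ℂ) else 0 := by
  cases s' <;> cases t' <;> simp [qubitCoeff, gadMap, Matrix.single_apply]

theorem qubitCoeff_gad_ft (s' t' : Bool) :
    qubitCoeff (gadMap γ ν) false true s' t' =
      if s' = false ∧ t' = true then ((Real.sqrt (1 - γ) : ℝ) : ℂ) else 0 := by
  cases s' <;> cases t' <;> simp [qubitCoeff, gadMap, Matrix.single_apply]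

theorem qubitCoeff_gad_tf (s' t' : Bool) :
    qubitCoeff (gadMap γ ν) true false s' t' =
      if s' = true ∧ t' = false then ((Real.sqrt (1 - γ) : ℝ) : ℂ) else 0 := by
  cases s' <;> cases t' <;> simp [qubitCoeff, gadMap, Matrix.single_apply]

end Coeff

section Blocks

variable {d e : Type*} [Fintype d] [Fintype e] [DecidableEq d] [DecidableEq e]
variable (γ ν : ℝ) (Ψ : Matrix d d ℂ → Matrix e e ℂ) (M : Matrix (Bool × d) (Bool × d) ℂ)

theorem block_qubitTensor_gad_ff :
    block (qubitTensor (gadMap γ ν) Ψ M) false false =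
      ((1 - γ * ν : ℝ) : ℂ) • Ψ (block M false false)
        + ((γ * (1 - ν) : ℝ) : ℂ) • Ψ (block M true true) := by
  ext i j
  simp [block, qubitTensor, qubitCoeff_gad_ff]
  try ring

theorem block_qubitTensor_gad_tt :
    block (qubitTensor (gadMap γ ν) Ψ M) true true =
      ((γ * ν : ℝ) : ℂ) • Ψ (block M false false)
        + ((1 - γ + γ * ν : ℝ) : ℂ) • Ψ (block M true true) := by
  ext i j
  simp [block, qubitTensor, qubitCoeff_gad_tt]
  try ring

theorem block_qubitTensor_gad_ft :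
    block (qubitTensor (gadMap γ ν) Ψ M) false true =
      ((Real.sqrt (1 - γ) : ℝ) : ℂ) • Ψ (block M false true) := by
  ext i j
  simp [block, qubitTensor, qubitCoeff_gad_ft]

theorem block_qubitTensor_gad_tf :
    block (qubitTensor (gadMap γ ν) Ψ M) true false =
      ((Real.sqrt (1 - γ) : ℝ) : ℂ) • Ψ (block M true false) := by
  ext i j
  simp [block, qubitTensor, qubitCoeff_gad_tf]

end Blocks

section General

open Kronecker

variable {d e : Type*} [Fintype d] [Fintype e] [DecidableEq d] [DecidableEq e]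

/-- A block of `blockwise Ψ M` is `Ψ` of the block. -/
theorem block_blockwise {k : Type*} (Ψ : Matrix d d ℂ → Matrix e e ℂ)
    (M : Matrix (k × d) (k × d) ℂ) (s t : k) :
    block (blockwise Ψ M) s t = Ψ (block M s t) := rfl

/-- `Φ ⊗ Ψ = (Φ ⊗ id) ∘ (id ⊗ Ψ)`, for arbitrary functions `Φ`, `Ψ`. -/
theorem qubitTensor_eq_id_blockwise (Φ : Matrix Bool Bool ℂ → Matrix Bool Bool ℂ)
    (Ψ : Matrix d d ℂ → Matrix e e ℂ) (M : Matrix (Bool × d) (Bool × d) ℂ) :
    qubitTensor Φ Ψ M
      = qubitTensor Φ (id : Matrix e e ℂ → Matrix e e ℂ) (blockwise (k := Bool) Ψ M) := rfl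

/-- The trace of a matrix indexed by `k × d` is the sum of the traces of its diagonal blocks. -/
theorem trace_eq_sum_block {k : Type*} [Fintype k] (M : Matrix (k × d) (k × d) ℂ) :
    M.trace = ∑ s, (block M s s).trace := by
  simp only [Matrix.trace, Matrix.diag, block, Matrix.of_apply]
  rw [Fintype.sum_prod_type]

theorem trace_eq_block_bool (M : Matrix (Bool × d) (Bool × d) ℂ) :
    M.trace = (block M false false).trace + (block M true true).trace := by
  rw [trace_eq_sum_block, Fintype.sum_bool, add_comm]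

/-- A diagonal block of a positive semidefinite matrix is positive semidefinite. -/
theorem block_posSemidef {k : Type*} {M : Matrix (k × d) (k × d) ℂ} (hM : M.PosSemidef) (s : k) :
    (block M s s).PosSemidef :=
  hM.submatrix (fun i : d => (s, i))

/-- Complete positivity gives positivity of `id ⊗ Ψ` for every finite auxiliary index type. -/
theorem blockwise_posSemidef {Ψ : Matrix d d ℂ → Matrix e e ℂ} (hΨ : IsCompletelyPositive Ψ)
    {k : Type*} [Fintype k] {M : Matrix (k × d) (k × d) ℂ} (hM : M.PosSemidef) :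
    (blockwise Ψ M).PosSemidef := by
  classical
  let f : Fin (Fintype.card k) ≃ k := (Fintype.equivFin k).symm
  have h1 : (M.submatrix (Prod.map f id) (Prod.map f id)).PosSemidef := hM.submatrix _
  have h2 := hΨ (Fintype.card k) _ h1
  have h3 : blockwise Ψ M
      = (blockwise Ψ (M.submatrix (Prod.map f (id : d → d)) (Prod.map f id))).submatrix
          (Prod.map f.symm (id : e → e)) (Prod.map f.symm id) := by
    ext ⟨s, i⟩ ⟨t, j⟩
    simp [blockwise, block]
  rw [h3]
  exact h2.submatrix _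

theorem trace_blockwise {Ψ : Matrix d d ℂ → Matrix e e ℂ} (hΨ : IsTracePreserving Ψ)
    {k : Type*} [Fintype k] (M : Matrix (k × d) (k × d) ℂ) :
    (blockwise Ψ M).trace = M.trace := by
  rw [trace_eq_sum_block, trace_eq_sum_block]
  refine Finset.sum_congr rfl fun s _ => ?_
  rw [block_blockwise, hΨ]

/-- `id ⊗ Ψ` maps density matrices to density matrices when `Ψ` is a channel. -/
theorem blockwise_isDensity {Ψ : Matrix d d ℂ → Matrix e e ℂ} (hΨ : IsChannel Ψ)
    {k : Type*} [Fintype k] {M : Matrix (k × d) (k × d) ℂ} (hM : IsDensity M) :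
    IsDensity (blockwise Ψ M) :=
  ⟨blockwise_posSemidef hΨ.2.1 hM.1, by rw [trace_blockwise hΨ.2.2, hM.2]⟩

theorem block_sum_smul {k ι : Type*} (s : Finset ι) (q : ι → ℂ)
    (ρ : ι → Matrix (k × d) (k × d) ℂ) (a b : k) :
    block (∑ x ∈ s, q x • ρ x) a b = ∑ x ∈ s, q x • block (ρ x) a b := by
  ext i j
  simp [block, Matrix.sum_apply]

/-- Linearity of `Φ ⊗ Ψ` over finite combinations (only `Ψ` needs to be linear). -/
theorem qubitTensor_sum_smul (Φ : Matrix Bool Bool ℂ → Matrix Bool Bool ℂ)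
    {Ψ : Matrix d d ℂ → Matrix e e ℂ} (hΨ : IsLinearMap ℂ Ψ) {ι : Type*} (s : Finset ι)
    (q : ι → ℂ) (ρ : ι → Matrix (Bool × d) (Bool × d) ℂ) :
    qubitTensor Φ Ψ (∑ x ∈ s, q x • ρ x) = ∑ x ∈ s, q x • qubitTensor Φ Ψ (ρ x) := by
  have hlin : ∀ a b, Ψ (block (∑ x ∈ s, q x • ρ x) a b) = ∑ x ∈ s, q x • Ψ (block (ρ x) a b) := by
    intro a b
    rw [block_sum_smul]
    have h := map_sum hΨ.mk' (fun x => q x • block (ρ x) a b) s
    simp only [IsLinearMap.mk'_apply, hΨ.map_smul] at h
    exact h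
  ext p r
  simp only [qubitTensor, Matrix.of_apply, hlin, Matrix.sum_apply, Matrix.smul_apply, smul_eq_mul,
    Fintype.sum_bool, Finset.mul_sum, ← Finset.sum_add_distrib]
  refine Finset.sum_congr rfl fun x _ => ?_
  ring

end General

section GadPSD

open Kronecker

variable {d e : Type*} [Fintype d] [Fintype e] [DecidableEq d] [DecidableEq e]

/-- Diagonal scaling: `√(1-γ)` on the excited level, `1` on the ground level. -/
noncomputable def dDown (d : Type*) [DecidableEq d] (γ : ℝ) : Matrix (Bool × d) (Bool × d) ℂ :=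
  Matrix.diagonal fun p => if p.1 then ((Real.sqrt (1 - γ) : ℝ) : ℂ) else 1

/-- Diagonal scaling: `1` on the excited level, `√(1-γ)` on the ground level. -/
noncomputable def dUp (d : Type*) [DecidableEq d] (γ : ℝ) : Matrix (Bool × d) (Bool × d) ℂ :=
  Matrix.diagonal fun p => if p.1 then 1 else ((Real.sqrt (1 - γ) : ℝ) : ℂ)

theorem dDown_conjTranspose (γ : ℝ) : (dDown d γ)ᴴ = dDown d γ := by
  unfold dDown
  rw [Matrix.diagonal_conjTranspose]
  congr 1
  funext p
  by_cases h : p.1 <;> simp [h]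

theorem dUp_conjTranspose (γ : ℝ) : (dUp d γ)ᴴ = dUp d γ := by
  unfold dUp
  rw [Matrix.diagonal_conjTranspose]
  congr 1
  funext p
  by_cases h : p.1 <;> simp [h]

theorem sqrt_mul_self_cast {γ : ℝ} (hγ : γ ≤ 1) :
    ((Real.sqrt (1 - γ) : ℝ) : ℂ) * ((Real.sqrt (1 - γ) : ℝ) : ℂ) = ((1 - γ : ℝ) : ℂ) := by
  rw [← Complex.ofReal_mul, Real.mul_self_sqrt (by linarith)]

/-- `GAD ⊗ id` as a convex combination of the two amplitude-damping maps, each written as a
congruence plus a positive block. -/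
theorem qubitTensor_gad_id_eq (γ ν : ℝ) (hγ : γ ≤ 1) (M : Matrix (Bool × d) (Bool × d) ℂ) :
    qubitTensor (gadMap γ ν) (id : Matrix d d ℂ → Matrix d d ℂ) M =
      ((1 - ν : ℝ) : ℂ) • (dDown d γ * M * dDown d γ
          + (Matrix.single false false (γ : ℂ)) ⊗ₖ block M true true)
      + ((ν : ℝ) : ℂ) • (dUp d γ * M * dUp d γ
          + (Matrix.single true true (γ : ℂ)) ⊗ₖ block M false false) := by
  have hc := sqrt_mul_self_cast hγ
  push_cast at hc
  ext ⟨s, i⟩ ⟨t, j⟩
  cases s <;> cases t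
  · simp [qubitTensor, qubitCoeff_gad_ff, dDown, dUp, Matrix.diagonal_mul, Matrix.mul_diagonal,
      block, Matrix.kroneckerMap_apply]
    linear_combination (-(ν : ℂ) * M (false, i) (false, j)) * hc
  · simp [qubitTensor, qubitCoeff_gad_ft, dDown, dUp, Matrix.diagonal_mul, Matrix.mul_diagonal,
      block, Matrix.kroneckerMap_apply]
    ring
  · simp [qubitTensor, qubitCoeff_gad_tf, dDown, dUp, Matrix.diagonal_mul, Matrix.mul_diagonal,
      block, Matrix.kroneckerMap_apply]
    ring
  · simp [qubitTensor, qubitCoeff_gad_tt, dDown, dUp, Matrix.diagonal_mul, Matrix.mul_diagonal,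
      block, Matrix.kroneckerMap_apply]
    linear_combination (-(1 - (ν : ℂ)) * M (true, i) (true, j)) * hc

theorem single_posSemidef (s : Bool) {c : ℂ} (hc : 0 ≤ c) :
    (Matrix.single s s c : Matrix Bool Bool ℂ).PosSemidef := by
  have h : (Matrix.single s s c : Matrix Bool Bool ℂ)
      = Matrix.diagonal (fun t => if t = s then c else 0) := by
    ext a b
    cases s <;> cases a <;> cases b <;> simp [Matrix.single_apply, Matrix.diagonal_apply]
  rw [h]
  refine Matrix.PosSemidef.diagonal fun t => ?_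
  by_cases hts : t = s <;> simp [hts, hc]

/-- `GAD ⊗ id` preserves positive semidefiniteness (`γ, ν ∈ [0, 1]`). -/
theorem qubitTensor_gad_id_posSemidef {γ ν : ℝ} (hγ : γ ∈ Set.Icc (0 : ℝ) 1)
    (hν : ν ∈ Set.Icc (0 : ℝ) 1) {M : Matrix (Bool × d) (Bool × d) ℂ} (hM : M.PosSemidef) :
    (qubitTensor (gadMap γ ν) (id : Matrix d d ℂ → Matrix d d ℂ) M).PosSemidef := by
  rw [qubitTensor_gad_id_eq γ ν hγ.2 M]
  have hγ0 : (0 : ℂ) ≤ (γ : ℂ) := by exact_mod_cast hγ.1
  have h1 : (dDown d γ * M * dDown d γ).PosSemidef := by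
    have := hM.conjTranspose_mul_mul_same (dDown d γ)
    rwa [dDown_conjTranspose] at this
  have h2 : (dUp d γ * M * dUp d γ).PosSemidef := by
    have := hM.conjTranspose_mul_mul_same (dUp d γ)
    rwa [dUp_conjTranspose] at this
  have h3 : ((Matrix.single false false (γ : ℂ)) ⊗ₖ block M true true).PosSemidef :=
    (single_posSemidef false hγ0).kronecker (block_posSemidef hM true)
  have h4 : ((Matrix.single true true (γ : ℂ)) ⊗ₖ block M false false).PosSemidef :=
    (single_posSemidef true hγ0).kronecker (block_posSemidef hM false)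
  have hν0 : (0 : ℝ) ≤ 1 - ν := by linarith [hν.2]
  refine Matrix.PosSemidef.add ?_ ?_
  · rw [Complex.coe_smul]
    exact (h1.add h3).smul hν0
  · rw [Complex.coe_smul]
    exact (h2.add h4).smul hν.1

/-- The trace of `GAD ⊗ Ψ` for trace-preserving `Ψ`. -/
theorem trace_qubitTensor_gad (γ ν : ℝ) {Ψ : Matrix d d ℂ → Matrix e e ℂ}
    (hΨ : IsTracePreserving Ψ) (M : Matrix (Bool × d) (Bool × d) ℂ) :
    (qubitTensor (gadMap γ ν) Ψ M).trace = M.trace := by
  rw [trace_eq_block_bool, trace_eq_block_bool M, block_qubitTensor_gad_ff,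
    block_qubitTensor_gad_tt]
  simp only [Matrix.trace_add, Matrix.trace_smul, smul_eq_mul, hΨ _]
  push_cast
  ring

/-- `GAD ⊗ Ψ` preserves positive semidefiniteness for completely positive `Ψ`. -/
theorem qubitTensor_gad_posSemidef {γ ν : ℝ} (hγ : γ ∈ Set.Icc (0 : ℝ) 1)
    (hν : ν ∈ Set.Icc (0 : ℝ) 1) {Ψ : Matrix d d ℂ → Matrix e e ℂ}
    (hΨ : IsCompletelyPositive Ψ) {M : Matrix (Bool × d) (Bool × d) ℂ} (hM : M.PosSemidef) :
    (qubitTensor (gadMap γ ν) Ψ M).PosSemidef := by
  rw [qubitTensor_eq_id_blockwise]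
  exact qubitTensor_gad_id_posSemidef hγ hν (blockwise_posSemidef hΨ hM)

/-- `GAD ⊗ Ψ` maps density matrices to density matrices when `Ψ` is a channel. -/
theorem qubitTensor_gad_isDensity {γ ν : ℝ} (hγ : γ ∈ Set.Icc (0 : ℝ) 1)
    (hν : ν ∈ Set.Icc (0 : ℝ) 1) {Ψ : Matrix d d ℂ → Matrix e e ℂ} (hΨ : IsChannel Ψ)
    {M : Matrix (Bool × d) (Bool × d) ℂ} (hM : IsDensity M) :
    IsDensity (qubitTensor (gadMap γ ν) Ψ M) :=
  ⟨qubitTensor_gad_posSemidef hγ hν hΨ.2.1 hM.1, by rw [trace_qubitTensor_gad γ ν hΨ.2.2, hM.2]⟩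

end GadPSD

section Marginals

open Kronecker

variable {d e : Type*} [Fintype d] [Fintype e] [DecidableEq d] [DecidableEq e]

/-- Second marginal (sum of the diagonal blocks) of `GAD ⊗ Ψ`, for additive `Ψ`. -/
theorem sum_block_qubitTensor_gad (γ ν : ℝ) {Ψ : Matrix d d ℂ → Matrix e e ℂ}
    (hΨ : IsLinearMap ℂ Ψ) (M : Matrix (Bool × d) (Bool × d) ℂ) :
    ∑ s, block (qubitTensor (gadMap γ ν) Ψ M) s s = Ψ (∑ s, block M s s) := by
  rw [Fintype.sum_bool, Fintype.sum_bool, hΨ.map_add, block_qubitTensor_gad_ff,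
    block_qubitTensor_gad_tt]
  ext i j
  simp only [Matrix.add_apply, Matrix.smul_apply, smul_eq_mul]
  push_cast
  ring

/-- First marginal (matrix of block traces) of `GAD ⊗ Ψ`, for trace-preserving `Ψ`. -/
theorem of_trace_block_qubitTensor_gad (γ ν : ℝ) {Ψ : Matrix d d ℂ → Matrix e e ℂ}
    (hΨ : IsTracePreserving Ψ) (M : Matrix (Bool × d) (Bool × d) ℂ) :
    (Matrix.of fun s t => (block (qubitTensor (gadMap γ ν) Ψ M) s t).trace : Matrix Bool Bool ℂ)
      = gadMap γ ν (Matrix.of fun s t => (block M s t).trace) := by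
  ext s t
  cases s <;> cases t
  · simp [block_qubitTensor_gad_ff, gadMap, hΨ _, Matrix.trace_add, Matrix.trace_smul]
  · simp [block_qubitTensor_gad_ft, gadMap, hΨ _, Matrix.trace_smul]
  · simp [block_qubitTensor_gad_tf, gadMap, hΨ _, Matrix.trace_smul]
  · simp [block_qubitTensor_gad_tt, gadMap, hΨ _, Matrix.trace_add, Matrix.trace_smul]

theorem block_kronecker (ρ₁ : Matrix Bool Bool ℂ) (ρ₂ : Matrix d d ℂ) (s t : Bool) :
    block (ρ₁ ⊗ₖ ρ₂) s t = ρ₁ s t • ρ₂ := by
  ext i j
  simp [block, Matrix.kroneckerMap_apply]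

/-- `GAD ⊗ Ψ` on a product matrix. -/
theorem qubitTensor_gad_kronecker (γ ν : ℝ) {Ψ : Matrix d d ℂ → Matrix e e ℂ}
    (hΨ : IsLinearMap ℂ Ψ) (ρ₁ : Matrix Bool Bool ℂ) (ρ₂ : Matrix d d ℂ) :
    qubitTensor (gadMap γ ν) Ψ (ρ₁ ⊗ₖ ρ₂) = (gadMap γ ν ρ₁) ⊗ₖ (Ψ ρ₂) := by
  ext ⟨s, i⟩ ⟨t, j⟩
  cases s <;> cases t
  · simp [qubitTensor, qubitCoeff_gad_ff, block_kronecker, hΨ.map_smul, gadMap,
      Matrix.kroneckerMap_apply]
    ring
  · simp [qubitTensor, qubitCoeff_gad_ft, block_kronecker, hΨ.map_smul, gadMap,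
      Matrix.kroneckerMap_apply]
    ring
  · simp [qubitTensor, qubitCoeff_gad_tf, block_kronecker, hΨ.map_smul, gadMap,
      Matrix.kroneckerMap_apply]
    ring
  · simp [qubitTensor, qubitCoeff_gad_tt, block_kronecker, hΨ.map_smul, gadMap,
      Matrix.kroneckerMap_apply]
    ring

/-- The Kronecker product of two density matrices is a density matrix. -/
theorem isDensity_kronecker {k : Type*} [Fintype k] [DecidableEq k] {ρ₁ : Matrix k k ℂ}
    {ρ₂ : Matrix d d ℂ} (h₁ : IsDensity ρ₁) (h₂ : IsDensity ρ₂) : IsDensity (ρ₁ ⊗ₖ ρ₂) :=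
  ⟨h₁.1.kronecker h₂.1, by rw [Matrix.trace_kronecker, h₁.2, h₂.2, mul_one]⟩

end Marginals

section Qubit

variable (γ ν : ℝ)

theorem gadMap_isLinearMap : IsLinearMap ℂ (gadMap γ ν) := by
  constructor
  · intro A B
    ext s t
    cases s <;> cases t <;> simp [gadMap] <;> ring
  · intro c A
    ext s t
    cases s <;> cases t <;> simp [gadMap] <;> ring

theorem trace_gadMap (M : Matrix Bool Bool ℂ) : (gadMap γ ν M).trace = M.trace := by
  simp only [Matrix.trace, Matrix.diag, Fintype.sum_bool, gadMap, Matrix.of_apply]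
  simp
  ring

theorem gadMap_isTracePreserving : IsTracePreserving (gadMap γ ν) := trace_gadMap γ ν

end Qubit

end Crest.Agent.GAD.Plumb
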