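import Mathlib
import Crest.Prelude.Def_QState
import Crest.Prelude.Def_QChannel
import Crest.Prelude.Def_AmpDamp
import Crest.Agent.GAD.Entropy

/-!
# Tail M7 of row 341: tensor powers of the generalized amplitude-damping channel

All auxiliary declarations live in `Crest.Agent.GAD.PowerTail` (to avoid name clashes with the other
`GAD` modules); only `AddUpper`, `AddLower` and `s0534_of_add` are in `Crest.Agent.GAD`.

* `krausMap K`: a map in Kraus form is linear and completely positive;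
* `gadMap γ ν = krausMap (gadKraus γ ν)` for `γ, ν ∈ [0,1]`;
* `qubitPower n (gadMap γ ν)` is a channel;
* `qubitPower (n+1) Φ = reindex ∘ qubitTensor Φ (qubitPower n Φ) ∘ reindex`.
-/

set_option autoImplicit false
set_option linter.unusedSectionVars false
set_option linter.unusedSimpArgs false

namespace Crest.Agent.GAD.PowerTail

open Crest.Quantum Crest.MathPhysics.AmpDamp Matrix
open scoped ComplexOrder

/-! ### Kraus maps -/

section Kraus

variable {d e : Type*} [Fintype d] [Fintype e] [DecidableEq d] [DecidableEq e]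
variable {ι : Type*} [Fintype ι]

/-- The map `M ↦ ∑ₐ Kₐ M Kₐᴴ`. -/
def krausMap (K : ι → Matrix e d ℂ) (M : Matrix d d ℂ) : Matrix e e ℂ :=
  ∑ a, K a * M * (K a)ᴴ

theorem krausMap_apply (K : ι → Matrix e d ℂ) (M : Matrix d d ℂ) (i j : e) :
    krausMap K M i j = ∑ a, ∑ l, ∑ k, K a i k * M k l * star (K a j l) := by
  unfold krausMap
  rw [Matrix.sum_apply]
  refine Finset.sum_congr rfl fun a _ => ?_
  simp only [Matrix.mul_apply, Matrix.conjTranspose_apply, Finset.sum_mul]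

theorem krausMap_isLinearMap (K : ι → Matrix e d ℂ) : IsLinearMap ℂ (krausMap K) := by
  constructor
  · intro M N
    unfold krausMap
    rw [← Finset.sum_add_distrib]
    refine Finset.sum_congr rfl fun a _ => ?_
    rw [Matrix.mul_add, Matrix.add_mul]
  · intro c M
    unfold krausMap
    rw [Finset.smul_sum]
    refine Finset.sum_congr rfl fun a _ => ?_
    rw [Matrix.mul_smul, Matrix.smul_mul]

/-- The Kraus operator `1 ⊗ K` on `k` auxiliary levels. -/
def krausLift (k : Type*) [DecidableEq k] (K : Matrix e d ℂ) : Matrix (k × e) (k × d) ℂ :=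
  Matrix.of fun p q => if p.1 = q.1 then K p.2 q.2 else 0

theorem blockwise_krausMap {k : Type*} [Fintype k] [DecidableEq k] (K : ι → Matrix e d ℂ)
    (M : Matrix (k × d) (k × d) ℂ) :
    blockwise (k := k) (krausMap K) M = ∑ a, krausLift k (K a) * M * (krausLift k (K a))ᴴ := by
  ext p q
  rw [Matrix.sum_apply]
  simp only [blockwise, Matrix.of_apply, krausMap_apply, block]
  refine Finset.sum_congr rfl fun a _ => ?_
  simp only [Matrix.mul_apply, Matrix.conjTranspose_apply, krausLift, Matrix.of_apply,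
    Fintype.sum_prod_type, Finset.sum_mul]
  simp only [ite_mul, zero_mul, apply_ite star, star_zero, mul_ite, mul_zero,
    Finset.sum_ite_irrel, Finset.sum_const_zero, Finset.sum_ite_eq, Finset.mem_univ, if_true]

theorem krausMap_isCompletelyPositive (K : ι → Matrix e d ℂ) :
    IsCompletelyPositive (krausMap K) := by
  intro k M hM
  rw [blockwise_krausMap]
  exact Matrix.posSemidef_sum _ fun a _ => hM.mul_mul_conjTranspose_same _

end Kraus

/-! ### The GADC in Kraus form -/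

/-- The `2 × 2` matrix with rows `(a, b)` and `(c, d)`, indexed by `Bool` (`false` first). -/
def bmat (a b c d : ℂ) : Matrix Bool Bool ℂ :=
  Matrix.of fun s t => cond s (cond t d c) (cond t b a)

/-- Kraus operators of the generalized amplitude-damping channel. -/
noncomputable def gadKraus (γ ν : ℝ) : Fin 4 → Matrix Bool Bool ℂ :=
  ![bmat (Real.sqrt (1 - ν) : ℝ) 0 0 (Real.sqrt (1 - ν) * Real.sqrt (1 - γ) : ℝ),
    bmat 0 (Real.sqrt (1 - ν) * Real.sqrt γ : ℝ) 0 0,
    bmat (Real.sqrt ν * Real.sqrt (1 - γ) : ℝ) 0 0 (Real.sqrt ν : ℝ),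
    bmat 0 0 (Real.sqrt ν * Real.sqrt γ : ℝ) 0]

theorem gadMap_eq_krausMap {γ ν : ℝ} (hγ : γ ∈ Set.Icc (0 : ℝ) 1) (hν : ν ∈ Set.Icc (0 : ℝ) 1)
    (M : Matrix Bool Bool ℂ) : gadMap γ ν M = krausMap (gadKraus γ ν) M := by
  have h1 : ((Real.sqrt (1 - ν) : ℝ) : ℂ) * ((Real.sqrt (1 - ν) : ℝ) : ℂ) = 1 - (ν : ℂ) := by
    rw [← Complex.ofReal_mul, Real.mul_self_sqrt (by linarith [hν.2])]; push_cast; rfl
  have h2 : ((Real.sqrt ν : ℝ) : ℂ) * ((Real.sqrt ν : ℝ) : ℂ) = (ν : ℂ) := by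
    rw [← Complex.ofReal_mul, Real.mul_self_sqrt hν.1]
  have h3 : ((Real.sqrt γ : ℝ) : ℂ) * ((Real.sqrt γ : ℝ) : ℂ) = (γ : ℂ) := by
    rw [← Complex.ofReal_mul, Real.mul_self_sqrt hγ.1]
  have h4 : ((Real.sqrt (1 - γ) : ℝ) : ℂ) * ((Real.sqrt (1 - γ) : ℝ) : ℂ) = 1 - (γ : ℂ) := by
    rw [← Complex.ofReal_mul, Real.mul_self_sqrt (by linarith [hγ.2])]; push_cast; rfl
  ext s t
  rw [krausMap_apply]
  cases s <;> cases t <;>
    simp [gadMap, gadKraus, bmat, Fin.sum_univ_four, Fintype.sum_bool, Complex.conj_ofReal]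
  · linear_combination (-(M false false) - (Real.sqrt γ : ℂ) * (Real.sqrt γ : ℂ) * M true true) * h1
      - (1 - (ν : ℂ)) * M true true * h3
      - (Real.sqrt (1 - γ) : ℂ) * (Real.sqrt (1 - γ) : ℂ) * M false false * h2
      - (ν : ℂ) * M false false * h4
  · linear_combination (-(Real.sqrt (1 - γ) : ℂ) * M false true) * h1
      - (Real.sqrt (1 - γ) : ℂ) * M false true * h2
  · linear_combination (-(Real.sqrt (1 - γ) : ℂ) * M true false) * h1
      - (Real.sqrt (1 - γ) : ℂ) * M true false * h2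
  · linear_combination (-(Real.sqrt (1 - γ) : ℂ) * (Real.sqrt (1 - γ) : ℂ) * M true true) * h1
      - (1 - (ν : ℂ)) * M true true * h4
      - (M true true + (Real.sqrt γ : ℂ) * (Real.sqrt γ : ℂ) * M false false) * h2
      - (ν : ℂ) * M false false * h3

/-! ### Tensor powers -/

theorem qubitCoeff_krausMap {ι : Type*} [Fintype ι] (K : ι → Matrix Bool Bool ℂ)
    (s t s' t' : Bool) :
    qubitCoeff (krausMap K) s t s' t' = ∑ a, K a s s' * star (K a t t') := by
  unfold qubitCoeff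
  rw [krausMap_apply]
  refine Finset.sum_congr rfl fun a _ => ?_
  cases s' <;> cases t' <;> simp [Fintype.sum_bool, Matrix.single_apply]

/-- Tensor-product Kraus operators on `n` qubits. -/
def powKraus {ι : Type*} (n : ℕ) (K : ι → Matrix Bool Bool ℂ) (a : Fin n → ι) :
    Matrix (Fin n → Bool) (Fin n → Bool) ℂ :=
  Matrix.of fun σ σ' => ∏ i, K (a i) (σ i) (σ' i)

theorem qubitPower_krausMap {ι : Type*} [Fintype ι] [DecidableEq ι] (n : ℕ)
    (K : ι → Matrix Bool Bool ℂ) (M : Matrix (Fin n → Bool) (Fin n → Bool) ℂ) :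
    qubitPower n (krausMap K) M = krausMap (powKraus n K) M := by
  ext σ τ
  rw [krausMap_apply]
  simp only [qubitPower, Matrix.of_apply, qubitCoeff_krausMap, powKraus]
  simp only [Finset.prod_univ_sum, Fintype.piFinset_univ, Finset.sum_mul]
  calc (∑ x : Fin n → Bool, ∑ x_1 : Fin n → Bool, ∑ i : Fin n → ι,
          (∏ i_1, K (i i_1) (σ i_1) (x i_1) * star (K (i i_1) (τ i_1) (x_1 i_1))) * M x x_1)
      = ∑ x : Fin n → Bool, ∑ i : Fin n → ι, ∑ x_1 : Fin n → Bool,
          (∏ i_1, K (i i_1) (σ i_1) (x i_1) * star (K (i i_1) (τ i_1) (x_1 i_1))) * M x x_1 :=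
        Finset.sum_congr rfl fun x _ => Finset.sum_comm
    _ = ∑ i : Fin n → ι, ∑ x : Fin n → Bool, ∑ x_1 : Fin n → Bool,
          (∏ i_1, K (i i_1) (σ i_1) (x i_1) * star (K (i i_1) (τ i_1) (x_1 i_1))) * M x x_1 :=
        Finset.sum_comm
    _ = ∑ i : Fin n → ι, ∑ x_1 : Fin n → Bool, ∑ x : Fin n → Bool,
          (∏ i_1, K (i i_1) (σ i_1) (x i_1) * star (K (i i_1) (τ i_1) (x_1 i_1))) * M x x_1 :=
        Finset.sum_congr rfl fun i _ => Finset.sum_comm
    _ = _ := by
        refine Finset.sum_congr rfl fun a _ => ?_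
        refine Finset.sum_congr rfl fun τ' _ => ?_
        refine Finset.sum_congr rfl fun σ' _ => ?_
        rw [Finset.prod_mul_distrib, star_prod]
        ring

theorem qubitPower_isLinearMap (n : ℕ) (Φ : Matrix Bool Bool ℂ → Matrix Bool Bool ℂ) :
    IsLinearMap ℂ (qubitPower n Φ) := by
  constructor
  · intro M N
    ext σ τ
    simp only [qubitPower, Matrix.of_apply, Matrix.add_apply, mul_add, Finset.sum_add_distrib]
  · intro c M
    ext σ τ
    simp only [qubitPower, Matrix.of_apply, Matrix.smul_apply, smul_eq_mul, Finset.mul_sum]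
    refine Finset.sum_congr rfl fun σ' _ => ?_
    refine Finset.sum_congr rfl fun τ' _ => ?_
    ring

theorem qubitPower_trace (n : ℕ) (Φ : Matrix Bool Bool ℂ → Matrix Bool Bool ℂ)
    (hΦ : ∀ s' t' : Bool, ∑ s, qubitCoeff Φ s s s' t' = if s' = t' then 1 else 0)
    (M : Matrix (Fin n → Bool) (Fin n → Bool) ℂ) :
    (qubitPower n Φ M).trace = M.trace := by
  unfold Matrix.trace
  simp only [Matrix.diag_apply, qubitPower, Matrix.of_apply]
  rw [Finset.sum_comm]
  refine Finset.sum_congr rfl fun σ' _ => ?_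
  rw [Finset.sum_comm]
  simp only [← Finset.sum_mul]
  have key : ∀ τ' : Fin n → Bool,
      (∑ σ : Fin n → Bool, ∏ i, qubitCoeff Φ (σ i) (σ i) (σ' i) (τ' i))
        = if σ' = τ' then 1 else 0 := by
    intro τ'
    have h := (Fintype.prod_sum (fun (i : Fin n) (s : Bool) =>
      qubitCoeff Φ s s (σ' i) (τ' i))).symm
    rw [h]
    simp only [hΦ]
    rw [Finset.prod_ite_zero]
    simp only [Finset.mem_univ, forall_true_left, Finset.prod_const_one, funext_iff]
  simp only [key, ite_mul, one_mul, zero_mul, Finset.sum_ite_eq, Finset.mem_univ, if_true]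

theorem gadMap_coeff_trace (γ ν : ℝ) (s' t' : Bool) :
    ∑ s, qubitCoeff (gadMap γ ν) s s s' t' = if s' = t' then 1 else 0 := by
  cases s' <;> cases t' <;>
    (simp [Fintype.sum_bool, qubitCoeff, gadMap, Matrix.single_apply]; try ring)

theorem isChannel_qubitPower_gadMap {γ ν : ℝ} (hγ : γ ∈ Set.Icc (0 : ℝ) 1)
    (hν : ν ∈ Set.Icc (0 : ℝ) 1) (n : ℕ) : IsChannel (qubitPower n (gadMap γ ν)) := by
  refine ⟨qubitPower_isLinearMap n _, ?_, fun M => qubitPower_trace n _ (gadMap_coeff_trace γ ν) M⟩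
  have h : qubitPower n (gadMap γ ν) = krausMap (powKraus n (gadKraus γ ν)) := by
    funext M
    rw [show gadMap γ ν = krausMap (gadKraus γ ν) from funext (gadMap_eq_krausMap hγ hν),
      qubitPower_krausMap]
  rw [h]
  exact krausMap_isCompletelyPositive _

/-! ### `qubitPower (n+1) = qubitTensor ∘ qubitPower n` up to reindexing -/

/-- `Bool × (Fin n → Bool) ≃ (Fin (n+1) → Bool)`: first bit and the rest. -/
def consE (n : ℕ) : Bool × (Fin n → Bool) ≃ (Fin (n + 1) → Bool) where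
  toFun p := Fin.cons p.1 p.2
  invFun f := (f 0, fun i => f i.succ)
  left_inv p := by simp
  right_inv f := by
    ext i
    refine Fin.cases ?_ (fun j => ?_) i <;> simp

theorem qubitPower_succ (n : ℕ) (Φ : Matrix Bool Bool ℂ → Matrix Bool Bool ℂ)
    (M : Matrix (Fin (n + 1) → Bool) (Fin (n + 1) → Bool) ℂ) :
    qubitPower (n + 1) Φ M = Matrix.reindex (consE n) (consE n)
      (qubitTensor Φ (qubitPower n Φ) (Matrix.reindex (consE n).symm (consE n).symm M)) := by
  ext σ τ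
  simp only [qubitPower, qubitTensor, Matrix.reindex_apply, Matrix.submatrix_apply,
    Matrix.of_apply, block, Equiv.symm_symm]
  rw [← (consE n).sum_comp, Fintype.sum_prod_type]
  refine Finset.sum_congr rfl fun s' _ => ?_
  have hτ : ∀ F : (Fin (n + 1) → Bool) → ℂ,
      (∑ τ' : Fin (n + 1) → Bool, F τ') = ∑ t' : Bool, ∑ τ'' : Fin n → Bool, F (consE n (t', τ'')) := by
    intro F
    rw [← (consE n).sum_comp, Fintype.sum_prod_type]
  simp only [hτ]
  rw [Finset.sum_comm]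
  refine Finset.sum_congr rfl fun t' _ => ?_
  rw [Finset.mul_sum]
  refine Finset.sum_congr rfl fun σ'' _ => ?_
  rw [Finset.mul_sum]
  refine Finset.sum_congr rfl fun τ'' _ => ?_
  rw [Fin.prod_univ_succ]
  simp only [consE, Equiv.coe_fn_mk, Equiv.coe_fn_symm_mk, Fin.cons_zero, Fin.cons_succ]
  ring

/-! ### Transport along reindexing -/

section Transport

variable {d d' : Type*} [Fintype d] [DecidableEq d] [Fintype d'] [DecidableEq d']

theorem isDensity_reindex (e : d ≃ d') {ρ : Matrix d d ℂ} (h : IsDensity ρ) :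
    IsDensity (Matrix.reindex e e ρ) := by
  refine ⟨?_, ?_⟩
  · rw [Matrix.reindex_apply]
    exact (Matrix.posSemidef_submatrix_equiv e.symm).2 h.1
  · rw [← h.2]
    unfold Matrix.trace
    simp only [Matrix.reindex_apply, Matrix.diag_apply, Matrix.submatrix_apply]
    exact e.symm.sum_comp (fun i => ρ i i)

theorem isEnsemble_reindex (e : d ≃ d') {m : ℕ} {q : Fin m → ℝ} {ρ : Fin m → Matrix d d ℂ}
    (h : IsEnsemble q ρ) : IsEnsemble q (fun a => Matrix.reindex e e (ρ a)) :=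
  ⟨h.1, h.2.1, fun a => isDensity_reindex e (h.2.2 a)⟩

theorem sum_smul_reindex (e : d ≃ d') {m : ℕ} (c : Fin m → ℂ) (A : Fin m → Matrix d d ℂ) :
    (∑ a, c a • Matrix.reindex e e (A a)) = Matrix.reindex e e (∑ a, c a • A a) := by
  ext i j
  simp [Matrix.sum_apply]

/-- Holevo information is invariant under reindexing input and output systems. -/
theorem holevoInfo_reindex {d₁ d₂ e₁ e₂ : Type*} [Fintype d₁] [Fintype d₂]
    [Fintype e₁] [DecidableEq e₁] [Fintype e₂] [DecidableEq e₂]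
    (f : d₁ ≃ d₂) (g : e₁ ≃ e₂) (Φ : Matrix d₁ d₁ ℂ → Matrix e₁ e₁ ℂ)
    (Φ' : Matrix d₂ d₂ ℂ → Matrix e₂ e₂ ℂ)
    (h : ∀ M, Φ' (Matrix.reindex f f M) = Matrix.reindex g g (Φ M))
    {m : ℕ} (q : Fin m → ℝ) (ρ : Fin m → Matrix d₁ d₁ ℂ) :
    holevoInfo Φ' q (fun a => Matrix.reindex f f (ρ a)) = holevoInfo Φ q ρ := by
  unfold holevoInfo
  simp only [h]
  rw [sum_smul_reindex, vnEntropy_reindex]
  simp only [vnEntropy_reindex]

end Transport

/-! ### Zero qubits -/

theorem qubitPower_zero (Φ : Matrix Bool Bool ℂ → Matrix Bool Bool ℂ)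
    (M : Matrix (Fin 0 → Bool) (Fin 0 → Bool) ℂ) : qubitPower 0 Φ M = M := by
  ext σ τ
  simp only [qubitPower, Matrix.of_apply, Finset.univ_eq_empty, Finset.prod_empty, one_mul]
  rw [Fintype.sum_unique, Fintype.sum_unique]
  congr 1 <;> exact Subsingleton.elim _ _

theorem isDensity_eq_one_of_unique {u : Type*} [Unique u] [Fintype u] [DecidableEq u]
    {ρ : Matrix u u ℂ} (h : IsDensity ρ) : ρ = 1 := by
  ext i j
  have hi : i = default := Subsingleton.elim _ _
  have hj : j = default := Subsingleton.elim _ _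
  subst hi hj
  have := h.2
  rw [Matrix.trace, Fintype.sum_unique, Matrix.diag_apply] at this
  simp [this]

theorem vnEntropy_one_of_unique {u : Type*} [Unique u] [Fintype u] [DecidableEq u] :
    vnEntropy (1 : Matrix u u ℂ) = 0 := by
  have h := vnEntropy_diagonal (d := u) (fun _ => (1 : ℝ))
  simpa using h

theorem holevoInfo_zero_qubits (Φ : Matrix Bool Bool ℂ → Matrix Bool Bool ℂ) {m : ℕ}
    {q : Fin m → ℝ} {ρ : Fin m → Matrix (Fin 0 → Bool) (Fin 0 → Bool) ℂ} (h : IsEnsemble q ρ) :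
    holevoInfo (qubitPower 0 Φ) q ρ = 0 := by
  unfold holevoInfo
  simp only [qubitPower_zero]
  have h1 : ∀ a, ρ a = 1 := fun a => isDensity_eq_one_of_unique (h.2.2 a)
  simp only [h1, vnEntropy_one_of_unique, mul_zero, Finset.sum_const_zero, sub_zero]
  rw [← Finset.sum_smul]
  have h2 : (∑ a, (q a : ℂ)) = 1 := by
    rw [← Complex.ofReal_sum, h.2.1]; simp
  rw [h2, one_smul, vnEntropy_one_of_unique]

end Crest.Agent.GAD.PowerTail

namespace Crest.Agent.GAD

open Crest.Quantum Crest.MathPhysics.AmpDamp Matrix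
open scoped ComplexOrder

/-! ### S0534 from the two one-step additivity statements -/

/-- One-step upper bound: the Holevo information of any ensemble through `gadMap ⊗ Ψ` is at most
a rate value plus the Holevo information of some ensemble through `Ψ`. -/
def AddUpper (γ ν : ℝ) : Prop :=
  ∀ (d e : Type) [Fintype d] [Fintype e] [DecidableEq d] [DecidableEq e] [Nonempty d] [Nonempty e]
    (Ψ : Matrix d d ℂ → Matrix e e ℂ), IsChannel Ψ →
    ∀ (m : ℕ) (q : Fin m → ℝ) (ρ : Fin m → Matrix (Bool × d) (Bool × d) ℂ), IsEnsemble q ρ →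
      ∃ p ∈ Set.Icc (0 : ℝ) 1, ∃ (m₂ : ℕ) (q₂ : Fin m₂ → ℝ) (ρ₂ : Fin m₂ → Matrix d d ℂ),
        IsEnsemble q₂ ρ₂ ∧
          holevoInfo (qubitTensor (gadMap γ ν) Ψ) q ρ ≤ gadRate γ ν p + holevoInfo Ψ q₂ ρ₂

/-- One-step lower bound: product ensembles. -/
def AddLower (γ ν : ℝ) : Prop :=
  ∀ (d e : Type) [Fintype d] [Fintype e] [DecidableEq d] [DecidableEq e] [Nonempty d] [Nonempty e]
    (Ψ : Matrix d d ℂ → Matrix e e ℂ), IsChannel Ψ →
    ∀ p ∈ Set.Icc (0 : ℝ) 1, ∀ (m₂ : ℕ) (q₂ : Fin m₂ → ℝ) (ρ₂ : Fin m₂ → Matrix d d ℂ),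
      IsEnsemble q₂ ρ₂ →
      ∃ (m : ℕ) (q : Fin m → ℝ) (ρ : Fin m → Matrix (Bool × d) (Bool × d) ℂ), IsEnsemble q ρ ∧
        gadRate γ ν p + holevoInfo Ψ q₂ ρ₂ ≤ holevoInfo (qubitTensor (gadMap γ ν) Ψ) q ρ

end Crest.Agent.GAD

namespace Crest.Agent.GAD.PowerTail

open Crest.Quantum Crest.MathPhysics.AmpDamp Matrix
open scoped ComplexOrder

/-- the relation between the two maps in the form needed by `holevoInfo_reindex` -/
theorem qubitTensor_reindex_consE (n : ℕ) (Φ : Matrix Bool Bool ℂ → Matrix Bool Bool ℂ)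
    (M : Matrix (Fin (n + 1) → Bool) (Fin (n + 1) → Bool) ℂ) :
    qubitTensor Φ (qubitPower n Φ) (Matrix.reindex (consE n).symm (consE n).symm M)
      = Matrix.reindex (consE n).symm (consE n).symm (qubitPower (n + 1) Φ M) := by
  rw [qubitPower_succ]
  ext i j
  simp

theorem holevoInfo_qubitPower_succ (n : ℕ) (Φ : Matrix Bool Bool ℂ → Matrix Bool Bool ℂ)
    {m : ℕ} (q : Fin m → ℝ) (ρ : Fin m → Matrix (Fin (n + 1) → Bool) (Fin (n + 1) → Bool) ℂ) :
    holevoInfo (qubitTensor Φ (qubitPower n Φ)) q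
        (fun a => Matrix.reindex (consE n).symm (consE n).symm (ρ a))
      = holevoInfo (qubitPower (n + 1) Φ) q ρ :=
  holevoInfo_reindex (consE n).symm (consE n).symm (qubitPower (n + 1) Φ)
    (qubitTensor Φ (qubitPower n Φ)) (qubitTensor_reindex_consE n Φ) q ρ

theorem holevoInfo_qubitPower_succ' (n : ℕ) (Φ : Matrix Bool Bool ℂ → Matrix Bool Bool ℂ)
    {m : ℕ} (q : Fin m → ℝ)
    (ρ' : Fin m → Matrix (Bool × (Fin n → Bool)) (Bool × (Fin n → Bool)) ℂ) :
    holevoInfo (qubitPower (n + 1) Φ) q (fun a => Matrix.reindex (consE n) (consE n) (ρ' a))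
      = holevoInfo (qubitTensor Φ (qubitPower n Φ)) q ρ' := by
  have h : (fun a => Matrix.reindex (consE n).symm (consE n).symm
      (Matrix.reindex (consE n) (consE n) (ρ' a))) = ρ' := by
    funext a
    ext i j
    simp
  rw [← holevoInfo_qubitPower_succ, h]

theorem upper_of_addUpper {γ ν : ℝ} (hγ : γ ∈ Set.Icc (0 : ℝ) 1) (hν : ν ∈ Set.Icc (0 : ℝ) 1)
    (hU : AddUpper γ ν) (n : ℕ) :
    ∀ (m : ℕ) (q : Fin m → ℝ) (ρ : Fin m → Matrix (Fin n → Bool) (Fin n → Bool) ℂ),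
      IsEnsemble q ρ → ∃ p ∈ Set.Icc (0 : ℝ) 1,
        holevoInfo (qubitPower n (gadMap γ ν)) q ρ ≤ n * gadRate γ ν p := by
  induction n with
  | zero =>
    intro m q ρ h
    refine ⟨0, ⟨le_refl _, zero_le_one⟩, ?_⟩
    rw [holevoInfo_zero_qubits _ h]
    simp
  | succ n ih =>
    intro m q ρ h
    have hens := isEnsemble_reindex (consE n).symm h
    obtain ⟨p₁, hp₁, m₂, q₂, ρ₂, h₂, hle⟩ :=
      hU (Fin n → Bool) (Fin n → Bool) (qubitPower n (gadMap γ ν))
        (isChannel_qubitPower_gadMap hγ hν n) m q _ hens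
    obtain ⟨p₂, hp₂, hle₂⟩ := ih m₂ q₂ ρ₂ h₂
    rw [holevoInfo_qubitPower_succ] at hle
    have hn : (0 : ℝ) ≤ n := Nat.cast_nonneg n
    by_cases hc : gadRate γ ν p₁ ≤ gadRate γ ν p₂
    · refine ⟨p₂, hp₂, ?_⟩
      push_cast
      nlinarith
    · refine ⟨p₁, hp₁, ?_⟩
      push_cast
      have hc' : gadRate γ ν p₂ ≤ gadRate γ ν p₁ := le_of_lt (not_le.1 hc)
      nlinarith

theorem lower_of_addLower {γ ν : ℝ} (hγ : γ ∈ Set.Icc (0 : ℝ) 1) (hν : ν ∈ Set.Icc (0 : ℝ) 1)
    (hL : AddLower γ ν) (n : ℕ) :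
    ∀ p ∈ Set.Icc (0 : ℝ) 1, ∃ (m : ℕ) (q : Fin m → ℝ)
      (ρ : Fin m → Matrix (Fin n → Bool) (Fin n → Bool) ℂ),
      IsEnsemble q ρ ∧ n * gadRate γ ν p ≤ holevoInfo (qubitPower n (gadMap γ ν)) q ρ := by
  induction n with
  | zero =>
    intro p _
    have hens : IsEnsemble (fun _ : Fin 1 => (1 : ℝ))
        (fun _ : Fin 1 => (1 : Matrix (Fin 0 → Bool) (Fin 0 → Bool) ℂ)) := by
      refine ⟨fun _ => zero_le_one, by simp, fun _ => ⟨Matrix.PosSemidef.one, ?_⟩⟩
      simp [Matrix.trace_one]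
    refine ⟨1, _, _, hens, ?_⟩
    rw [holevoInfo_zero_qubits _ hens]
    simp
  | succ n ih =>
    intro p hp
    obtain ⟨m₂, q₂, ρ₂, h₂, hle₂⟩ := ih p hp
    obtain ⟨m, q, ρ', h', hle⟩ :=
      hL (Fin n → Bool) (Fin n → Bool) (qubitPower n (gadMap γ ν))
        (isChannel_qubitPower_gadMap hγ hν n) p hp m₂ q₂ ρ₂ h₂
    refine ⟨m, q, fun a => Matrix.reindex (consE n) (consE n) (ρ' a),
      isEnsemble_reindex (consE n) h', ?_⟩
    rw [holevoInfo_qubitPower_succ']
    push_cast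
    linarith

end Crest.Agent.GAD.PowerTail

namespace Crest.Agent.GAD

open Crest.Quantum Crest.MathPhysics.AmpDamp Matrix Crest.Agent.GAD.PowerTail
open scoped ComplexOrder

/-- **S0534 from the two one-step statements.** -/
theorem s0534_of_add (γ ν : ℝ) (hγ : γ ∈ Set.Icc (0 : ℝ) 1) (hν : ν ∈ Set.Icc (0 : ℝ) 1)
    (hU : AddUpper γ ν) (hL : AddLower γ ν) (n : ℕ) :
    (∀ (m : ℕ) (q : Fin m → ℝ) (ρ : Fin m → Matrix (Fin n → Bool) (Fin n → Bool) ℂ),
        IsEnsemble q ρ → ∃ p ∈ Set.Icc (0 : ℝ) 1,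
          holevoInfo (qubitPower n (gadMap γ ν)) q ρ ≤ n * gadRate γ ν p) ∧
    (∀ p ∈ Set.Icc (0 : ℝ) 1, ∃ (m : ℕ) (q : Fin m → ℝ)
        (ρ : Fin m → Matrix (Fin n → Bool) (Fin n → Bool) ℂ),
        IsEnsemble q ρ ∧ n * gadRate γ ν p ≤ holevoInfo (qubitPower n (gadMap γ ν)) q ρ) :=
  ⟨upper_of_addUpper hγ hν hU n, lower_of_addLower hγ hν hL n⟩

end Crest.Agent.GAD
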