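import Mathlib
import Crest.Prelude.Def_QState
import Crest.Prelude.Def_QChannel
import Crest.Prelude.Def_AmpDamp
import Crest.Agent.GAD.Entropy

/-!
# Tail M6b: product states and product ensembles (`S0535` clauses (2) and (4))

Product matrices on `Bool × d` are written as Kronecker products `r₁ ⊗ₖ r₂`
(entry `((s, i), (t, j)) ↦ r₁ s t * r₂ i j`), which is the layout of `Crest.Quantum.block` /
`Crest.Quantum.qubitTensor`.
-/

set_option autoImplicit false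

namespace Crest.Agent.GAD.Product

open Crest.Quantum Matrix
open Crest.Agent.GAD
open Crest.MathPhysics.AmpDamp
open scoped ComplexOrder Kronecker

section product

variable {d e : Type*} [Fintype d] [Fintype e] [DecidableEq d] [DecidableEq e]

omit [Fintype d] [DecidableEq d] in
/-- the blocks of a product matrix -/
theorem block_kronecker (r1 : Matrix Bool Bool ℂ) (r2 : Matrix d d ℂ) (s t : Bool) :
    block (r1 ⊗ₖ r2) s t = r1 s t • r2 := by
  ext i j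
  simp [block, Matrix.kroneckerMap_apply]

/-- a linear qubit map is determined by its transfer coefficients -/
theorem apply_eq_sum_qubitCoeff {Φ : Matrix Bool Bool ℂ → Matrix Bool Bool ℂ}
    (hΦ : IsLinearMap ℂ Φ) (r : Matrix Bool Bool ℂ) (s t : Bool) :
    Φ r s t = ∑ s' : Bool, ∑ t' : Bool, qubitCoeff Φ s t s' t' * r s' t' := by
  have h : r = ∑ s' : Bool, ∑ t' : Bool, r s' t' • Matrix.single s' t' (1 : ℂ) := by
    ext a b
    cases a <;> cases b <;> simp [Matrix.single, Matrix.sum_apply]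
  have hsum : ∀ (f : Bool → Matrix Bool Bool ℂ), Φ (∑ x, f x) = ∑ x, Φ (f x) := by
    intro f
    exact map_sum (hΦ.mk' Φ) f Finset.univ
  conv_lhs => rw [h]
  rw [hsum, Matrix.sum_apply]
  refine Finset.sum_congr rfl fun s' _ => ?_
  rw [hsum, Matrix.sum_apply]
  refine Finset.sum_congr rfl fun t' _ => ?_
  rw [hΦ.map_smul, Matrix.smul_apply, smul_eq_mul, mul_comm]
  rfl

omit [Fintype d] [Fintype e] [DecidableEq d] [DecidableEq e] in
/-- the tensor product of two linear maps acts factorwise on product matrices -/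
theorem qubitTensor_kronecker {Φ : Matrix Bool Bool ℂ → Matrix Bool Bool ℂ}
    {Ψ : Matrix d d ℂ → Matrix e e ℂ} (hΦ : IsLinearMap ℂ Φ) (hΨ : IsLinearMap ℂ Ψ)
    (r1 : Matrix Bool Bool ℂ) (r2 : Matrix d d ℂ) :
    qubitTensor Φ Ψ (r1 ⊗ₖ r2) = Φ r1 ⊗ₖ Ψ r2 := by
  ext ⟨s, i⟩ ⟨t, j⟩
  simp only [qubitTensor, Matrix.of_apply, block_kronecker, hΨ.map_smul, Matrix.smul_apply,
    smul_eq_mul, Matrix.kroneckerMap_apply]
  rw [apply_eq_sum_qubitCoeff hΦ, Finset.sum_mul]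
  refine Finset.sum_congr rfl fun s' _ => ?_
  rw [Finset.sum_mul]
  refine Finset.sum_congr rfl fun t' _ => ?_
  ring

omit [DecidableEq d] in
/-- a product of density matrices is a density matrix -/
theorem isDensity_kronecker {r1 : Matrix Bool Bool ℂ} {r2 : Matrix d d ℂ}
    (h1 : IsDensity r1) (h2 : IsDensity r2) : IsDensity (r1 ⊗ₖ r2) := by
  refine ⟨h1.1.kronecker h2.1, ?_⟩
  rw [Matrix.trace_kronecker, h1.2, h2.2, mul_one]

/-- entropy of a product of two Hermitian matrices of trace one -/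
theorem vnEntropy_kronecker_of_trace_one {A : Matrix Bool Bool ℂ} {B : Matrix e e ℂ}
    (hA : A.IsHermitian) (hB : B.IsHermitian) (hAt : A.trace = 1) (hBt : B.trace = 1) :
    vnEntropy (A ⊗ₖ B) = vnEntropy A + vnEntropy B := by
  rw [vnEntropy_kronecker hA hB, hAt, hBt]
  simp

omit [DecidableEq d] [DecidableEq e] in
/-- a channel sends density matrices to density matrices -/
theorem isDensity_apply_of_isChannel {Ψ : Matrix d d ℂ → Matrix e e ℂ} (hΨ : IsChannel Ψ)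
    {r : Matrix d d ℂ} (hr : IsDensity r) : IsDensity (Ψ r) := by
  obtain ⟨-, hcp, htp⟩ := hΨ
  refine ⟨?_, by rw [htp r, hr.2]⟩
  have hM : (r.submatrix (Prod.snd : Fin 1 × d → d) Prod.snd).PosSemidef := hr.1.submatrix _
  have h1 := hcp 1 _ hM
  have h2 : block (r.submatrix (Prod.snd : Fin 1 × d → d) Prod.snd) 0 0 = r := by
    ext i j
    simp [block]
  have h3 : Ψ r = (blockwise (k := Fin 1) Ψ (r.submatrix (Prod.snd : Fin 1 × d → d) Prod.snd)).submatrix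
      (fun i : e => ((0 : Fin 1), i)) (fun i : e => ((0 : Fin 1), i)) := by
    ext i j
    simp only [blockwise, Matrix.submatrix_apply, Matrix.of_apply, h2]
  rw [h3]
  exact h1.submatrix _

/-- sums over `Fin (m₁ * m₂)` as double sums -/
theorem sum_finProd {α : Type*} [AddCommMonoid α] {m₁ m₂ : ℕ} (f : Fin m₁ → Fin m₂ → α) :
    ∑ c : Fin (m₁ * m₂), f (finProdFinEquiv.symm c).1 (finProdFinEquiv.symm c).2
      = ∑ a, ∑ b, f a b := by
  rw [Equiv.sum_comp finProdFinEquiv.symm (fun p : Fin m₁ × Fin m₂ => f p.1 p.2),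
    Fintype.sum_prod_type]

omit [DecidableEq d] in
/-- **Product ensembles** (general form of `S0535` clause (2), with equality): for linear maps
`Φ` (one qubit) and `Ψ` whose outputs on density matrices are Hermitian of trace one, the product
ensemble of two ensembles has Holevo information the sum of the two Holevo informations. -/
theorem holevoInfo_prod {Φ : Matrix Bool Bool ℂ → Matrix Bool Bool ℂ}
    {Ψ : Matrix d d ℂ → Matrix e e ℂ} (hΦ : IsLinearMap ℂ Φ) (hΨ : IsLinearMap ℂ Ψ)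
    (hΦd : ∀ r, IsDensity r → (Φ r).IsHermitian ∧ (Φ r).trace = 1)
    (hΨd : ∀ r, IsDensity r → (Ψ r).IsHermitian ∧ (Ψ r).trace = 1)
    {m₁ m₂ : ℕ} {q₁ : Fin m₁ → ℝ} {ρ₁ : Fin m₁ → Matrix Bool Bool ℂ}
    {q₂ : Fin m₂ → ℝ} {ρ₂ : Fin m₂ → Matrix d d ℂ}
    (h₁ : IsEnsemble q₁ ρ₁) (h₂ : IsEnsemble q₂ ρ₂) :
    IsEnsemble
        (fun c : Fin (m₁ * m₂) => q₁ (finProdFinEquiv.symm c).1 * q₂ (finProdFinEquiv.symm c).2)
        (fun c : Fin (m₁ * m₂) => ρ₁ (finProdFinEquiv.symm c).1 ⊗ₖ ρ₂ (finProdFinEquiv.symm c).2) ∧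
      holevoInfo (qubitTensor Φ Ψ)
        (fun c : Fin (m₁ * m₂) => q₁ (finProdFinEquiv.symm c).1 * q₂ (finProdFinEquiv.symm c).2)
        (fun c : Fin (m₁ * m₂) => ρ₁ (finProdFinEquiv.symm c).1 ⊗ₖ ρ₂ (finProdFinEquiv.symm c).2)
        = holevoInfo Φ q₁ ρ₁ + holevoInfo Ψ q₂ ρ₂ := by
  obtain ⟨hq₁, hs₁, hd₁⟩ := h₁
  obtain ⟨hq₂, hs₂, hd₂⟩ := h₂
  refine ⟨⟨fun c => mul_nonneg (hq₁ _) (hq₂ _), ?_, fun c => isDensity_kronecker (hd₁ _) (hd₂ _)⟩, ?_⟩
  · rw [sum_finProd (fun a b => q₁ a * q₂ b)]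
    simp_rw [← Finset.mul_sum, hs₂, mul_one, hs₁]
  · -- the average output is a product
    set A : Matrix Bool Bool ℂ := ∑ a, (q₁ a : ℂ) • Φ (ρ₁ a) with hA
    set B : Matrix e e ℂ := ∑ b, (q₂ b : ℂ) • Ψ (ρ₂ b) with hB
    have hAH : A.IsHermitian := by
      rw [hA]
      unfold Matrix.IsHermitian
      rw [Matrix.conjTranspose_sum]
      refine Finset.sum_congr rfl fun a _ => ?_
      rw [Matrix.conjTranspose_smul, (hΦd _ (hd₁ a)).1.eq]
      simp
    have hBH : B.IsHermitian := by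
      rw [hB]
      unfold Matrix.IsHermitian
      rw [Matrix.conjTranspose_sum]
      refine Finset.sum_congr rfl fun b _ => ?_
      rw [Matrix.conjTranspose_smul, (hΨd _ (hd₂ b)).1.eq]
      simp
    have hAt : A.trace = 1 := by
      rw [hA, Matrix.trace_sum]
      simp_rw [Matrix.trace_smul, (hΦd _ (hd₁ _)).2, smul_eq_mul, mul_one]
      rw [← Complex.ofReal_sum, hs₁]
      simp
    have hBt : B.trace = 1 := by
      rw [hB, Matrix.trace_sum]
      simp_rw [Matrix.trace_smul, (hΨd _ (hd₂ _)).2, smul_eq_mul, mul_one]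
      rw [← Complex.ofReal_sum, hs₂]
      simp
    have havg : ∑ c : Fin (m₁ * m₂),
        ((q₁ (finProdFinEquiv.symm c).1 * q₂ (finProdFinEquiv.symm c).2 : ℝ) : ℂ) •
          qubitTensor Φ Ψ (ρ₁ (finProdFinEquiv.symm c).1 ⊗ₖ ρ₂ (finProdFinEquiv.symm c).2)
        = A ⊗ₖ B := by
      rw [sum_finProd (fun a b => ((q₁ a * q₂ b : ℝ) : ℂ) • qubitTensor Φ Ψ (ρ₁ a ⊗ₖ ρ₂ b))]
      ext ⟨s, i⟩ ⟨t, j⟩
      simp only [qubitTensor_kronecker hΦ hΨ, hA, hB, Matrix.sum_apply, Matrix.smul_apply,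
        Matrix.kroneckerMap_apply, smul_eq_mul, Finset.sum_mul_sum, Complex.ofReal_mul]
      refine Finset.sum_congr rfl fun a _ => Finset.sum_congr rfl fun b _ => ?_
      ring
    have hsnd : ∑ c : Fin (m₁ * m₂),
        (q₁ (finProdFinEquiv.symm c).1 * q₂ (finProdFinEquiv.symm c).2) *
          vnEntropy (qubitTensor Φ Ψ
            (ρ₁ (finProdFinEquiv.symm c).1 ⊗ₖ ρ₂ (finProdFinEquiv.symm c).2))
        = ∑ a, q₁ a * vnEntropy (Φ (ρ₁ a)) + ∑ b, q₂ b * vnEntropy (Ψ (ρ₂ b)) := by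
      rw [sum_finProd (fun a b => (q₁ a * q₂ b) * vnEntropy (qubitTensor Φ Ψ (ρ₁ a ⊗ₖ ρ₂ b)))]
      have : ∀ a b, (q₁ a * q₂ b) * vnEntropy (qubitTensor Φ Ψ (ρ₁ a ⊗ₖ ρ₂ b))
          = q₂ b * (q₁ a * vnEntropy (Φ (ρ₁ a))) + q₁ a * (q₂ b * vnEntropy (Ψ (ρ₂ b))) := by
        intro a b
        rw [qubitTensor_kronecker hΦ hΨ, vnEntropy_kronecker_of_trace_one (hΦd _ (hd₁ a)).1
          (hΨd _ (hd₂ b)).1 (hΦd _ (hd₁ a)).2 (hΨd _ (hd₂ b)).2]
        ring
      simp_rw [this, Finset.sum_add_distrib, ← Finset.mul_sum]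
      simp_rw [← Finset.sum_mul, hs₂, hs₁, one_mul]
    unfold holevoInfo
    rw [havg, hsnd, vnEntropy_kronecker_of_trace_one hAH hBH hAt hBt]
    ring

end product

section gad

/-- `gadMap γ ν` is complex-linear -/
theorem gadMap_isLinearMap (γ ν : ℝ) : IsLinearMap ℂ (gadMap γ ν) := by
  constructor
  · intro M N
    ext s t
    cases s <;> cases t <;> simp [gadMap] <;> ring
  · intro c M
    ext s t
    cases s <;> cases t <;> simp [gadMap] <;> ring

/-- `gadMap γ ν` preserves the trace -/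
theorem gadMap_trace (γ ν : ℝ) (M : Matrix Bool Bool ℂ) : (gadMap γ ν M).trace = M.trace := by
  simp only [Matrix.trace, Matrix.diag_apply, Fintype.sum_bool, gadMap, Matrix.of_apply]
  simp
  ring

/-- `gadMap γ ν` preserves hermiticity -/
theorem gadMap_isHermitian (γ ν : ℝ) {M : Matrix Bool Bool ℂ} (hM : M.IsHermitian) :
    (gadMap γ ν M).IsHermitian := by
  ext s t
  have h00 := hM.apply false false
  have h11 := hM.apply true true
  have h01 := hM.apply false true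
  have h10 := hM.apply true false
  cases s <;> cases t <;> simp [gadMap, Matrix.conjTranspose_apply, h00, h11, h01, h10]

/-- what the product theorems need from `gadMap γ ν` (no restriction on `γ`, `ν`) -/
theorem gadMap_density (γ ν : ℝ) (r : Matrix Bool Bool ℂ) (hr : IsDensity r) :
    (gadMap γ ν r).IsHermitian ∧ (gadMap γ ν r).trace = 1 :=
  ⟨gadMap_isHermitian γ ν hr.1.1, by rw [gadMap_trace, hr.2]⟩

end gad

section clauses

variable {d e : Type*} [Fintype d] [Fintype e] [DecidableEq d] [DecidableEq e]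

omit [DecidableEq d] [DecidableEq e] in
/-- what the product theorems need from a channel `Ψ` -/
theorem channel_density {Ψ : Matrix d d ℂ → Matrix e e ℂ} (hΨ : IsChannel Ψ)
    (r : Matrix d d ℂ) (hr : IsDensity r) : (Ψ r).IsHermitian ∧ (Ψ r).trace = 1 :=
  ⟨(isDensity_apply_of_isChannel hΨ hr).1.1, (isDensity_apply_of_isChannel hΨ hr).2⟩

omit [DecidableEq d] in
/-- **`S0535`, clause (2)** (exact text; no restriction on `γ`, `ν` is needed): the product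
ensemble has Holevo information at least (in fact exactly) the sum. -/
theorem clause2 (γ ν : ℝ) (Ψ : Matrix d d ℂ → Matrix e e ℂ) (hΨ : IsChannel Ψ) :
    ∀ (m₁ : ℕ) (q₁ : Fin m₁ → ℝ) (ρ₁ : Fin m₁ → Matrix Bool Bool ℂ)
      (m₂ : ℕ) (q₂ : Fin m₂ → ℝ) (ρ₂ : Fin m₂ → Matrix d d ℂ), IsEnsemble q₁ ρ₁ → IsEnsemble q₂ ρ₂ →
      ∃ (m : ℕ) (q : Fin m → ℝ) (ρ : Fin m → Matrix (Bool × d) (Bool × d) ℂ), IsEnsemble q ρ ∧
        holevoInfo (gadMap γ ν) q₁ ρ₁ + holevoInfo Ψ q₂ ρ₂ ≤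
          holevoInfo (qubitTensor (gadMap γ ν) Ψ) q ρ := by
  intro m₁ q₁ ρ₁ m₂ q₂ ρ₂ h₁ h₂
  obtain ⟨hens, hchi⟩ := holevoInfo_prod (gadMap_isLinearMap γ ν) hΨ.1 (gadMap_density γ ν)
    (channel_density hΨ) h₁ h₂
  exact ⟨m₁ * m₂, _, _, hens, hchi.ge⟩

omit [DecidableEq d] in
/-- **`S0535`, clause (4)** (exact text; no restriction on `γ`, `ν` is needed): the product state
has output entropy at most (in fact exactly) the sum. -/
theorem clause4 (γ ν : ℝ) (Ψ : Matrix d d ℂ → Matrix e e ℂ) (hΨ : IsChannel Ψ) :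
    ∀ (ρ₁ : Matrix Bool Bool ℂ) (ρ₂ : Matrix d d ℂ), IsDensity ρ₁ → IsDensity ρ₂ →
      ∃ ρ : Matrix (Bool × d) (Bool × d) ℂ, IsDensity ρ ∧
        vnEntropy (qubitTensor (gadMap γ ν) Ψ ρ) ≤ vnEntropy (gadMap γ ν ρ₁) + vnEntropy (Ψ ρ₂) := by
  intro ρ₁ ρ₂ h₁ h₂
  refine ⟨ρ₁ ⊗ₖ ρ₂, isDensity_kronecker h₁ h₂, ?_⟩
  rw [qubitTensor_kronecker (gadMap_isLinearMap γ ν) hΨ.1,
    vnEntropy_kronecker_of_trace_one (gadMap_density γ ν ρ₁ h₁).1 (channel_density hΨ ρ₂ h₂).1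
      (gadMap_density γ ν ρ₁ h₁).2 (channel_density hΨ ρ₂ h₂).2]

omit [DecidableEq d] in
/-- **`AddLower`** in the shape of helper96 (#1616), from the single-qubit fact `(B2)`/`hQ2`
(the two-state ensemble reaching `gadRate γ ν p`; helper12's `gad_single_lower`). -/
theorem addLower_of (γ ν : ℝ)
    (hQ2 : ∀ p ∈ Set.Icc (0 : ℝ) 1, ∃ (m : ℕ) (q : Fin m → ℝ) (ρ : Fin m → Matrix Bool Bool ℂ),
      IsEnsemble q ρ ∧ gadRate γ ν p ≤ holevoInfo (gadMap γ ν) q ρ)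
    (Ψ : Matrix d d ℂ → Matrix e e ℂ) (hΨ : IsChannel Ψ) :
    ∀ p ∈ Set.Icc (0 : ℝ) 1, ∀ (m₂ : ℕ) (q₂ : Fin m₂ → ℝ) (ρ₂ : Fin m₂ → Matrix d d ℂ),
      IsEnsemble q₂ ρ₂ →
      ∃ (m : ℕ) (q : Fin m → ℝ) (ρ : Fin m → Matrix (Bool × d) (Bool × d) ℂ), IsEnsemble q ρ ∧
        gadRate γ ν p + holevoInfo Ψ q₂ ρ₂ ≤ holevoInfo (qubitTensor (gadMap γ ν) Ψ) q ρ := by
  intro p hp m₂ q₂ ρ₂ h₂
  obtain ⟨m₁, q₁, ρ₁, h₁, hle⟩ := hQ2 p hp
  obtain ⟨m, q, ρ, hens, hchi⟩ := clause2 γ ν Ψ hΨ m₁ q₁ ρ₁ m₂ q₂ ρ₂ h₁ h₂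
  exact ⟨m, q, ρ, hens, by linarith⟩

end clauses

end Crest.Agent.GAD.Product
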