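import Mathlib
import Crest.Agent.GAD.Lprime

/-!
# Row 341 (GADC), tail module M5: scalar calculus

* `qEnt D` : the entropy (nats) of a trace-one `2 × 2` PSD matrix of determinant `D`;
* `fOut γ ν z` (defined in `Crest.Agent.GAD.Lprime`) : the second term of `gadRate`, the output
  entropy of the generalized amplitude-damping channel on a pure qubit state with excited
  population `z`;
* `fOut_convexOn` (Lemma FC) : `fOut γ ν` is convex on `[0, 1]` for `γ, ν ∈ [0, 1]`;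
* `fOut_jensen` : the finite Jensen inequality for `fOut`.

Imports Mathlib and `Crest.Agent.GAD.Lprime` (for the definition of `fOut`) only.
-/

set_option autoImplicit false

namespace Crest.Agent.GAD

open Real Set

/-- The entropy (nats) of a trace-one `2 × 2` PSD matrix of determinant `D`. -/
noncomputable def qEnt (D : ℝ) : ℝ := Real.binEntropy ((1 + Real.sqrt (1 - 4 * D)) / 2)

theorem fOut_eq_qEnt (γ ν z : ℝ) :
    fOut γ ν z = qEnt (γ * ν * (1 - ν) + γ * (1 - γ) * (z - ν) ^ 2) := rfl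

/-! ### `artanh`-type bounds for `log (1 + s) - log (1 - s)` -/

theorem two_mul_le_log_sub_log {s : ℝ} (hs0 : 0 ≤ s) (hs1 : s < 1) :
    2 * s ≤ Real.log (1 + s) - Real.log (1 - s) := by
  have h := Real.hasSum_log_sub_log_of_abs_lt_one (x := s) (by rw [abs_of_nonneg hs0]; exact hs1)
  have := le_hasSum h 0 (fun j _ => by positivity)
  simpa using this

theorem log_sub_log_le {s : ℝ} (hs0 : 0 ≤ s) (hs1 : s < 1) :
    Real.log (1 + s) - Real.log (1 - s) ≤ 2 * s / (1 - s ^ 2) := by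
  have h := Real.hasSum_log_sub_log_of_abs_lt_one (x := s) (by rw [abs_of_nonneg hs0]; exact hs1)
  have hs2 : s ^ 2 < 1 := by nlinarith
  have hg : HasSum (fun k : ℕ => (s ^ 2) ^ k) (1 - s ^ 2)⁻¹ :=
    hasSum_geometric_of_lt_one (sq_nonneg s) hs2
  have hg2 : HasSum (fun k : ℕ => 2 * s * (s ^ 2) ^ k) (2 * s * (1 - s ^ 2)⁻¹) := hg.mul_left (2 * s)
  have hle := hasSum_le (fun k => ?_) h hg2
  · simpa [div_eq_mul_inv] using hle
  · have h1 : (1 : ℝ) / (2 * k + 1) ≤ 1 := by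
      rw [div_le_one (by positivity)]
      have : (0 : ℝ) ≤ k := Nat.cast_nonneg k
      linarith
    have h2 : s ^ (2 * k + 1) = s * (s ^ 2) ^ k := by rw [pow_succ, pow_mul]; ring
    rw [h2]
    have h3 : 0 ≤ s * (s ^ 2) ^ k := by positivity
    nlinarith

/-! ### The function `t ↦ h((1 + √t)/2)` and its first two derivatives on `(0, 1)` -/

/-- `kfun t = h((1 + √t)/2)`. -/
noncomputable def kfun (t : ℝ) : ℝ := Real.binEntropy ((1 + Real.sqrt t) / 2)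

/-- `Lfun t = 2 artanh √t`. -/
noncomputable def Lfun (t : ℝ) : ℝ := Real.log (1 + Real.sqrt t) - Real.log (1 - Real.sqrt t)

/-- first derivative of `kfun` on `(0, 1)`. -/
noncomputable def K1 (t : ℝ) : ℝ := - Lfun t / (4 * Real.sqrt t)

/-- second derivative of `kfun` on `(0, 1)`. -/
noncomputable def K2 (t : ℝ) : ℝ := - 1 / (4 * t * (1 - t)) + Lfun t / (8 * t * Real.sqrt t)

theorem qEnt_eq_kfun (D : ℝ) : qEnt D = kfun (1 - 4 * D) := rfl

theorem sqrt_mem_Ioo {t : ℝ} (h0 : 0 < t) (h1 : t < 1) : 0 < Real.sqrt t ∧ Real.sqrt t < 1 := by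
  refine ⟨Real.sqrt_pos.2 h0, ?_⟩
  rw [Real.sqrt_lt' one_pos]
  simpa using h1

theorem hasDerivAt_kfun {t : ℝ} (h0 : 0 < t) (h1 : t < 1) : HasDerivAt kfun (K1 t) t := by
  obtain ⟨hs0, hs1⟩ := sqrt_mem_Ioo h0 h1
  have hsq : HasDerivAt Real.sqrt (1 / (2 * √t)) t := Real.hasDerivAt_sqrt h0.ne'
  have hp : HasDerivAt (fun t => (1 + √t) / 2) ((1 / (2 * √t)) / 2) t :=
    (hsq.const_add 1).div_const 2
  have hb : HasDerivAt Real.binEntropy
      (Real.log (1 - (1 + √t) / 2) - Real.log ((1 + √t) / 2)) ((1 + √t) / 2) :=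
    Real.hasDerivAt_binEntropy (by positivity) (by linarith)
  have hc := hb.comp t hp
  have e : K1 t = (Real.log (1 - (1 + √t) / 2) - Real.log ((1 + √t) / 2)) * ((1 / (2 * √t)) / 2) := by
    unfold K1 Lfun
    have e1 : 1 - (1 + √t) / 2 = (1 - √t) / 2 := by ring
    rw [e1, Real.log_div (by linarith) two_ne_zero, Real.log_div (by positivity) two_ne_zero]
    field_simp
    ring
  rw [e]
  exact hc

theorem hasDerivAt_Lfun {t : ℝ} (h0 : 0 < t) (h1 : t < 1) :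
    HasDerivAt Lfun (1 / (Real.sqrt t * (1 - t))) t := by
  obtain ⟨hs0, hs1⟩ := sqrt_mem_Ioo h0 h1
  have hsq : HasDerivAt Real.sqrt (1 / (2 * √t)) t := Real.hasDerivAt_sqrt h0.ne'
  have a := (hsq.const_add 1).log (by positivity)
  have b := (hsq.const_sub 1).log (by linarith)
  have hc := a.sub b
  have hts : t = √t ^ 2 := (Real.sq_sqrt h0.le).symm
  have e : 1 / (√t * (1 - t)) = 1 / (2 * √t) / (1 + √t) - -(1 / (2 * √t)) / (1 - √t) := by
    have h1t : 1 - t = (1 - √t) * (1 + √t) := by rw [hts]; simp; ring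
    have : (1 - √t) ≠ 0 := by linarith
    have : (1 + √t) ≠ 0 := by positivity
    rw [h1t]
    field_simp
    ring
  rw [e]
  exact hc

theorem hasDerivAt_K1 {t : ℝ} (h0 : 0 < t) (h1 : t < 1) : HasDerivAt K1 (K2 t) t := by
  obtain ⟨hs0, hs1⟩ := sqrt_mem_Ioo h0 h1
  have hsq : HasDerivAt Real.sqrt (1 / (2 * √t)) t := Real.hasDerivAt_sqrt h0.ne'
  have hL := hasDerivAt_Lfun h0 h1
  have hden : HasDerivAt (fun t => 4 * √t) (4 * (1 / (2 * √t))) t := hsq.const_mul 4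
  have hc := (hL.neg).div hden (by positivity)
  have hts : √t ^ 2 = t := Real.sq_sqrt h0.le
  have e : K2 t = (-(1 / (√t * (1 - t))) * (4 * √t) - -Lfun t * (4 * (1 / (2 * √t)))) / (4 * √t) ^ 2 := by
    unfold K2
    have h1t : (1 - t) ≠ 0 := by linarith
    have hne : √t ≠ 0 := hs0.ne'
    have ht : t ≠ 0 := h0.ne'
    rw [mul_pow, hts]
    field_simp
    nlinarith [hts]
  rw [e]
  exact hc

/-! ### The polynomial `T z = 1 - 4 v(z)` -/

/-- `Tfun γ ν z = 1 - 4 (γ ν (1 - ν) + γ (1 - γ) (z - ν)²)`: the squared Bloch length of the GADC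
output on a pure state with excited population `z`. -/
noncomputable def Tfun (γ ν z : ℝ) : ℝ :=
  1 - 4 * (γ * ν * (1 - ν) + γ * (1 - γ) * (z - ν) ^ 2)

theorem fOut_eq_kfun (γ ν z : ℝ) : fOut γ ν z = kfun (Tfun γ ν z) := rfl

theorem hasDerivAt_Tfun (γ ν z : ℝ) :
    HasDerivAt (Tfun γ ν) (-(8 * (γ * (1 - γ)) * (z - ν))) z := by
  have h1 : HasDerivAt (fun z : ℝ => z - ν) 1 z := (hasDerivAt_id z).sub_const ν
  have h2 : HasDerivAt (fun z : ℝ => (z - ν) * (z - ν)) (1 * (z - ν) + (z - ν) * 1) z :=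
    h1.mul h1
  have h3 := ((h2.const_mul (γ * (1 - γ))).const_add (γ * ν * (1 - ν))).const_mul 4
  have h4 := h3.const_sub 1
  have e : Tfun γ ν
      = fun z => 1 - 4 * (γ * ν * (1 - ν) + γ * (1 - γ) * ((z - ν) * (z - ν))) := by
    funext z; unfold Tfun; ring
  rw [e]
  exact h4.congr_deriv (by ring)

/-- The determinant identity behind `fOut`: with `b = γ ν + (1 - γ) z` the output population,
`b (1 - b) - (1 - γ) z (1 - z) = γ ν (1 - ν) + γ (1 - γ) (z - ν)²`. -/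
theorem gad_det_identity (γ ν z : ℝ) :
    (γ * ν + (1 - γ) * z) * (1 - (γ * ν + (1 - γ) * z)) - (1 - γ) * (z * (1 - z))
      = γ * ν * (1 - ν) + γ * (1 - γ) * (z - ν) ^ 2 := by ring

theorem Tfun_identity (γ ν z : ℝ) :
    Tfun γ ν z = (1 - 2 * (γ * ν + (1 - γ) * z)) ^ 2 + 4 * ((1 - γ) * (z * (1 - z))) := by
  unfold Tfun; ring

theorem Tfun_nonneg {γ ν z : ℝ} (hγ1 : γ ≤ 1) (hz0 : 0 ≤ z) (hz1 : z ≤ 1) : 0 ≤ Tfun γ ν z := by
  rw [Tfun_identity]
  have h1 : 0 ≤ (1 - γ) * (z * (1 - z)) :=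
    mul_nonneg (by linarith) (mul_nonneg hz0 (by linarith))
  nlinarith [sq_nonneg (1 - 2 * (γ * ν + (1 - γ) * z))]

theorem Tfun_le_one {γ ν z : ℝ} (hγ0 : 0 ≤ γ) (hγ1 : γ ≤ 1) (hν0 : 0 ≤ ν) (hν1 : ν ≤ 1) :
    Tfun γ ν z ≤ 1 := by
  unfold Tfun
  have h1 : 0 ≤ γ * ν * (1 - ν) := mul_nonneg (mul_nonneg hγ0 hν0) (by linarith)
  have h2 : 0 ≤ γ * (1 - γ) * (z - ν) ^ 2 :=
    mul_nonneg (mul_nonneg hγ0 (by linarith)) (sq_nonneg _)
  linarith

theorem Tfun_pos {γ ν z : ℝ} (hγ1 : γ < 1) (hz0 : 0 < z) (hz1 : z < 1) : 0 < Tfun γ ν z := by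
  rw [Tfun_identity]
  have h1 : 0 < (1 - γ) * (z * (1 - z)) :=
    mul_pos (by linarith) (mul_pos hz0 (by linarith))
  nlinarith [sq_nonneg (1 - 2 * (γ * ν + (1 - γ) * z))]

theorem Tfun_lt_one {γ ν z : ℝ} (hγ0 : 0 < γ) (hγ1 : γ < 1) (hν0 : 0 ≤ ν) (hν1 : ν ≤ 1)
    (hz0 : 0 < z) (hz1 : z < 1) : Tfun γ ν z < 1 := by
  unfold Tfun
  have hc : 0 < γ * (1 - γ) := mul_pos hγ0 (by linarith)
  rcases eq_or_ne z ν with h | h
  · subst h
    have h1 : 0 < γ * z * (1 - z) := mul_pos (mul_pos hγ0 hz0) (by linarith)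
    have h2 : 0 ≤ γ * (1 - γ) * (z - z) ^ 2 := by simp
    linarith
  · have h1 : 0 < (z - ν) ^ 2 := by
      have : z - ν ≠ 0 := sub_ne_zero.2 h
      positivity
    have h2 : 0 ≤ γ * ν * (1 - ν) := mul_nonneg (mul_nonneg hγ0.le hν0) (by linarith)
    have h3 : 0 < γ * (1 - γ) * (z - ν) ^ 2 := mul_pos hc h1
    linarith

/-! ### Signs of the derivatives -/

theorem K2_nonpos {t : ℝ} (h0 : 0 < t) (h1 : t < 1) : K2 t ≤ 0 := by
  obtain ⟨hs0, hs1⟩ := sqrt_mem_Ioo h0 h1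
  have hts : √t ^ 2 = t := Real.sq_sqrt h0.le
  have hL : Lfun t ≤ 2 * √t / (1 - t) := by
    have := log_sub_log_le hs0.le hs1
    rwa [hts] at this
  unfold K2
  have h1t : 0 < 1 - t := by linarith
  have hden : 0 < 8 * t * √t := by positivity
  have h2 : Lfun t / (8 * t * √t) ≤ (2 * √t / (1 - t)) / (8 * t * √t) :=
    div_le_div_of_nonneg_right hL hden.le
  have h3 : (2 * √t / (1 - t)) / (8 * t * √t) = 1 / (4 * t * (1 - t)) := by
    field_simp
    ring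
  rw [h3] at h2
  have h4 : -1 / (4 * t * (1 - t)) = -(1 / (4 * t * (1 - t))) := by ring
  rw [h4]
  linarith

theorem two_mul_K2_sub_K1_nonneg {t : ℝ} (h0 : 0 < t) (h1 : t < 1) :
    0 ≤ 2 * (1 - t) * K2 t - K1 t := by
  obtain ⟨hs0, hs1⟩ := sqrt_mem_Ioo h0 h1
  have hts : √t ^ 2 = t := Real.sq_sqrt h0.le
  have hL : 2 * √t ≤ Lfun t := two_mul_le_log_sub_log hs0.le hs1
  have e : 2 * (1 - t) * K2 t - K1 t = (Lfun t - 2 * √t) / (4 * t * √t) := by
    unfold K2 K1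
    have h1t : (1 - t) ≠ 0 := by linarith
    have hne : √t ≠ 0 := hs0.ne'
    have ht : t ≠ 0 := h0.ne'
    field_simp
    ring
  rw [e]
  have : 0 < 4 * t * √t := by positivity
  exact div_nonneg (by linarith) this.le

/-! ### Lemma FC: `fOut γ ν` is convex on `[0, 1]` -/

theorem fOut_continuous (γ ν : ℝ) : Continuous (fOut γ ν) := by
  unfold fOut
  exact Real.binEntropy_continuous.comp (by fun_prop)

/-- **Lemma FC.** For `γ, ν ∈ [0, 1]` the output entropy `z ↦ fOut γ ν z` of the GADC on pure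
states of excited population `z` is convex on `[0, 1]`. -/
theorem fOut_convexOn {γ ν : ℝ} (hγ : γ ∈ Set.Icc (0 : ℝ) 1) (hν : ν ∈ Set.Icc (0 : ℝ) 1) :
    ConvexOn ℝ (Set.Icc (0 : ℝ) 1) (fOut γ ν) := by
  obtain ⟨hγ0, hγ1⟩ := hγ
  obtain ⟨hν0, hν1⟩ := hν
  rcases eq_or_lt_of_le hγ0 with h0 | h0
  · subst h0
    have : fOut 0 ν = fun _ => fOut 0 ν 0 := by funext z; simp [fOut]
    rw [this]
    exact convexOn_const _ (convex_Icc 0 1)
  rcases eq_or_lt_of_le hγ1 with h1 | h1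
  · subst h1
    have : fOut 1 ν = fun _ => fOut 1 ν 0 := by funext z; simp [fOut]
    rw [this]
    exact convexOn_const _ (convex_Icc 0 1)
  refine convexOn_of_hasDerivWithinAt2_nonneg (convex_Icc 0 1) (fOut_continuous γ ν).continuousOn
    (f' := fun z => K1 (Tfun γ ν z) * (-(8 * (γ * (1 - γ)) * (z - ν))))
    (f'' := fun z => K2 (Tfun γ ν z) * (-(8 * (γ * (1 - γ)) * (z - ν)))
        * (-(8 * (γ * (1 - γ)) * (z - ν))) + K1 (Tfun γ ν z) * (-(8 * (γ * (1 - γ))))) ?_ ?_ ?_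
  · intro z hz
    rw [interior_Icc] at hz
    have hT0 : 0 < Tfun γ ν z := Tfun_pos h1 hz.1 hz.2
    have hT1 : Tfun γ ν z < 1 := Tfun_lt_one h0 h1 hν0 hν1 hz.1 hz.2
    exact ((hasDerivAt_kfun hT0 hT1).comp z (hasDerivAt_Tfun γ ν z)).hasDerivWithinAt
  · intro z hz
    rw [interior_Icc] at hz
    have hT0 : 0 < Tfun γ ν z := Tfun_pos h1 hz.1 hz.2
    have hT1 : Tfun γ ν z < 1 := Tfun_lt_one h0 h1 hν0 hν1 hz.1 hz.2
    have hK : HasDerivAt (fun z => K1 (Tfun γ ν z))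
        (K2 (Tfun γ ν z) * (-(8 * (γ * (1 - γ)) * (z - ν)))) z :=
      (hasDerivAt_K1 hT0 hT1).comp z (hasDerivAt_Tfun γ ν z)
    have hlin : HasDerivAt (fun z : ℝ => -(8 * (γ * (1 - γ)) * (z - ν)))
        (-(8 * (γ * (1 - γ)))) z := by
      have h1 : HasDerivAt (fun z : ℝ => z - ν) 1 z := (hasDerivAt_id z).sub_const ν
      have h := h1.const_mul (-(8 * (γ * (1 - γ))))
      have e : (fun z : ℝ => -(8 * (γ * (1 - γ)) * (z - ν)))
          = fun y => -(8 * (γ * (1 - γ))) * (y - ν) := by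
        funext y; ring
      rw [e]
      exact h.congr_deriv (by ring)
    exact (hK.mul hlin).hasDerivWithinAt
  · intro z hz
    rw [interior_Icc] at hz
    have hT0 : 0 < Tfun γ ν z := Tfun_pos h1 hz.1 hz.2
    have hT1 : Tfun γ ν z < 1 := Tfun_lt_one h0 h1 hν0 hν1 hz.1 hz.2
    have hK2 := K2_nonpos hT0 hT1
    have hB := two_mul_K2_sub_K1_nonneg hT0 hT1
    have ht : Tfun γ ν z = 1 - 4 * (γ * ν * (1 - ν)) - 4 * (γ * (1 - γ)) * (z - ν) ^ 2 := by
      unfold Tfun; ring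
    generalize K1 (Tfun γ ν z) = k1 at hB ⊢
    generalize K2 (Tfun γ ν z) = k2 at hB hK2 ⊢
    rw [ht] at hB
    have hc : 0 ≤ γ * (1 - γ) := mul_nonneg h0.le (by linarith)
    have hD : 0 ≤ γ * ν * (1 - ν) := mul_nonneg (mul_nonneg h0.le hν0) (by linarith)
    have e : k2 * (-(8 * (γ * (1 - γ)) * (z - ν))) * (-(8 * (γ * (1 - γ)) * (z - ν)))
          + k1 * (-(8 * (γ * (1 - γ))))
        = 8 * (γ * (1 - γ)) * (2 * (1 - (1 - 4 * (γ * ν * (1 - ν))
              - 4 * (γ * (1 - γ)) * (z - ν) ^ 2)) * k2 - k1)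
          + 16 * (γ * (1 - γ)) * (4 * (γ * ν * (1 - ν))) * (-k2) := by ring
    rw [e]
    have t1 := mul_nonneg (mul_nonneg (by norm_num : (0 : ℝ) ≤ 8) hc) hB
    have t2 : 0 ≤ 16 * (γ * (1 - γ)) * (4 * (γ * ν * (1 - ν))) * (-k2) :=
      mul_nonneg (mul_nonneg (mul_nonneg (by norm_num) hc) (mul_nonneg (by norm_num) hD))
        (by linarith)
    linarith

/-- Finite Jensen inequality for `fOut`. -/
theorem fOut_jensen {γ ν : ℝ} (hγ : γ ∈ Set.Icc (0 : ℝ) 1) (hν : ν ∈ Set.Icc (0 : ℝ) 1)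
    {ι : Type*} (t : Finset ι) (q z : ι → ℝ) (hq : ∀ a ∈ t, 0 ≤ q a) (h1 : ∑ a ∈ t, q a = 1)
    (hz : ∀ a ∈ t, z a ∈ Set.Icc (0 : ℝ) 1) :
    fOut γ ν (∑ a ∈ t, q a * z a) ≤ ∑ a ∈ t, q a * fOut γ ν (z a) := by
  have := (fOut_convexOn hγ hν).map_sum_le hq h1 hz
  simpa [smul_eq_mul] using this

/-! ### Monotonicity of `qEnt` and its value on diagonal states -/

theorem qEnt_mul_one_sub {b : ℝ} : qEnt (b * (1 - b)) = Real.binEntropy b := by
  unfold qEnt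
  have h : 1 - 4 * (b * (1 - b)) = (1 - 2 * b) ^ 2 := by ring
  rw [h, Real.sqrt_sq_eq_abs]
  rcases le_total 0 (1 - 2 * b) with h' | h'
  · rw [abs_of_nonneg h']
    have : (1 + (1 - 2 * b)) / 2 = 1 - b := by ring
    rw [this, Real.binEntropy_one_sub]
  · rw [abs_of_nonpos h']
    have : (1 + -(1 - 2 * b)) / 2 = b := by ring
    rw [this]

/-- `qEnt` is nondecreasing on `(-∞, 1/4]` (in particular on `[0, 1/4]`). -/
theorem qEnt_le_qEnt {D D' : ℝ} (h : D ≤ D') (h0 : 0 ≤ D) : qEnt D ≤ qEnt D' := by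
  unfold qEnt
  have hs : √(1 - 4 * D') ≤ √(1 - 4 * D) := Real.sqrt_le_sqrt (by linarith)
  have hs0 : 0 ≤ √(1 - 4 * D') := Real.sqrt_nonneg _
  have hs1 : √(1 - 4 * D) ≤ 1 := by
    rw [Real.sqrt_le_one]; linarith
  apply Real.binEntropy_strictAntiOn.antitoneOn
  · constructor <;> linarith
  · constructor <;> linarith
  · linarith

end Crest.Agent.GAD
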