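import Mathlib
import Crest.Prelude.Def_QState
import Crest.Prelude.Def_QChannel
import Crest.Prelude.Def_AmpDamp
import Crest.Agent.GAD.Entropy
import Crest.Agent.GAD.Scalar

/-!
# Single-qubit facts for the generalized amplitude-damping map

* `gad_single_upper` : every qubit ensemble has Holevo information `≤ gadRate γ ν p` at
  `p` = its mean excited population (needs the convexity of the pure-output entropy, passed in
  as a hypothesis `hFC`);
* `gad_single_lower` : the two-state ensemble `ψ_{p,±}` reaches `gadRate γ ν p`.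
-/

set_option autoImplicit false

namespace Crest.Agent.GAD

open Crest.Quantum Crest.MathPhysics.AmpDamp Matrix
open scoped ComplexOrder

/-- entropy of a trace-one `2 × 2` PSD matrix of determinant `D`. -/
noncomputable def q1Ent (D : ℝ) : ℝ := Real.binEntropy ((1 + Real.sqrt (1 - 4 * D)) / 2)

/-- determinant of the GADC output on a pure state with excited population `z`. -/
def q1V (γ ν z : ℝ) : ℝ := γ * ν * (1 - ν) + γ * (1 - γ) * (z - ν) ^ 2

theorem q1Ent_mono {D D' : ℝ} (h0 : 0 ≤ D) (hDD' : D ≤ D') :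
    q1Ent D ≤ q1Ent D' := by
  unfold q1Ent
  have hs' : 0 ≤ Real.sqrt (1 - 4 * D') := Real.sqrt_nonneg _
  have hss : Real.sqrt (1 - 4 * D') ≤ Real.sqrt (1 - 4 * D) :=
    Real.sqrt_le_sqrt (by linarith)
  have hs1 : Real.sqrt (1 - 4 * D) ≤ 1 := by
    calc Real.sqrt (1 - 4 * D) ≤ Real.sqrt 1 := Real.sqrt_le_sqrt (by linarith)
      _ = 1 := Real.sqrt_one
  apply Real.binEntropy_strictAntiOn.antitoneOn
  · constructor <;> norm_num <;> linarith
  · constructor <;> norm_num <;> linarith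
  · linarith

theorem q1Ent_mul_one_sub (b : ℝ) : q1Ent (b * (1 - b)) = Real.binEntropy b := by
  unfold q1Ent
  have hsq : 1 - 4 * (b * (1 - b)) = (1 - 2 * b) ^ 2 := by ring
  rw [hsq, Real.sqrt_sq_eq_abs]
  rcases le_total (0 : ℝ) (1 - 2 * b) with h | h
  · rw [abs_of_nonneg h]
    have : (1 + (1 - 2 * b)) / 2 = 1 - b := by ring
    rw [this, Real.binEntropy_one_sub]
  · rw [abs_of_nonpos h]
    have : (1 + -(1 - 2 * b)) / 2 = b := by ring
    rw [this]

theorem q1_det_bool (A : Matrix Bool Bool ℂ) :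
    A.det = A false false * A true true - A false true * A true false := by
  have h := Matrix.det_submatrix_equiv_self finTwoEquiv A
  rw [← h, Matrix.det_fin_two]
  simp [finTwoEquiv]

/-- Facts about a qubit density matrix. -/
theorem q1_qubit_density_facts {ρ : Matrix Bool Bool ℂ} (hρ : IsDensity ρ) :
    ρ true true = (((ρ true true).re : ℝ) : ℂ) ∧
    ρ false false = (((1 - (ρ true true).re : ℝ)) : ℂ) ∧
    ρ true false = star (ρ false true) ∧
    0 ≤ (ρ true true).re ∧ (ρ true true).re ≤ 1 ∧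
    Complex.normSq (ρ false true) ≤ (ρ true true).re * (1 - (ρ true true).re) := by
  obtain ⟨hpsd, htr⟩ := hρ
  have hH := hpsd.1
  have h11 : 0 ≤ ρ true true := hpsd.diag_nonneg
  have h00 : 0 ≤ ρ false false := hpsd.diag_nonneg
  have h11' := Complex.nonneg_iff.1 h11
  have h00' := Complex.nonneg_iff.1 h00
  have htr' : ρ false false + ρ true true = 1 := by
    rw [Matrix.trace, Fintype.sum_bool] at htr
    simpa [add_comm] using htr
  have e11 : ρ true true = (((ρ true true).re : ℝ) : ℂ) := by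
    apply Complex.ext <;> simp [h11'.2.symm]
  have e00 : ρ false false = (((1 - (ρ true true).re : ℝ)) : ℂ) := by
    have : ρ false false = 1 - ρ true true := by rw [← htr']; ring
    rw [this]
    apply Complex.ext <;> simp [h11'.2.symm]
  have e10 : ρ true false = star (ρ false true) := by
    have := congrFun (congrFun hH true) false
    simpa [Matrix.conjTranspose_apply] using this.symm
  have hdet : 0 ≤ ρ.det := hpsd.det_nonneg
  rw [q1_det_bool, e10] at hdet
  have hdet' := (Complex.nonneg_iff.1 hdet).1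
  have hre00 : (ρ false false).re = 1 - (ρ true true).re := by
    rw [e00]; simp
  have hz1 : (ρ true true).re ≤ 1 := by
    have := h00'.1
    rw [hre00] at this
    linarith
  refine ⟨e11, e00, e10, h11'.1, hz1, ?_⟩
  have hmul : (ρ false true * star (ρ false true)).re = Complex.normSq (ρ false true) := by
    rw [Complex.star_def, Complex.mul_conj]
    simp
  have hprod : (ρ false false * ρ true true).re = (1 - (ρ true true).re) * (ρ true true).re := by
    rw [e00, e11]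
    simp
  rw [Complex.sub_re, hmul, hprod] at hdet'
  linarith

theorem q1_gadMap_apply_ff (γ ν : ℝ) (M : Matrix Bool Bool ℂ) :
    gadMap γ ν M false false
      = ((1 - γ * ν : ℝ) : ℂ) * M false false + ((γ * (1 - ν) : ℝ) : ℂ) * M true true := by
  simp [gadMap]

theorem q1_gadMap_apply_tt (γ ν : ℝ) (M : Matrix Bool Bool ℂ) :
    gadMap γ ν M true true
      = ((γ * ν : ℝ) : ℂ) * M false false + ((1 - γ + γ * ν : ℝ) : ℂ) * M true true := by
  simp [gadMap]

theorem q1_gadMap_apply_ft (γ ν : ℝ) (M : Matrix Bool Bool ℂ) :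
    gadMap γ ν M false true = ((Real.sqrt (1 - γ) : ℝ) : ℂ) * M false true := by
  simp [gadMap]

theorem q1_gadMap_apply_tf (γ ν : ℝ) (M : Matrix Bool Bool ℂ) :
    gadMap γ ν M true false = ((Real.sqrt (1 - γ) : ℝ) : ℂ) * M true false := by
  simp [gadMap]

/-- `gadMap` is additive and homogeneous on finite combinations. -/
theorem q1_gadMap_sum_smul (γ ν : ℝ) {ι : Type*} (t : Finset ι) (c : ι → ℂ)
    (ρ : ι → Matrix Bool Bool ℂ) :
    gadMap γ ν (∑ a ∈ t, c a • ρ a) = ∑ a ∈ t, c a • gadMap γ ν (ρ a) := by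
  ext i j
  rcases i with _ | _ <;> rcases j with _ | _ <;>
    simp only [q1_gadMap_apply_ff, q1_gadMap_apply_tt, q1_gadMap_apply_ft, q1_gadMap_apply_tf,
      Matrix.sum_apply, Matrix.smul_apply, smul_eq_mul, Finset.mul_sum, ← Finset.sum_add_distrib] <;>
    exact Finset.sum_congr rfl fun a _ => by ring

/-- The output of `gadMap` on a qubit density matrix: Hermitian, trace one, explicit determinant. -/
theorem q1_gadMap_density_out {γ ν : ℝ} (hγ : γ ∈ Set.Icc (0 : ℝ) 1) {ρ : Matrix Bool Bool ℂ}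
    (hρ : IsDensity ρ) :
    (gadMap γ ν ρ).IsHermitian ∧ (gadMap γ ν ρ).trace = 1 ∧
    (gadMap γ ν ρ).det.re
      = ((1 - γ) * (ρ true true).re + γ * ν) * (1 - ((1 - γ) * (ρ true true).re + γ * ν))
        - (1 - γ) * Complex.normSq (ρ false true) := by
  obtain ⟨e11, e00, e10, -, -, -⟩ := q1_qubit_density_facts hρ
  set z : ℝ := (ρ true true).re with hz
  have hsq : Real.sqrt (1 - γ) * Real.sqrt (1 - γ) = 1 - γ :=
    Real.mul_self_sqrt (by linarith [hγ.2])
  refine ⟨?_, ?_, ?_⟩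
  · ext i j
    rcases i with _ | _ <;> rcases j with _ | _ <;>
      simp only [Matrix.conjTranspose_apply, q1_gadMap_apply_ff, q1_gadMap_apply_tt, q1_gadMap_apply_ft,
        q1_gadMap_apply_tf]
    · rw [e00, e11]; simp
    · rw [e10]; simp
    · rw [e10]; simp
    · rw [e00, e11]; simp
  · rw [Matrix.trace, Fintype.sum_bool]
    simp only [Matrix.diag_apply, q1_gadMap_apply_ff, q1_gadMap_apply_tt]
    rw [e00, e11]
    push_cast
    ring
  · rw [q1_det_bool, q1_gadMap_apply_ff, q1_gadMap_apply_tt, q1_gadMap_apply_ft, q1_gadMap_apply_tf, e00, e11,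
      e10]
    have h1 : (((1 - γ * ν : ℝ) : ℂ) * ((1 - z : ℝ) : ℂ) + ((γ * (1 - ν) : ℝ) : ℂ) * (z : ℂ))
          * (((γ * ν : ℝ) : ℂ) * ((1 - z : ℝ) : ℂ) + ((1 - γ + γ * ν : ℝ) : ℂ) * (z : ℂ))
        = ((((1 - γ * ν) * (1 - z) + γ * (1 - ν) * z) * (γ * ν * (1 - z) + (1 - γ + γ * ν) * z) : ℝ)
            : ℂ) := by
      push_cast; ring
    have h2 : ((Real.sqrt (1 - γ) : ℝ) : ℂ) * ρ false true
          * (((Real.sqrt (1 - γ) : ℝ) : ℂ) * star (ρ false true))
        = (((1 - γ) * Complex.normSq (ρ false true) : ℝ) : ℂ) := by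
      have : ρ false true * star (ρ false true) = ((Complex.normSq (ρ false true) : ℝ) : ℂ) := by
        rw [Complex.star_def, Complex.mul_conj]
      calc ((Real.sqrt (1 - γ) : ℝ) : ℂ) * ρ false true
            * (((Real.sqrt (1 - γ) : ℝ) : ℂ) * star (ρ false true))
          = ((Real.sqrt (1 - γ) * Real.sqrt (1 - γ) : ℝ) : ℂ)
              * (ρ false true * star (ρ false true)) := by push_cast; ring
        _ = (((1 - γ) * Complex.normSq (ρ false true) : ℝ) : ℂ) := by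
            rw [hsq, this]; push_cast; ring
    rw [h1, h2, ← Complex.ofReal_sub, Complex.ofReal_re]
    ring

/-- Entropy of the `gadMap` output on a qubit density matrix. -/
theorem q1_gadMap_entropy_eq {γ ν : ℝ} (hγ : γ ∈ Set.Icc (0 : ℝ) 1) {ρ : Matrix Bool Bool ℂ}
    (hρ : IsDensity ρ) :
    vnEntropy (gadMap γ ν ρ)
      = q1Ent (((1 - γ) * (ρ true true).re + γ * ν) * (1 - ((1 - γ) * (ρ true true).re + γ * ν))
        - (1 - γ) * Complex.normSq (ρ false true)) := by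
  obtain ⟨hH, htr, hdet⟩ := q1_gadMap_density_out (ν := ν) hγ hρ
  rw [vnEntropy_qubit hH htr, hdet]
  rfl

theorem q1V_eq (γ ν z : ℝ) :
    ((1 - γ) * z + γ * ν) * (1 - ((1 - γ) * z + γ * ν)) - (1 - γ) * (z * (1 - z)) = q1V γ ν z := by
  unfold q1V; ring

theorem q1V_nonneg {γ ν : ℝ} (hγ : γ ∈ Set.Icc (0 : ℝ) 1) (hν : ν ∈ Set.Icc (0 : ℝ) 1) (z : ℝ) :
    0 ≤ q1V γ ν z := by
  unfold q1V
  have h1 : 0 ≤ γ * ν * (1 - ν) :=
    mul_nonneg (mul_nonneg hγ.1 hν.1) (by linarith [hν.2])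
  have h2 : 0 ≤ γ * (1 - γ) * (z - ν) ^ 2 :=
    mul_nonneg (mul_nonneg hγ.1 (by linarith [hγ.2])) (sq_nonneg _)
  linarith

/-- The output entropy is at least the pure-state value at the same excited population. -/
theorem q1_gadMap_entropy_ge {γ ν : ℝ} (hγ : γ ∈ Set.Icc (0 : ℝ) 1) (hν : ν ∈ Set.Icc (0 : ℝ) 1)
    {ρ : Matrix Bool Bool ℂ} (hρ : IsDensity ρ) :
    q1Ent (q1V γ ν (ρ true true).re) ≤ vnEntropy (gadMap γ ν ρ) := by
  obtain ⟨-, -, -, -, -, hns⟩ := q1_qubit_density_facts hρ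
  rw [q1_gadMap_entropy_eq hγ hρ]
  apply q1Ent_mono (q1V_nonneg hγ hν _)
  rw [← q1V_eq]
  have : (1 - γ) * Complex.normSq (ρ false true)
      ≤ (1 - γ) * ((ρ true true).re * (1 - (ρ true true).re)) :=
    mul_le_mul_of_nonneg_left hns (by linarith [hγ.2])
  linarith

/-- The output entropy is at most the binary entropy of the output population. -/
theorem q1_gadMap_entropy_le {γ ν : ℝ} (hγ : γ ∈ Set.Icc (0 : ℝ) 1) (hν : ν ∈ Set.Icc (0 : ℝ) 1)
    {ρ : Matrix Bool Bool ℂ} (hρ : IsDensity ρ) :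
    vnEntropy (gadMap γ ν ρ) ≤ Real.binEntropy ((1 - γ) * (ρ true true).re + γ * ν) := by
  obtain ⟨-, -, -, hz0, hz1, hns⟩ := q1_qubit_density_facts hρ
  rw [q1_gadMap_entropy_eq hγ hρ, ← q1Ent_mul_one_sub]
  apply q1Ent_mono
  · have h1 : (1 - γ) * Complex.normSq (ρ false true)
        ≤ (1 - γ) * ((ρ true true).re * (1 - (ρ true true).re)) :=
      mul_le_mul_of_nonneg_left hns (by linarith [hγ.2])
    have h2 := q1V_nonneg hγ hν (ρ true true).re
    rw [← q1V_eq] at h2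
    linarith
  · have : 0 ≤ (1 - γ) * Complex.normSq (ρ false true) :=
      mul_nonneg (by linarith [hγ.2]) (Complex.normSq_nonneg _)
    linarith

/-- The average state of an ensemble is a density matrix. -/
theorem q1_isDensity_sum_smul {d : Type*} [Fintype d] {m : ℕ} {q : Fin m → ℝ}
    {ρ : Fin m → Matrix d d ℂ} (h : IsEnsemble q ρ) : IsDensity (∑ a, (q a : ℂ) • ρ a) := by
  obtain ⟨hq, hq1, hρ⟩ := h
  refine ⟨Matrix.posSemidef_sum _ fun a _ => ?_, ?_⟩
  · exact (hρ a).1.smul (by exact_mod_cast hq a)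
  · rw [Matrix.trace_sum]
    simp only [Matrix.trace_smul, (hρ _).2, smul_eq_mul, mul_one]
    rw [← Complex.ofReal_sum, hq1, Complex.ofReal_one]

/-- (B1) Single-use upper bound: the Holevo information of a qubit ensemble through `gadMap` is at
most the rate at the mean excited population. The convexity of the pure-output entropy
(Lemma FC) is a hypothesis. -/
theorem gad_single_upper_of_convex (γ ν : ℝ) (hγ : γ ∈ Set.Icc (0 : ℝ) 1) (hν : ν ∈ Set.Icc (0 : ℝ) 1)
    (hFC : ConvexOn ℝ (Set.Icc (0 : ℝ) 1) (fun z => Real.binEntropy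
      ((1 + Real.sqrt (1 - 4 * (γ * ν * (1 - ν) + γ * (1 - γ) * (z - ν) ^ 2))) / 2)))
    (m : ℕ) (q : Fin m → ℝ) (ρ : Fin m → Matrix Bool Bool ℂ) (h : IsEnsemble q ρ) :
    ∃ p ∈ Set.Icc (0 : ℝ) 1, holevoInfo (gadMap γ ν) q ρ ≤ gadRate γ ν p := by
  have hbar := q1_isDensity_sum_smul h
  obtain ⟨hq, hq1, hρ⟩ := h
  set ρbar : Matrix Bool Bool ℂ := ∑ a, (q a : ℂ) • ρ a with hρbar
  have hp : (ρbar true true).re = ∑ a, q a * (ρ a true true).re := by
    rw [hρbar, Matrix.sum_apply, Complex.re_sum]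
    exact Finset.sum_congr rfl fun a _ => by simp
  obtain ⟨-, -, -, hz0, hz1, -⟩ := q1_qubit_density_facts hbar
  refine ⟨(ρbar true true).re, ⟨hz0, hz1⟩, ?_⟩
  unfold holevoInfo
  rw [← q1_gadMap_sum_smul]
  have h1 := q1_gadMap_entropy_le hγ hν hbar
  have h2 : q1Ent (q1V γ ν (ρbar true true).re)
      ≤ ∑ a, q a * vnEntropy (gadMap γ ν (ρ a)) := by
    have hJ := hFC.map_sum_le (t := Finset.univ) (w := q) (p := fun a => (ρ a true true).re)
      (fun a _ => hq a) hq1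
      (fun a _ => by
        obtain ⟨-, -, -, ha0, ha1, -⟩ := q1_qubit_density_facts (hρ a)
        exact ⟨ha0, ha1⟩)
    simp only [smul_eq_mul] at hJ
    rw [hp]
    refine le_trans hJ (Finset.sum_le_sum fun a _ => ?_)
    exact mul_le_mul_of_nonneg_left (q1_gadMap_entropy_ge hγ hν (hρ a)) (hq a)
  have h3 : gadRate γ ν (ρbar true true).re
      = Real.binEntropy ((1 - γ) * (ρbar true true).re + γ * ν)
        - q1Ent (q1V γ ν (ρbar true true).re) := rfl
  rw [h3]
  linarith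

/-- (B1) Single-use upper bound, with Lemma FC (`fOut_convexOn`) plugged in. -/
theorem gad_single_upper (γ ν : ℝ) (hγ : γ ∈ Set.Icc (0 : ℝ) 1) (hν : ν ∈ Set.Icc (0 : ℝ) 1)
    (m : ℕ) (q : Fin m → ℝ) (ρ : Fin m → Matrix Bool Bool ℂ) (h : IsEnsemble q ρ) :
    ∃ p ∈ Set.Icc (0 : ℝ) 1, holevoInfo (gadMap γ ν) q ρ ≤ gadRate γ ν p :=
  gad_single_upper_of_convex γ ν hγ hν (fOut_convexOn hγ hν) m q ρ h

/-- amplitude vector of the pure qubit state with excited population `p` and sign `σ`. -/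
noncomputable def q1Vec (p σ : ℝ) : Bool → ℂ :=
  fun i => if i then ((σ * Real.sqrt p : ℝ) : ℂ) else ((Real.sqrt (1 - p) : ℝ) : ℂ)

/-- the pure qubit state `ψ_{p,σ}`. -/
noncomputable def q1Psi (p σ : ℝ) : Matrix Bool Bool ℂ :=
  Matrix.vecMulVec (q1Vec p σ) (star (q1Vec p σ))

theorem q1Psi_tt (p σ : ℝ) (hp : 0 ≤ p) (hσ : σ * σ = 1) : q1Psi p σ true true = (p : ℂ) := by
  simp only [q1Psi, q1Vec, Matrix.vecMulVec_apply, Pi.star_apply, if_true, Complex.star_def,
    Complex.conj_ofReal]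
  rw [← Complex.ofReal_mul]
  congr 1
  calc σ * Real.sqrt p * (σ * Real.sqrt p) = (σ * σ) * (Real.sqrt p * Real.sqrt p) := by ring
    _ = p := by rw [hσ, Real.mul_self_sqrt hp, one_mul]

theorem q1Psi_ff (p σ : ℝ) (hp : p ≤ 1) : q1Psi p σ false false = ((1 - p : ℝ) : ℂ) := by
  simp only [q1Psi, q1Vec, Matrix.vecMulVec_apply, Pi.star_apply, Complex.star_def,
    Complex.conj_ofReal, Bool.false_eq_true, if_false]
  rw [← Complex.ofReal_mul, Real.mul_self_sqrt (by linarith)]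

theorem q1Psi_ft (p σ : ℝ) :
    q1Psi p σ false true = ((σ * (Real.sqrt (1 - p) * Real.sqrt p) : ℝ) : ℂ) := by
  simp only [q1Psi, q1Vec, Matrix.vecMulVec_apply, Pi.star_apply, Complex.star_def,
    Complex.conj_ofReal, Bool.false_eq_true, if_false, if_true]
  rw [← Complex.ofReal_mul]
  congr 1
  ring

theorem q1Psi_isDensity (p σ : ℝ) (hp : p ∈ Set.Icc (0 : ℝ) 1) (hσ : σ * σ = 1) :
    IsDensity (q1Psi p σ) := by
  refine ⟨Matrix.posSemidef_vecMulVec_self_star _, ?_⟩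
  rw [Matrix.trace, Fintype.sum_bool]
  simp only [Matrix.diag_apply]
  rw [q1Psi_tt p σ hp.1 hσ, q1Psi_ff p σ hp.2]
  push_cast
  ring

theorem q1Psi_entropy (γ ν : ℝ) (hγ : γ ∈ Set.Icc (0 : ℝ) 1) (p σ : ℝ)
    (hp : p ∈ Set.Icc (0 : ℝ) 1) (hσ : σ * σ = 1) :
    vnEntropy (gadMap γ ν (q1Psi p σ)) = q1Ent (q1V γ ν p) := by
  rw [q1_gadMap_entropy_eq hγ (q1Psi_isDensity p σ hp hσ), q1Psi_tt p σ hp.1 hσ, q1Psi_ft,
    Complex.ofReal_re, Complex.normSq_ofReal, ← q1V_eq]
  congr 1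
  have h1 : Real.sqrt (1 - p) * Real.sqrt (1 - p) = 1 - p :=
    Real.mul_self_sqrt (by linarith [hp.2])
  have h2 : Real.sqrt p * Real.sqrt p = p := Real.mul_self_sqrt hp.1
  have : σ * (Real.sqrt (1 - p) * Real.sqrt p) * (σ * (Real.sqrt (1 - p) * Real.sqrt p))
      = p * (1 - p) := by
    calc σ * (Real.sqrt (1 - p) * Real.sqrt p) * (σ * (Real.sqrt (1 - p) * Real.sqrt p))
        = (σ * σ) * (Real.sqrt (1 - p) * Real.sqrt (1 - p)) * (Real.sqrt p * Real.sqrt p) := by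
          ring
      _ = p * (1 - p) := by rw [hσ, h1, h2]; ring
  rw [this]

/-- (B2) The two-state ensemble `{1/2 : ψ_{p,+}, 1/2 : ψ_{p,-}}` reaches the rate at `p`. -/
theorem gad_single_lower (γ ν : ℝ) (hγ : γ ∈ Set.Icc (0 : ℝ) 1) (_hν : ν ∈ Set.Icc (0 : ℝ) 1)
    (p : ℝ) (hp : p ∈ Set.Icc (0 : ℝ) 1) :
    ∃ (m : ℕ) (q : Fin m → ℝ) (ρ : Fin m → Matrix Bool Bool ℂ),
      IsEnsemble q ρ ∧ gadRate γ ν p ≤ holevoInfo (gadMap γ ν) q ρ := by
  let q : Fin 2 → ℝ := fun _ => 1 / 2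
  let ρ : Fin 2 → Matrix Bool Bool ℂ := ![q1Psi p 1, q1Psi p (-1)]
  have hρ0 : ρ 0 = q1Psi p 1 := rfl
  have hρ1 : ρ 1 = q1Psi p (-1) := rfl
  have hq0 : q 0 = 1 / 2 := rfl
  have hσ1 : (1 : ℝ) * 1 = 1 := by norm_num
  have hσ2 : (-1 : ℝ) * (-1) = 1 := by norm_num
  have hens : IsEnsemble q ρ := by
    refine ⟨fun a => by norm_num [q], ?_, ?_⟩
    · rw [Fin.sum_univ_two, hq0]; norm_num
    · refine Fin.forall_fin_two.2 ⟨?_, ?_⟩
      · rw [hρ0]; exact q1Psi_isDensity p 1 hp hσ1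
      · rw [hρ1]; exact q1Psi_isDensity p (-1) hp hσ2
  refine ⟨2, q, ρ, hens, ?_⟩
  have hbar := q1_isDensity_sum_smul hens
  unfold holevoInfo
  rw [← q1_gadMap_sum_smul, q1_gadMap_entropy_eq hγ hbar]
  have htt : ((∑ a, (q a : ℂ) • ρ a) true true).re = p := by
    rw [Fin.sum_univ_two, hρ0, hρ1, hq0]
    simp only [Matrix.add_apply, Matrix.smul_apply]
    rw [q1Psi_tt p 1 hp.1 hσ1, q1Psi_tt p (-1) hp.1 hσ2]
    simp only [smul_eq_mul, ← Complex.ofReal_mul, ← Complex.ofReal_add, Complex.ofReal_re]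
    ring
  have hft : (∑ a, (q a : ℂ) • ρ a) false true = 0 := by
    rw [Fin.sum_univ_two, hρ0, hρ1, hq0]
    simp only [Matrix.add_apply, Matrix.smul_apply, q1Psi_ft]
    simp only [smul_eq_mul, ← Complex.ofReal_mul, ← Complex.ofReal_add]
    rw [show (1 / 2 * (1 * (Real.sqrt (1 - p) * Real.sqrt p))
        + 1 / 2 * (-1 * (Real.sqrt (1 - p) * Real.sqrt p)) : ℝ) = 0 by ring]
    simp
  rw [htt, hft]
  have hsum : ∑ a, q a * vnEntropy (gadMap γ ν (ρ a)) = q1Ent (q1V γ ν p) := by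
    rw [Fin.sum_univ_two, hρ0, hρ1, hq0]
    rw [q1Psi_entropy γ ν hγ p 1 hp hσ1, q1Psi_entropy γ ν hγ p (-1) hp hσ2]
    ring
  rw [hsum]
  have h3 : gadRate γ ν p = Real.binEntropy ((1 - γ) * p + γ * ν) - q1Ent (q1V γ ν p) := rfl
  rw [h3, ← q1Ent_mul_one_sub]
  simp

end Crest.Agent.GAD
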