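import Mathlib
import Crest.Prelude.Def_QChannel
import Crest.Agent.GAD.Peierls

/-!
# Row 341 insurance build, root R2 (part): subadditivity of `vnEntropy`

For a positive semidefinite `M` on `k × d` with marginals `A` (on `k`) and `B` (on `d`):
`S(M) ≤ S(A) + S(B) - η(tr M)`; in particular `S(M) ≤ S(A) + S(B)` for a density matrix.
Proof: pinching in the product eigenbasis of the marginals plus classical subadditivity.
-/

set_option autoImplicit false
set_option linter.unusedSectionVars false

open Matrix Crest.Quantum
open scoped ComplexOrder Kronecker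

namespace Crest.Agent.GAD

section classical

variable {ι κ : Type*} [Fintype ι] [Fintype κ]

/-- Classical subadditivity of the (unnormalised) Shannon entropy. -/
theorem negMulLog_sum_prod_le (p : ι → κ → ℝ) (hp : ∀ i j, 0 ≤ p i j) :
    ∑ i, ∑ j, Real.negMulLog (p i j) ≤
      ∑ i, Real.negMulLog (∑ j, p i j) + ∑ j, Real.negMulLog (∑ i, p i j)
        - Real.negMulLog (∑ i, ∑ j, p i j) := by
  set a : ι → ℝ := fun i => ∑ j, p i j with ha
  set b : κ → ℝ := fun j => ∑ i, p i j with hb
  set τ : ℝ := ∑ i, ∑ j, p i j with hτ
  have ha0 : ∀ i, 0 ≤ a i := fun i => Finset.sum_nonneg fun j _ => hp i j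
  have hb0 : ∀ j, 0 ≤ b j := fun j => Finset.sum_nonneg fun i _ => hp i j
  have hτ0 : 0 ≤ τ := Finset.sum_nonneg fun i _ => ha0 i
  have hpa : ∀ i j, p i j ≤ a i := fun i j =>
    Finset.single_le_sum (fun j _ => hp i j) (Finset.mem_univ j)
  have hpb : ∀ i j, p i j ≤ b j := fun i j =>
    Finset.single_le_sum (f := fun i => p i j) (fun i _ => hp i j) (Finset.mem_univ i)
  have hτa : τ = ∑ i, a i := rfl
  have hτb : τ = ∑ j, b j := Finset.sum_comm
  rcases hτ0.eq_or_lt with h0 | hpos
  · -- everything vanishes
    have ha' : ∀ i, a i = 0 := fun i =>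
      (Finset.sum_eq_zero_iff_of_nonneg (fun i _ => ha0 i)).1 (hτa ▸ h0.symm) i (Finset.mem_univ i)
    have hp' : ∀ i j, p i j = 0 := fun i j => le_antisymm ((hpa i j).trans (ha' i).le) (hp i j)
    have hb' : ∀ j, b j = 0 := fun j => Finset.sum_eq_zero fun i _ => hp' i j
    simp only [hp', ← h0, Real.negMulLog_zero, Finset.sum_const_zero]
    norm_num
  · have key : ∀ i j, Real.negMulLog (p i j) + p i j * Real.log (a i) + p i j * Real.log (b j)
        - p i j * Real.log τ ≤ a i * b j / τ - p i j := by
      intro i j
      rcases (hp i j).eq_or_lt with h | h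
      · rw [← h]
        have : 0 ≤ a i * b j / τ := by have := ha0 i; have := hb0 j; positivity
        simpa using this
      · have hai : 0 < a i := h.trans_le (hpa i j)
        have hbj : 0 < b j := h.trans_le (hpb i j)
        have hx : 0 < a i * b j / (τ * p i j) := by positivity
        have hlog := Real.log_le_sub_one_of_pos hx
        rw [Real.log_div (by positivity) (by positivity), Real.log_mul hai.ne' hbj.ne',
          Real.log_mul hpos.ne' h.ne'] at hlog
        have h2 : p i j * (a i * b j / (τ * p i j) - 1) = a i * b j / τ - p i j := by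
          field_simp
        rw [← h2]
        unfold Real.negMulLog
        nlinarith [mul_le_mul_of_nonneg_left hlog h.le]
    have hsum := Finset.sum_le_sum fun i (_ : i ∈ Finset.univ) =>
      Finset.sum_le_sum fun j (_ : j ∈ Finset.univ) => key i j
    have e1 : ∑ i, ∑ j, p i j * Real.log (a i) = ∑ i, a i * Real.log (a i) := by
      refine Finset.sum_congr rfl fun i _ => ?_
      rw [← Finset.sum_mul]
    have e2 : ∑ i, ∑ j, p i j * Real.log (b j) = ∑ j, b j * Real.log (b j) := by
      rw [Finset.sum_comm]
      refine Finset.sum_congr rfl fun j _ => ?_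
      rw [← Finset.sum_mul]
    have e3 : ∑ i, ∑ j, p i j * Real.log τ = τ * Real.log τ := by
      simp only [← Finset.sum_mul]
      rfl
    have e4 : ∑ i, ∑ j, (a i * b j / τ - p i j) = 0 := by
      have : ∑ i, ∑ j, a i * b j / τ = τ := by
        simp only [← Finset.sum_div, ← Finset.mul_sum, ← Finset.sum_mul]
        rw [← hτa, ← hτb]
        field_simp
      simp only [Finset.sum_sub_distrib]
      rw [this]
      exact sub_self τ
    simp only [Finset.sum_sub_distrib, Finset.sum_add_distrib] at hsum
    rw [e1, e2, e3] at hsum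
    simp only [Finset.sum_sub_distrib] at e4
    have e5 : ∑ i, Real.negMulLog (a i) = -∑ i, a i * Real.log (a i) := by
      simp [Real.negMulLog]
    have e6 : ∑ j, Real.negMulLog (b j) = -∑ j, b j * Real.log (b j) := by
      simp [Real.negMulLog]
    have e7 : Real.negMulLog τ = -(τ * Real.log τ) := by
      simp [Real.negMulLog]
    rw [e5, e6, e7]
    linarith

end classical

section matrix

variable {k d : Type*} [Fintype k] [DecidableEq k] [Fintype d] [DecidableEq d]

/-- The marginal of `M` on the first factor (partial trace over the second factor). -/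
def margL (M : Matrix (k × d) (k × d) ℂ) : Matrix k k ℂ :=
  Matrix.of fun s t => (block M s t).trace

/-- The marginal of `M` on the second factor (partial trace over the first factor). -/
def margR (M : Matrix (k × d) (k × d) ℂ) : Matrix d d ℂ := ∑ s, block M s s

theorem margL_apply (M : Matrix (k × d) (k × d) ℂ) (s t : k) :
    margL M s t = ∑ x, M (s, x) (t, x) := rfl

theorem margR_apply (M : Matrix (k × d) (k × d) ℂ) (x y : d) :
    margR M x y = ∑ s, M (s, x) (s, y) := by
  simp [margR, block, Matrix.sum_apply]

theorem margL_isHermitian (M : Matrix (k × d) (k × d) ℂ) (hM : M.IsHermitian) :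
    (margL M).IsHermitian := by
  ext s t
  simp only [Matrix.conjTranspose_apply, margL_apply, star_sum]
  exact Finset.sum_congr rfl fun x _ => hM.apply _ _

theorem margR_isHermitian (M : Matrix (k × d) (k × d) ℂ) (hM : M.IsHermitian) :
    (margR M).IsHermitian := by
  ext x y
  simp only [Matrix.conjTranspose_apply, margR_apply, star_sum]
  exact Finset.sum_congr rfl fun s _ => hM.apply _ _

theorem trace_margL (M : Matrix (k × d) (k × d) ℂ) : (margL M).trace = M.trace := by
  simp only [Matrix.trace, Matrix.diag_apply, margL_apply, Fintype.sum_prod_type]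

theorem trace_margR (M : Matrix (k × d) (k × d) ℂ) : (margR M).trace = M.trace := by
  simp only [Matrix.trace, Matrix.diag_apply, margR_apply, Fintype.sum_prod_type]
  exact Finset.sum_comm

theorem margR_posSemidef (M : Matrix (k × d) (k × d) ℂ) (hM : M.PosSemidef) :
    (margR M).PosSemidef := by
  unfold margR
  refine Matrix.posSemidef_sum _ fun s _ => ?_
  exact hM.submatrix (fun i : d => (s, i))

theorem margL_eq_margR_swap (M : Matrix (k × d) (k × d) ℂ) :
    margL M = margR (M.submatrix Prod.swap Prod.swap) := by
  ext s t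
  rw [margL_apply, margR_apply]
  rfl

theorem margL_posSemidef (M : Matrix (k × d) (k × d) ℂ) (hM : M.PosSemidef) :
    (margL M).PosSemidef := by
  rw [margL_eq_margR_swap]
  exact margR_posSemidef _ (hM.submatrix Prod.swap)

theorem margL_isDensity (M : Matrix (k × d) (k × d) ℂ) (hM : IsDensity M) :
    IsDensity (margL M) :=
  ⟨margL_posSemidef M hM.1, (trace_margL M).trans hM.2⟩

theorem margR_isDensity (M : Matrix (k × d) (k × d) ℂ) (hM : IsDensity M) :
    IsDensity (margR M) :=
  ⟨margR_posSemidef M hM.1, (trace_margR M).trans hM.2⟩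

/-- Summing the diagonal of a locally rotated matrix over the second index gives the rotated
first marginal. -/
theorem sum_conj_kronecker_right (M : Matrix (k × d) (k × d) ℂ) (U : Matrix k k ℂ)
    (V : Matrix d d ℂ) (hV : V ∈ unitaryGroup d ℂ) (i i' : k) :
    ∑ j, (star (U ⊗ₖ V) * M * (U ⊗ₖ V)) (i, j) (i', j) = (star U * margL M * U) i i' := by
  have hV1 : ∀ x y, ∑ j, V y j * star (V x j) = if y = x then 1 else 0 := by
    intro x y
    have := congrFun (congrFun (mem_unitaryGroup_iff.mp hV) y) x
    simpa [Matrix.mul_apply, Matrix.one_apply] using this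
  calc ∑ j, (star (U ⊗ₖ V) * M * (U ⊗ₖ V)) (i, j) (i', j)
      = ∑ j, ∑ t, ∑ y, ∑ s, ∑ x,
          star (U s i) * U t i' * M (s, x) (t, y) * (V y j * star (V x j)) := by
        simp only [Matrix.mul_apply, Matrix.star_apply, kroneckerMap_apply, Fintype.sum_prod_type,
          Finset.sum_mul]
        refine Finset.sum_congr rfl fun j _ => Finset.sum_congr rfl fun t _ =>
          Finset.sum_congr rfl fun y _ => Finset.sum_congr rfl fun s _ =>
          Finset.sum_congr rfl fun x _ => ?_
        rw [star_mul']
        ring
    _ = ∑ t, ∑ y, ∑ s, ∑ x, ∑ j,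
          star (U s i) * U t i' * M (s, x) (t, y) * (V y j * star (V x j)) := by
        rw [Finset.sum_comm]
        refine Finset.sum_congr rfl fun t _ => ?_
        rw [Finset.sum_comm]
        refine Finset.sum_congr rfl fun y _ => ?_
        rw [Finset.sum_comm]
        refine Finset.sum_congr rfl fun s _ => ?_
        rw [Finset.sum_comm]
    _ = ∑ t, ∑ y, ∑ s, star (U s i) * U t i' * M (s, y) (t, y) := by
        refine Finset.sum_congr rfl fun t _ => Finset.sum_congr rfl fun y _ =>
          Finset.sum_congr rfl fun s _ => ?_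
        simp only [← Finset.mul_sum, hV1, mul_ite, mul_one, mul_zero, Finset.sum_ite_eq,
          Finset.mem_univ, if_true]
    _ = (star U * margL M * U) i i' := by
        simp only [Matrix.mul_apply, Matrix.star_apply, margL_apply, Finset.sum_mul,
          Finset.mul_sum]
        refine Finset.sum_congr rfl fun t _ => ?_
        rw [Finset.sum_comm]
        refine Finset.sum_congr rfl fun s _ => Finset.sum_congr rfl fun y _ => ?_
        ring

/-- Summing the diagonal of a locally rotated matrix over the first index gives the rotated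
second marginal. -/
theorem sum_conj_kronecker_left (M : Matrix (k × d) (k × d) ℂ) (U : Matrix k k ℂ)
    (V : Matrix d d ℂ) (hU : U ∈ unitaryGroup k ℂ) (j j' : d) :
    ∑ i, (star (U ⊗ₖ V) * M * (U ⊗ₖ V)) (i, j) (i, j') = (star V * margR M * V) j j' := by
  have hU1 : ∀ s t, ∑ i, U t i * star (U s i) = if t = s then 1 else 0 := by
    intro s t
    have := congrFun (congrFun (mem_unitaryGroup_iff.mp hU) t) s
    simpa [Matrix.mul_apply, Matrix.one_apply] using this
  calc ∑ i, (star (U ⊗ₖ V) * M * (U ⊗ₖ V)) (i, j) (i, j')
      = ∑ i, ∑ t, ∑ y, ∑ s, ∑ x,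
          star (V x j) * V y j' * M (s, x) (t, y) * (U t i * star (U s i)) := by
        simp only [Matrix.mul_apply, Matrix.star_apply, kroneckerMap_apply, Fintype.sum_prod_type,
          Finset.sum_mul]
        refine Finset.sum_congr rfl fun i _ => Finset.sum_congr rfl fun t _ =>
          Finset.sum_congr rfl fun y _ => Finset.sum_congr rfl fun s _ =>
          Finset.sum_congr rfl fun x _ => ?_
        rw [star_mul']
        ring
    _ = ∑ t, ∑ y, ∑ s, ∑ x, ∑ i,
          star (V x j) * V y j' * M (s, x) (t, y) * (U t i * star (U s i)) := by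
        rw [Finset.sum_comm]
        refine Finset.sum_congr rfl fun t _ => ?_
        rw [Finset.sum_comm]
        refine Finset.sum_congr rfl fun y _ => ?_
        rw [Finset.sum_comm]
        refine Finset.sum_congr rfl fun s _ => ?_
        rw [Finset.sum_comm]
    _ = ∑ t, ∑ y, ∑ x, star (V x j) * V y j' * M (t, x) (t, y) := by
        refine Finset.sum_congr rfl fun t _ => Finset.sum_congr rfl fun y _ => ?_
        simp only [← Finset.mul_sum, hU1, mul_ite, mul_one, mul_zero]
        rw [Finset.sum_comm]
        refine Finset.sum_congr rfl fun x _ => ?_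
        simp only [Finset.sum_ite_eq, Finset.mem_univ, if_true]
    _ = (star V * margR M * V) j j' := by
        simp only [Matrix.mul_apply, Matrix.star_apply, margR_apply, Finset.sum_mul,
          Finset.mul_sum]
        rw [Finset.sum_comm]
        refine Finset.sum_congr rfl fun y _ => ?_
        rw [Finset.sum_comm]
        refine Finset.sum_congr rfl fun x _ => Finset.sum_congr rfl fun t _ => ?_
        ring

/-- **Subadditivity** of the von Neumann entropy, unnormalised form. -/
theorem vnEntropy_subadditive (M : Matrix (k × d) (k × d) ℂ) (hM : M.PosSemidef) :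
    vnEntropy M ≤ vnEntropy (margL M) + vnEntropy (margR M) - Real.negMulLog M.trace.re := by
  have hA : (margL M).IsHermitian := margL_isHermitian M hM.isHermitian
  have hB : (margR M).IsHermitian := margR_isHermitian M hM.isHermitian
  set U : Matrix k k ℂ := (hA.eigenvectorUnitary : Matrix k k ℂ) with hUdef
  set V : Matrix d d ℂ := (hB.eigenvectorUnitary : Matrix d d ℂ) with hVdef
  have hU : U ∈ unitaryGroup k ℂ := (hA.eigenvectorUnitary).2
  have hV : V ∈ unitaryGroup d ℂ := (hB.eigenvectorUnitary).2
  have hW : U ⊗ₖ V ∈ unitaryGroup (k × d) ℂ := Matrix.kronecker_mem_unitary hU hV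
  have h1 := vnEntropy_le_sum_diag M hM (U ⊗ₖ V) hW
  set p : k → d → ℝ := fun i j => ((star (U ⊗ₖ V) * M * (U ⊗ₖ V)) (i, j) (i, j)).re with hpdef
  have hp : ∀ i j, 0 ≤ p i j := fun i j => conj_unitary_diag_nonneg M hM _ hW (i, j)
  have h2 := negMulLog_sum_prod_le p hp
  have ha : ∀ i, ∑ j, p i j = hA.eigenvalues i := by
    intro i
    have h := sum_conj_kronecker_right M U V hV i i
    rw [hUdef, star_eigenvectorUnitary_mul_mul] at h
    have h' := congrArg Complex.re h
    simp only [Complex.re_sum, Matrix.diagonal_apply_eq, Complex.ofReal_re] at h'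
    exact h'
  have hb : ∀ j, ∑ i, p i j = hB.eigenvalues j := by
    intro j
    have h := sum_conj_kronecker_left M U V hU j j
    rw [hVdef, star_eigenvectorUnitary_mul_mul] at h
    have h' := congrArg Complex.re h
    simp only [Complex.re_sum, Matrix.diagonal_apply_eq, Complex.ofReal_re] at h'
    exact h'
  have hτ : ∑ i, ∑ j, p i j = M.trace.re := by
    rw [← trace_margL M, trace_re_eq_sum_eigenvalues hA]
    exact Finset.sum_congr rfl fun i _ => ha i
  rw [hτ] at h2
  simp only [ha, hb] at h2
  rw [Fintype.sum_prod_type] at h1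
  rw [vnEntropy_eq_sum hA, vnEntropy_eq_sum hB]
  exact h1.trans h2

/-- **Subadditivity** of the von Neumann entropy for a density matrix. -/
theorem vnEntropy_subadditive_density (M : Matrix (k × d) (k × d) ℂ) (hM : IsDensity M) :
    vnEntropy M ≤ vnEntropy (Matrix.of fun s t => (block M s t).trace)
      + vnEntropy (∑ s, block M s s) := by
  have h := vnEntropy_subadditive M hM.1
  rw [hM.2] at h
  simpa [margL, margR] using h

end matrix

end Crest.Agent.GAD
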