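import Mathlib
import Crest.Prelude.Def_QState
import Crest.Prelude.Def_QChannel
import Crest.Prelude.Def_AmpDamp
import Crest.Agent.GAD.Entropy
import Crest.Agent.GAD.Subadd
import Crest.Agent.GAD.Plumb
import Crest.Agent.GAD.Product
import Crest.Agent.GAD.Scalar
import Crest.Agent.GAD.Qubit1
import Crest.Agent.GAD.Lprime
import Crest.Agent.GAD.Power

/-!
# Row 341, tail: the one-step upper bound `AddUpper` from `(L')`, directly

helper96.  `addUpper_of_Lprime : Lprime γ ν → AddUpper γ ν` (the `ε`-free one-step upper bound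
of `GAD/Power.lean`), with the mean excited population as the point `p` and the ensemble of the
`2m` normalised diagonal blocks on the second system.  Ingredients, all landed: subadditivity
(`Subadd`), the single-qubit bound `q1_gadMap_entropy_le` (`Qubit1`), convexity of `fOut`
(`Scalar.fOut_jensen`), `vnEntropy_smul` (`Entropy`), the block plumbing (`Plumb`).
Everything is in the sub-namespace `Crest.Agent.GAD.AddUpperDirect`.
-/

set_option autoImplicit false
set_option linter.unusedSectionVars false

namespace Crest.Agent.GAD.AddUpperDirect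

open Crest.Quantum Crest.MathPhysics.AmpDamp Matrix
open Crest.Agent.GAD
open scoped ComplexOrder

section norm

variable {d e : Type*} [Fintype d] [Fintype e] [DecidableEq d] [DecidableEq e]

omit [DecidableEq d] in
/-- the trace of a positive semidefinite matrix is a real number -/
theorem trace_eq_ofReal {A : Matrix d d ℂ} (hA : A.PosSemidef) :
    A.trace = ((A.trace.re : ℝ) : ℂ) := by
  have h := (Complex.nonneg_iff.mp hA.trace_nonneg).2
  exact Complex.ext (by simp) (by simpa using h.symm)

omit [DecidableEq d] in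
theorem trace_re_nonneg {A : Matrix d d ℂ} (hA : A.PosSemidef) : 0 ≤ A.trace.re :=
  (Complex.nonneg_iff.mp hA.trace_nonneg).1

/-- a fixed density matrix on a nonempty system -/
noncomputable def rho0 (d : Type*) [Fintype d] [DecidableEq d] [Nonempty d] : Matrix d d ℂ :=
  Matrix.diagonal fun i => if i = Classical.arbitrary d then 1 else 0

theorem rho0_isDensity [Nonempty d] : IsDensity (rho0 d) := by
  refine ⟨?_, ?_⟩
  · rw [rho0, Matrix.posSemidef_diagonal_iff]
    intro i
    split_ifs <;> simp
  · rw [rho0, Matrix.trace_diagonal]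
    simp

/-- normalisation of a positive semidefinite matrix to a density matrix (a fixed density matrix
when the trace vanishes) -/
noncomputable def nrm [Nonempty d] (A : Matrix d d ℂ) : Matrix d d ℂ :=
  if A.trace.re = 0 then rho0 d else (((A.trace.re)⁻¹ : ℝ) : ℂ) • A

theorem nrm_isDensity [Nonempty d] {A : Matrix d d ℂ} (hA : A.PosSemidef) : IsDensity (nrm A) := by
  unfold nrm
  split_ifs with h
  · exact rho0_isDensity
  · refine ⟨hA.smul ?_, ?_⟩
    · have := inv_nonneg.mpr (trace_re_nonneg hA)
      exact_mod_cast this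
    · have ht := trace_eq_ofReal hA
      set t := A.trace.re with htdef
      rw [Matrix.trace_smul, smul_eq_mul, ht, ← Complex.ofReal_mul, inv_mul_cancel₀ h,
        Complex.ofReal_one]

theorem smul_nrm [Nonempty d] {A : Matrix d d ℂ} (hA : A.PosSemidef) :
    ((A.trace.re : ℝ) : ℂ) • nrm A = A := by
  unfold nrm
  split_ifs with h
  · have h0 : A.trace = 0 := by rw [trace_eq_ofReal hA, h, Complex.ofReal_zero]
    rw [h, Complex.ofReal_zero, zero_smul, (hA.trace_eq_zero_iff.mp h0)]
  · rw [smul_smul, ← Complex.ofReal_mul, mul_inv_cancel₀ h, Complex.ofReal_one, one_smul]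

/-- `Ψ A` is the trace of `A` times `Ψ` of the normalised matrix -/
theorem apply_eq_smul_nrm [Nonempty d] {Ψ : Matrix d d ℂ → Matrix e e ℂ} (hΨ : IsChannel Ψ)
    {A : Matrix d d ℂ} (hA : A.PosSemidef) :
    Ψ A = ((A.trace.re : ℝ) : ℂ) • Ψ (nrm A) := by
  conv_lhs => rw [← smul_nrm hA]
  exact hΨ.1.map_smul _ _

/-- entropy of `Ψ A` through the normalised matrix -/
theorem vnEntropy_apply_eq [Nonempty d] {Ψ : Matrix d d ℂ → Matrix e e ℂ} (hΨ : IsChannel Ψ)
    {A : Matrix d d ℂ} (hA : A.PosSemidef) :
    vnEntropy (Ψ A) = A.trace.re * vnEntropy (Ψ (nrm A)) + Real.negMulLog A.trace.re := by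
  have hD := Product.isDensity_apply_of_isChannel hΨ (nrm_isDensity hA)
  rw [apply_eq_smul_nrm hΨ hA, vnEntropy_smul hD.1.1, hD.2]
  simp

end norm

section state

variable {d e : Type} [Fintype d] [Fintype e] [DecidableEq d] [DecidableEq e]

/-- block traces of a density matrix on `Bool × d` -/
theorem block_trace_facts {ρ : Matrix (Bool × d) (Bool × d) ℂ} (hρ : IsDensity ρ) :
    0 ≤ (block ρ true true).trace.re ∧ (block ρ true true).trace.re ≤ 1 ∧
      (block ρ false false).trace.re = 1 - (block ρ true true).trace.re := by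
  have h := Plumb.trace_eq_block_bool ρ
  rw [hρ.2] at h
  have h' := congrArg Complex.re h
  simp only [Complex.one_re, Complex.add_re] at h'
  have h0 := trace_re_nonneg (Plumb.block_posSemidef hρ.1 false)
  have h1 := trace_re_nonneg (Plumb.block_posSemidef hρ.1 true)
  refine ⟨h1, by linarith, by linarith⟩

/-- **Per-state lower bound** from `(L')`: the output entropy of `GAD ⊗ Ψ` on a density matrix
is at least the pure-state entropy `fOut` at its excited population plus the average of the
`Ψ`-output entropies of the two normalised diagonal blocks. -/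
theorem state_lower {γ ν : ℝ} (hL : Lprime γ ν) [Nonempty d]
    {Ψ : Matrix d d ℂ → Matrix e e ℂ} (hΨ : IsChannel Ψ)
    {ρ : Matrix (Bool × d) (Bool × d) ℂ} (hρ : IsDensity ρ) :
    fOut γ ν (block ρ true true).trace.re
        + (1 - (block ρ true true).trace.re) * vnEntropy (Ψ (nrm (block ρ false false)))
        + (block ρ true true).trace.re * vnEntropy (Ψ (nrm (block ρ true true)))
      ≤ vnEntropy (qubitTensor (gadMap γ ν) Ψ ρ) := by
  have h := hL e (blockwise (k := Bool) Ψ ρ) (Plumb.blockwise_isDensity hΨ hρ)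
  rw [← Plumb.qubitTensor_eq_id_blockwise] at h
  simp only [Plumb.block_blockwise] at h
  rw [hΨ.2.2 (block ρ true true)] at h
  obtain ⟨-, -, hX⟩ := block_trace_facts hρ
  rw [vnEntropy_apply_eq hΨ (Plumb.block_posSemidef hρ.1 false),
    vnEntropy_apply_eq hΨ (Plumb.block_posSemidef hρ.1 true), hX,
    Real.binEntropy_eq_negMulLog_add_negMulLog_one_sub] at h
  linarith

/-- **Average upper bound**: subadditivity plus the single-qubit bound. -/
theorem avg_upper {γ ν : ℝ} (hγ : γ ∈ Set.Icc (0 : ℝ) 1) (hν : ν ∈ Set.Icc (0 : ℝ) 1)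
    {Ψ : Matrix d d ℂ → Matrix e e ℂ} (hΨ : IsChannel Ψ)
    {ρ : Matrix (Bool × d) (Bool × d) ℂ} (hρ : IsDensity ρ) :
    vnEntropy (qubitTensor (gadMap γ ν) Ψ ρ)
      ≤ Real.binEntropy ((1 - γ) * (block ρ true true).trace.re + γ * ν)
        + vnEntropy (Ψ (block ρ false false + block ρ true true)) := by
  have h := vnEntropy_subadditive_density (qubitTensor (gadMap γ ν) Ψ ρ)
    (Plumb.qubitTensor_gad_isDensity hγ hν hΨ hρ)
  rw [Plumb.of_trace_block_qubitTensor_gad γ ν hΨ.2.2 ρ,
    Plumb.sum_block_qubitTensor_gad γ ν hΨ.1 ρ, Fintype.sum_bool,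
    add_comm (block ρ true true)] at h
  have h2 := q1_gadMap_entropy_le hγ hν (margL_isDensity ρ hρ)
  have h3 : (margL ρ true true).re = (block ρ true true).trace.re := rfl
  rw [h3] at h2
  have h4 : (Matrix.of fun s t => (block ρ s t).trace : Matrix Bool Bool ℂ) = margL ρ := rfl
  rw [h4] at h
  linarith

end state

section main

variable {d e : Type} [Fintype d] [Fintype e] [DecidableEq d] [DecidableEq e]

/-- The explicit form of the one-step upper bound: the point is the mean excited population and
the ensemble on the second system consists of the `2m` normalised diagonal blocks. -/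
theorem one_step_upper {γ ν : ℝ} (hγ : γ ∈ Set.Icc (0 : ℝ) 1) (hν : ν ∈ Set.Icc (0 : ℝ) 1)
    (hL : Lprime γ ν) [Nonempty d] {Ψ : Matrix d d ℂ → Matrix e e ℂ} (hΨ : IsChannel Ψ)
    {m : ℕ} {q : Fin m → ℝ} {ρ : Fin m → Matrix (Bool × d) (Bool × d) ℂ} (hens : IsEnsemble q ρ) :
    IsEnsemble (Fin.append (fun a => q a * (1 - (block (ρ a) true true).trace.re))
        (fun a => q a * (block (ρ a) true true).trace.re))
      (Fin.append (fun a => nrm (block (ρ a) false false)) (fun a => nrm (block (ρ a) true true)))
    ∧ (∑ a, q a * (block (ρ a) true true).trace.re) ∈ Set.Icc (0 : ℝ) 1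
    ∧ holevoInfo (qubitTensor (gadMap γ ν) Ψ) q ρ
      ≤ gadRate γ ν (∑ a, q a * (block (ρ a) true true).trace.re)
        + holevoInfo Ψ (Fin.append (fun a => q a * (1 - (block (ρ a) true true).trace.re))
            (fun a => q a * (block (ρ a) true true).trace.re))
          (Fin.append (fun a => nrm (block (ρ a) false false))
            (fun a => nrm (block (ρ a) true true))) := by
  have hbar := q1_isDensity_sum_smul hens
  obtain ⟨hq, hq1, hρ⟩ := hens
  set z : Fin m → ℝ := fun a => (block (ρ a) true true).trace.re with hz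
  have hz0 : ∀ a, 0 ≤ z a := fun a => (block_trace_facts (hρ a)).1
  have hz1 : ∀ a, z a ≤ 1 := fun a => (block_trace_facts (hρ a)).2.1
  have hXp : ∀ a, (block (ρ a) false false).PosSemidef :=
    fun a => Plumb.block_posSemidef (hρ a).1 false
  have hZp : ∀ a, (block (ρ a) true true).PosSemidef :=
    fun a => Plumb.block_posSemidef (hρ a).1 true
  have hXtr : ∀ a, (block (ρ a) false false).trace.re = 1 - z a :=
    fun a => (block_trace_facts (hρ a)).2.2
  -- the mean excited population
  have hzbar : (block (∑ a, (q a : ℂ) • ρ a) true true).trace.re = ∑ a, q a * z a := by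
    rw [Plumb.block_sum_smul, Matrix.trace_sum, Complex.re_sum]
    refine Finset.sum_congr rfl fun a _ => ?_
    rw [Matrix.trace_smul, smul_eq_mul, Complex.re_ofReal_mul]
  have hzbar_mem : (∑ a, q a * z a) ∈ Set.Icc (0 : ℝ) 1 := by
    refine ⟨Finset.sum_nonneg fun a _ => mul_nonneg (hq a) (hz0 a), ?_⟩
    calc ∑ a, q a * z a ≤ ∑ a, q a * 1 :=
          Finset.sum_le_sum fun a _ => mul_le_mul_of_nonneg_left (hz1 a) (hq a)
      _ = 1 := by simp [hq1]
  -- the ensemble on the second system
  have hens2 : IsEnsemble (Fin.append (fun a => q a * (1 - z a)) (fun a => q a * z a))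
      (Fin.append (fun a => nrm (block (ρ a) false false))
        (fun a => nrm (block (ρ a) true true))) := by
    refine ⟨?_, ?_, ?_⟩
    · intro i
      refine Fin.addCases (fun a => ?_) (fun a => ?_) i
      · rw [Fin.append_left]
        exact mul_nonneg (hq a) (by linarith [hz1 a])
      · rw [Fin.append_right]
        exact mul_nonneg (hq a) (hz0 a)
    · rw [Fin.sum_univ_add]
      simp only [Fin.append_left, Fin.append_right]
      rw [← Finset.sum_add_distrib]
      rw [show (∑ a, (q a * (1 - z a) + q a * z a)) = ∑ a, q a from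
        Finset.sum_congr rfl fun a _ => by ring]
      exact hq1
    · intro i
      refine Fin.addCases (fun a => ?_) (fun a => ?_) i
      · rw [Fin.append_left]
        exact nrm_isDensity (hXp a)
      · rw [Fin.append_right]
        exact nrm_isDensity (hZp a)
  refine ⟨hens2, hzbar_mem, ?_⟩
  -- the average output of the second ensemble
  have havg2 : ∑ i, ((Fin.append (fun a => q a * (1 - z a)) (fun a => q a * z a) i : ℝ) : ℂ)
        • Ψ (Fin.append (fun a => nrm (block (ρ a) false false))
          (fun a => nrm (block (ρ a) true true)) i)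
      = Ψ (block (∑ a, (q a : ℂ) • ρ a) false false + block (∑ a, (q a : ℂ) • ρ a) true true) := by
    rw [Fin.sum_univ_add]
    simp only [Fin.append_left, Fin.append_right]
    rw [hΨ.1.map_add, Plumb.block_sum_smul, Plumb.block_sum_smul]
    have hsum : ∀ (f : Fin m → Matrix d d ℂ),
        Ψ (∑ a, (q a : ℂ) • f a) = ∑ a, (q a : ℂ) • Ψ (f a) := by
      intro f
      have h := map_sum hΨ.1.mk' (fun a => (q a : ℂ) • f a) Finset.univ
      simp only [IsLinearMap.mk'_apply, hΨ.1.map_smul] at h
      exact h
    rw [hsum, hsum]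
    congr 1
    · refine Finset.sum_congr rfl fun a _ => ?_
      rw [apply_eq_smul_nrm hΨ (hXp a), hXtr a, smul_smul, ← Complex.ofReal_mul]
    · refine Finset.sum_congr rfl fun a _ => ?_
      rw [apply_eq_smul_nrm hΨ (hZp a), smul_smul, ← Complex.ofReal_mul]
  -- the average of the output entropies of the second ensemble
  have hsum2 : ∑ i, Fin.append (fun a => q a * (1 - z a)) (fun a => q a * z a) i
        * vnEntropy (Ψ (Fin.append (fun a => nrm (block (ρ a) false false))
          (fun a => nrm (block (ρ a) true true)) i))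
      = ∑ a, q a * ((1 - z a) * vnEntropy (Ψ (nrm (block (ρ a) false false)))
          + z a * vnEntropy (Ψ (nrm (block (ρ a) true true)))) := by
    rw [Fin.sum_univ_add]
    simp only [Fin.append_left, Fin.append_right]
    rw [← Finset.sum_add_distrib]
    exact Finset.sum_congr rfl fun a _ => by ring
  -- the three inequalities
  have hA := avg_upper hγ hν hΨ hbar
  rw [hzbar] at hA
  have hB : ∑ a, q a * (fOut γ ν (z a)
        + ((1 - z a) * vnEntropy (Ψ (nrm (block (ρ a) false false)))
          + z a * vnEntropy (Ψ (nrm (block (ρ a) true true)))))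
      ≤ ∑ a, q a * vnEntropy (qubitTensor (gadMap γ ν) Ψ (ρ a)) := by
    refine Finset.sum_le_sum fun a _ => mul_le_mul_of_nonneg_left ?_ (hq a)
    have h := state_lower hL hΨ (hρ a)
    linarith
  have hJ := fOut_jensen hγ hν Finset.univ q z (fun a _ => hq a) hq1
    (fun a _ => ⟨hz0 a, hz1 a⟩)
  have hsplit : ∑ a, q a * (fOut γ ν (z a)
        + ((1 - z a) * vnEntropy (Ψ (nrm (block (ρ a) false false)))
          + z a * vnEntropy (Ψ (nrm (block (ρ a) true true)))))
      = ∑ a, q a * fOut γ ν (z a)
        + ∑ a, q a * ((1 - z a) * vnEntropy (Ψ (nrm (block (ρ a) false false)))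
          + z a * vnEntropy (Ψ (nrm (block (ρ a) true true)))) := by
    rw [← Finset.sum_add_distrib]
    exact Finset.sum_congr rfl fun a _ => by ring
  unfold holevoInfo
  rw [havg2, hsum2, ← Plumb.qubitTensor_sum_smul (gadMap γ ν) hΨ.1, gadRate_eq]
  linarith

/-- **`AddUpper` from `(L')`**: the `ε`-free one-step upper bound of `GAD/Power.lean`. -/
theorem addUpper_of_Lprime {γ ν : ℝ} (hγ : γ ∈ Set.Icc (0 : ℝ) 1) (hν : ν ∈ Set.Icc (0 : ℝ) 1)
    (hL : Lprime γ ν) : AddUpper γ ν := by
  intro d e _ _ _ _ _ _ Ψ hΨ m q ρ hens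
  obtain ⟨h1, h2, h3⟩ := one_step_upper hγ hν hL hΨ hens
  exact ⟨_, h2, m + m, _, _, h1, h3⟩

end main

end Crest.Agent.GAD.AddUpperDirect
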