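import Mathlib

/-!
# Row 341 (GADC), real-variable core of the (AD4) proof (#1597), part 1: the layer-cake measure

`lcMeasure` is the measure `du dv / (1+u+v)^2` on the open positive quadrant of `ℝ × ℝ`.
Main facts (all for `0 ≤ α, β, c`):

* `lcMeasure_lt_or_lt`: `lcMeasure {z | z.1 < α ∨ z.2 < β} = ofReal (log (1 + α + β))`  (layer cake)
* `lcMeasure_fst_lt`, `lcMeasure_snd_lt`: `lcMeasure {z | z.1 < c} = ofReal (log (1 + c))`
* `ae_lcMeasure_pos`: `lcMeasure`-a.e. point has positive coordinates.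

Mathlib only; no matrices.
-/

set_option autoImplicit false
open MeasureTheory Set Filter Topology
open scoped ENNReal

namespace Crest.Agent.GAD

/-- FTC for `lintegral` on `(a, b]`, nonnegative derivative. -/
theorem lintegral_Ioc_ofReal_deriv {g g' : ℝ → ℝ} {a b : ℝ} (hab : a ≤ b)
    (hderiv : ∀ x ∈ Icc a b, HasDerivAt g (g' x) x) (hpos : ∀ x ∈ Icc a b, 0 ≤ g' x)
    (hcont : ContinuousOn g' (Icc a b)) :
    ∫⁻ x in Ioc a b, ENNReal.ofReal (g' x) = ENNReal.ofReal (g b - g a) := by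
  have hint : IntervalIntegrable g' volume a b := by
    apply ContinuousOn.intervalIntegrable
    rwa [uIcc_of_le hab]
  have hval : ∫ x in a..b, g' x = g b - g a := by
    apply intervalIntegral.integral_eq_sub_of_hasDerivAt _ hint
    intro x hx
    rw [uIcc_of_le hab] at hx
    exact hderiv x hx
  rw [intervalIntegral.integral_of_le hab] at hval
  have hint' : IntegrableOn g' (Ioc a b) volume :=
    (intervalIntegrable_iff_integrableOn_Ioc_of_le hab).1 hint
  rw [← hval, ofReal_integral_eq_lintegral_ofReal hint']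
  filter_upwards [ae_restrict_mem measurableSet_Ioc] with x hx
  exact hpos x (Ioc_subset_Icc_self hx)

/-- FTC for `lintegral` on `(a, ∞)`, nonnegative derivative. -/
theorem lintegral_Ioi_ofReal_deriv {g g' : ℝ → ℝ} {a l : ℝ}
    (hderiv : ∀ x ∈ Ici a, HasDerivAt g (g' x) x) (hpos : ∀ x ∈ Ioi a, 0 ≤ g' x)
    (hlim : Tendsto g atTop (𝓝 l)) :
    ∫⁻ x in Ioi a, ENNReal.ofReal (g' x) = ENNReal.ofReal (l - g a) := by
  have hint := integrableOn_Ioi_deriv_of_nonneg' hderiv hpos hlim
  have hval := integral_Ioi_of_hasDerivAt_of_nonneg' hderiv hpos hlim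
  rw [← hval, ofReal_integral_eq_lintegral_ofReal hint]
  filter_upwards [ae_restrict_mem measurableSet_Ioi] with x hx
  exact hpos x hx

/-- derivative of `v ↦ -1/(1+u+v)`. -/
theorem hasDerivAt_neg_inv_kernel (u v : ℝ) (hv : 1 + u + v ≠ 0) :
    HasDerivAt (fun v : ℝ => -(1 / (1 + u + v))) (1 / (1 + u + v) ^ 2) v := by
  have h1 : HasDerivAt (fun v : ℝ => 1 + u + v) 1 v := by
    simpa using (hasDerivAt_id v).const_add (1 + u)
  have h2 : HasDerivAt (fun v : ℝ => (1 + u + v)⁻¹) (-1 / (1 + u + v) ^ 2) v := h1.inv hv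
  have h3 : HasDerivAt (fun v : ℝ => -(1 + u + v)⁻¹) (-(-1 / (1 + u + v) ^ 2)) v := h2.neg
  have e : 1 / (1 + u + v) ^ 2 = -(-1 / (1 + u + v) ^ 2) := by ring
  rw [e]
  simpa [one_div] using h3

/-- `∫_{v>c} dv/(1+u+v)^2 = 1/(1+u+c)`. -/
theorem lintegral_Ioi_kernel (u c : ℝ) (h : 0 < 1 + u + c) :
    ∫⁻ v in Ioi c, ENNReal.ofReal (1 / (1 + u + v) ^ 2) = ENNReal.ofReal (1 / (1 + u + c)) := by
  have hderiv : ∀ v ∈ Ici c,
      HasDerivAt (fun v : ℝ => -(1 / (1 + u + v))) (1 / (1 + u + v) ^ 2) v := by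
    intro v hv
    have hv' : (1 + u + v) ≠ 0 := by
      have : c ≤ v := hv
      linarith
    exact hasDerivAt_neg_inv_kernel u v hv'
  have hlim : Tendsto (fun v : ℝ => -(1 / (1 + u + v))) atTop (𝓝 0) := by
    have h1 : Tendsto (fun v : ℝ => 1 + u + v) atTop atTop :=
      tendsto_atTop_add_const_left atTop (1 + u) tendsto_id
    have h2 := (tendsto_inv_atTop_zero.comp h1).neg
    simpa [one_div, Function.comp] using h2
  have := lintegral_Ioi_ofReal_deriv hderiv (fun v _ => by positivity) hlim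
  rw [this]
  congr 1
  ring

/-- `∫_0^β dv/(1+u+v)^2 = 1/(1+u) - 1/(1+u+β)`. -/
theorem lintegral_Ioo_kernel (u β : ℝ) (hu : 0 ≤ u) (hβ : 0 ≤ β) :
    ∫⁻ v in Ioo 0 β, ENNReal.ofReal (1 / (1 + u + v) ^ 2)
      = ENNReal.ofReal (1 / (1 + u) - 1 / (1 + u + β)) := by
  rw [setLIntegral_congr Ioo_ae_eq_Ioc]
  have hderiv : ∀ v ∈ Icc 0 β,
      HasDerivAt (fun v : ℝ => -(1 / (1 + u + v))) (1 / (1 + u + v) ^ 2) v := by
    intro v hv
    have hv' : (1 + u + v) ≠ 0 := by
      have : 0 ≤ v := hv.1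
      linarith
    exact hasDerivAt_neg_inv_kernel u v hv'
  have hcont : ContinuousOn (fun v : ℝ => 1 / (1 + u + v) ^ 2) (Icc 0 β) := by
    apply ContinuousOn.div continuousOn_const (by fun_prop)
    intro v hv
    have : 0 ≤ v := hv.1
    positivity
  have := lintegral_Ioc_ofReal_deriv hβ hderiv (fun v _ => by positivity) hcont
  rw [this]
  congr 1
  simp only [add_zero]
  ring

/-- `∫_0^α du/(c+u) = log (c+α) - log c`. -/
theorem lintegral_Ioo_inv (c α : ℝ) (hc : 0 < c) (hα : 0 ≤ α) :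
    ∫⁻ u in Ioo 0 α, ENNReal.ofReal (1 / (c + u))
      = ENNReal.ofReal (Real.log (c + α) - Real.log c) := by
  rw [setLIntegral_congr Ioo_ae_eq_Ioc]
  have hderiv : ∀ v ∈ Icc 0 α, HasDerivAt (fun v : ℝ => Real.log (c + v)) (1 / (c + v)) v := by
    intro v hv
    have hv' : (c + v) ≠ 0 := by
      have : 0 ≤ v := hv.1
      linarith
    have h1 : HasDerivAt (fun v : ℝ => c + v) 1 v := by
      simpa using (hasDerivAt_id v).const_add c
    have h2 := h1.log hv'
    simpa using h2
  have hcont : ContinuousOn (fun v : ℝ => 1 / (c + v)) (Icc 0 α) := by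
    apply ContinuousOn.div continuousOn_const (by fun_prop)
    intro v hv
    have : 0 ≤ v := hv.1
    linarith
  have := lintegral_Ioc_ofReal_deriv hα hderiv
    (fun v hv => by have : 0 ≤ v := hv.1; positivity) hcont
  rw [this]
  simp

/-- `∫_α^∞ [1/(1+u) - 1/(1+u+β)] du = log (1+α+β) - log (1+α)`. -/
theorem lintegral_Ioi_diff (α β : ℝ) (hα : 0 ≤ α) (hβ : 0 ≤ β) :
    ∫⁻ u in Ioi α, ENNReal.ofReal (1 / (1 + u) - 1 / (1 + u + β))
      = ENNReal.ofReal (Real.log (1 + α + β) - Real.log (1 + α)) := by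
  have hderiv : ∀ v ∈ Ici α,
      HasDerivAt (fun v : ℝ => Real.log (1 + v) - Real.log (1 + v + β))
        (1 / (1 + v) - 1 / (1 + v + β)) v := by
    intro v hv
    have hv0 : α ≤ v := hv
    have hv' : (1 + v) ≠ 0 := by linarith
    have hv'' : (1 + v + β) ≠ 0 := by linarith
    have h1 : HasDerivAt (fun v : ℝ => 1 + v) 1 v := by
      simpa using (hasDerivAt_id v).const_add 1
    have h2 : HasDerivAt (fun v : ℝ => 1 + v + β) 1 v := by
      simpa using h1.add_const β
    have h3 : HasDerivAt (fun v : ℝ => Real.log (1 + v) - Real.log (1 + v + β))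
        (1 / (1 + v) - 1 / (1 + v + β)) v := (h1.log hv').sub (h2.log hv'')
    exact h3
  have hpos : ∀ v ∈ Ioi α, 0 ≤ 1 / (1 + v) - 1 / (1 + v + β) := by
    intro v hv
    have hv0 : α < v := hv
    have h1 : 0 < 1 + v := by linarith
    have : 1 / (1 + v + β) ≤ 1 / (1 + v) := by
      apply one_div_le_one_div_of_le h1
      linarith
    linarith
  have hlim : Tendsto (fun v : ℝ => Real.log (1 + v) - Real.log (1 + v + β)) atTop (𝓝 0) := by
    have h1 : Tendsto (fun v : ℝ => 1 + v) atTop atTop :=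
      tendsto_atTop_add_const_left atTop 1 tendsto_id
    have h2 : Tendsto (fun v : ℝ => β / (1 + v)) atTop (𝓝 0) := h1.const_div_atTop β
    have h3 : Tendsto (fun v : ℝ => -Real.log (1 + β / (1 + v))) atTop (𝓝 0) := by
      have h4 : Tendsto (fun v : ℝ => 1 + β / (1 + v)) atTop (𝓝 1) := by
        simpa using h2.const_add 1
      have h5 := ((Real.continuousAt_log (by norm_num : (1:ℝ) ≠ 0)).tendsto.comp h4).neg
      simpa [Function.comp] using h5
    refine h3.congr' ?_
    filter_upwards [eventually_gt_atTop (0:ℝ)] with v hv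
    have h1v : 0 < 1 + v := by linarith
    have : 1 + β / (1 + v) = (1 + v + β) / (1 + v) := by field_simp
    rw [this, Real.log_div (by linarith) (by linarith)]
    ring
  have := lintegral_Ioi_ofReal_deriv hderiv hpos hlim
  rw [this]
  congr 1
  ring

/-- The layer-cake measure `du dv / (1+u+v)^2` on the open positive quadrant. -/
noncomputable def lcMeasure : Measure (ℝ × ℝ) :=
  ((volume.restrict (Ioi (0:ℝ))).prod (volume.restrict (Ioi (0:ℝ)))).withDensity
    (fun z => ENNReal.ofReal (1 / (1 + z.1 + z.2) ^ 2))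

theorem measurable_lcKernel :
    Measurable (fun z : ℝ × ℝ => ENNReal.ofReal (1 / (1 + z.1 + z.2) ^ 2)) := by
  fun_prop

instance : SFinite lcMeasure := by
  unfold lcMeasure
  infer_instance

theorem lcMeasure_apply {E : Set (ℝ × ℝ)} (hE : MeasurableSet E) :
    lcMeasure E = ∫⁻ u in Ioi (0:ℝ), ∫⁻ v in Ioi (0:ℝ),
      E.indicator (fun z => ENNReal.ofReal (1 / (1 + z.1 + z.2) ^ 2)) (u, v) := by
  unfold lcMeasure
  rw [withDensity_apply _ hE, ← lintegral_indicator hE, lintegral_prod]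
  exact (measurable_lcKernel.indicator hE).aemeasurable

theorem ae_lcMeasure_pos : ∀ᵐ z ∂lcMeasure, 0 < z.1 ∧ 0 < z.2 := by
  have h1 : ∀ᵐ z ∂((volume.restrict (Ioi (0:ℝ))).prod (volume.restrict (Ioi (0:ℝ)))),
      0 < z.1 ∧ 0 < z.2 := by
    rw [Measure.prod_restrict]
    filter_upwards [ae_restrict_mem (measurableSet_Ioi.prod measurableSet_Ioi)] with z hz
    exact ⟨hz.1, hz.2⟩
  exact (withDensity_absolutelyContinuous _ _).ae_le h1

theorem measurableSet_lt_or_lt (α β : ℝ) :
    MeasurableSet {z : ℝ × ℝ | z.1 < α ∨ z.2 < β} :=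
  (measurableSet_lt measurable_fst measurable_const).union
    (measurableSet_lt measurable_snd measurable_const)

/-- **Layer cake**: `∫∫_{u<α or v<β} du dv/(1+u+v)^2 = log (1+α+β)`. -/
theorem lcMeasure_lt_or_lt {α β : ℝ} (hα : 0 ≤ α) (hβ : 0 ≤ β) :
    lcMeasure {z : ℝ × ℝ | z.1 < α ∨ z.2 < β} = ENNReal.ofReal (Real.log (1 + α + β)) := by
  rw [lcMeasure_apply (measurableSet_lt_or_lt α β)]
  have inner : ∀ u ∈ Ioi (0:ℝ), ∫⁻ v in Ioi (0:ℝ),
      ({z : ℝ × ℝ | z.1 < α ∨ z.2 < β}).indicator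
        (fun z => ENNReal.ofReal (1 / (1 + z.1 + z.2) ^ 2)) (u, v)
      = if u < α then ENNReal.ofReal (1 / (1 + u))
        else ENNReal.ofReal (1 / (1 + u) - 1 / (1 + u + β)) := by
    intro u hu
    have hu0 : 0 < u := hu
    split_ifs with h
    · have e : ∀ v : ℝ, ({z : ℝ × ℝ | z.1 < α ∨ z.2 < β}).indicator
          (fun z => ENNReal.ofReal (1 / (1 + z.1 + z.2) ^ 2)) (u, v)
          = ENNReal.ofReal (1 / (1 + u + v) ^ 2) := by
        intro v
        rw [indicator_of_mem]
        exact Or.inl h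
      simp_rw [e]
      rw [lintegral_Ioi_kernel u 0 (by linarith)]
      simp
    · have e : ∀ v : ℝ, ({z : ℝ × ℝ | z.1 < α ∨ z.2 < β}).indicator
          (fun z => ENNReal.ofReal (1 / (1 + z.1 + z.2) ^ 2)) (u, v)
          = (Iio β).indicator (fun v => ENNReal.ofReal (1 / (1 + u + v) ^ 2)) v := by
        intro v
        by_cases hv : v < β
        · rw [indicator_of_mem (show (u, v) ∈ {z : ℝ × ℝ | z.1 < α ∨ z.2 < β} from Or.inr hv),
            indicator_of_mem (show v ∈ Iio β from hv)]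
        · rw [indicator_of_notMem, indicator_of_notMem]
          · exact hv
          · intro hmem
            rcases hmem with h' | h'
            · exact h h'
            · exact hv h'
      simp_rw [e]
      rw [lintegral_indicator measurableSet_Iio, Measure.restrict_restrict measurableSet_Iio]
      have : Iio β ∩ Ioi (0:ℝ) = Ioo 0 β := by
        ext v
        simp [and_comm]
      rw [this, lintegral_Ioo_kernel u β hu0.le hβ]
  rw [setLIntegral_congr_fun measurableSet_Ioi inner]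
  rw [← Ioc_union_Ioi_eq_Ioi hα, lintegral_union measurableSet_Ioi
    (by
      rw [Set.disjoint_left]
      intro u hu hu'
      exact absurd hu.2 (not_le.2 hu'))]
  have h1 : ∫⁻ u in Ioc 0 α, (if u < α then ENNReal.ofReal (1 / (1 + u))
        else ENNReal.ofReal (1 / (1 + u) - 1 / (1 + u + β)))
      = ENNReal.ofReal (Real.log (1 + α)) := by
    rw [← setLIntegral_congr Ioo_ae_eq_Ioc]
    have : ∀ u ∈ Ioo (0:ℝ) α, (if u < α then ENNReal.ofReal (1 / (1 + u))
        else ENNReal.ofReal (1 / (1 + u) - 1 / (1 + u + β))) = ENNReal.ofReal (1 / (1 + u)) := by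
      intro u hu
      rw [if_pos hu.2]
    rw [setLIntegral_congr_fun measurableSet_Ioo this, lintegral_Ioo_inv 1 α one_pos hα]
    simp
  have h2 : ∫⁻ u in Ioi α, (if u < α then ENNReal.ofReal (1 / (1 + u))
        else ENNReal.ofReal (1 / (1 + u) - 1 / (1 + u + β)))
      = ENNReal.ofReal (Real.log (1 + α + β) - Real.log (1 + α)) := by
    have : ∀ u ∈ Ioi α, (if u < α then ENNReal.ofReal (1 / (1 + u))
        else ENNReal.ofReal (1 / (1 + u) - 1 / (1 + u + β)))
        = ENNReal.ofReal (1 / (1 + u) - 1 / (1 + u + β)) := by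
      intro u hu
      rw [if_neg (not_lt.2 (le_of_lt hu))]
    rw [setLIntegral_congr_fun measurableSet_Ioi this, lintegral_Ioi_diff α β hα hβ]
  rw [h1, h2, ← ENNReal.ofReal_add (Real.log_nonneg (by linarith))
    (sub_nonneg.2 (Real.log_le_log (by linarith) (by linarith)))]
  congr 1
  ring

theorem lcMeasure_fst_lt {c : ℝ} (hc : 0 ≤ c) :
    lcMeasure {z : ℝ × ℝ | z.1 < c} = ENNReal.ofReal (Real.log (1 + c)) := by
  have h := lcMeasure_lt_or_lt hc (le_refl (0:ℝ))
  rw [add_zero] at h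
  rw [← h]
  apply measure_congr
  filter_upwards [ae_lcMeasure_pos] with z hz
  apply propext
  constructor
  · intro h'
    exact Or.inl h'
  · intro h'
    rcases h' with h' | h'
    · exact h'
    · exact absurd hz.2 (not_lt.2 (le_of_lt h'))

theorem lcMeasure_snd_lt {c : ℝ} (hc : 0 ≤ c) :
    lcMeasure {z : ℝ × ℝ | z.2 < c} = ENNReal.ofReal (Real.log (1 + c)) := by
  have h := lcMeasure_lt_or_lt (le_refl (0:ℝ)) hc
  rw [add_zero] at h
  rw [← h]
  apply measure_congr
  filter_upwards [ae_lcMeasure_pos] with z hz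
  apply propext
  constructor
  · intro h'
    exact Or.inr h'
  · intro h'
    rcases h' with h' | h'
    · exact absurd hz.1 (not_lt.2 (le_of_lt h'))
    · exact h'

end Crest.Agent.GAD
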