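import Crest.Agent.GAD.Lprime
import Crest.Agent.GAD.AD4Lprime
import Crest.Agent.GAD.AD4h24

/-!
# Row 341: `Lprime_holds`

The conditional-entropy lower bound `(L')` for every generalized amplitude-damping channel:
`Lprime γ ν` for all `γ, ν ∈ [0, 1]`, from the four-piece inequality `AD4`
(`Crest.Agent.GAD.AD4h24.ad4`) and the reduction `Lprime_of_AD4` (`AD4Lprime.lean`).
-/

set_option autoImplicit false

namespace Crest.Agent.GAD

/-- **(L') holds** for `gadMap γ ν`, `γ, ν ∈ [0, 1]`. -/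
theorem Lprime_holds (γ ν : ℝ) (hγ : γ ∈ Set.Icc (0 : ℝ) 1) (hν : ν ∈ Set.Icc (0 : ℝ) 1) :
    Lprime γ ν :=
  Lprime_of_AD4 AD4h24.ad4 γ ν hγ hν

end Crest.Agent.GAD
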