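import Mathlib
import Crest.Prelude.Def_QState
import Crest.Prelude.Def_QChannel
import Crest.Prelude.Def_AmpDamp
import Crest.Agent.GAD.Entropy

/-!
# Row 341 tail, module POWER: Kraus maps are channels, tensor powers of a qubit Kraus map,
and the assembly of S0534 from the additivity statement S0535 and two single-qubit facts.

Everything lives in the namespace `Crest.Agent.GAD.Power22` (so that the generic names used here
cannot collide with the other GAD modules).

* `HasKraus`, `isChannel_of_hasKraus`: a map with a Kraus representation is a channel.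
* `gadMap_hasKraus`, `isChannel_gadMap`: the generalized amplitude-damping map is a channel.
* `qubitPower_hasKraus`, `isChannel_qubitPower_gadMap`: so are its tensor powers.
* `consEquiv`, `qubitPower_succ`, `holevoInfo_qubitPower_succ`: the `(n+1)`-fold power is
  `Φ ⊗ Φ^{⊗ n}` up to reindexing along `(Fin (n+1) → Bool) ≃ Bool × (Fin n → Bool)`.
* `holevoInfo_of_subsingleton`: Holevo information on a one-level system vanishes.
* `s0534_of`: the statement of S0534 from the Holevo halves of S0535 and the single-use facts.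
-/

set_option autoImplicit false

namespace Crest.Agent.GAD.Power22

open Crest.Quantum Crest.MathPhysics.AmpDamp Matrix
open scoped ComplexOrder

section Kraus

variable {d e : Type*} [Fintype d] [Fintype e] [DecidableEq d] [DecidableEq e]

/-- `Φ` has a Kraus representation `Φ M = ∑ j, K j * M * (K j)ᴴ` with `∑ j, (K j)ᴴ * K j = 1`. -/
def HasKraus (Φ : Matrix d d ℂ → Matrix e e ℂ) : Prop :=
  ∃ (ι : Type) (_ : Fintype ι) (K : ι → Matrix e d ℂ),
    (∀ M, Φ M = ∑ j, K j * M * (K j)ᴴ) ∧ ∑ j, (K j)ᴴ * K j = 1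

theorem posSemidef_finset_sum {n ι : Type*} [Fintype n] (s : Finset ι) (A : ι → Matrix n n ℂ)
    (hA : ∀ j ∈ s, (A j).PosSemidef) : (∑ j ∈ s, A j).PosSemidef := by
  classical
  induction s using Finset.induction_on with
  | empty => simpa using Matrix.PosSemidef.zero
  | insert a s ha ih =>
    rw [Finset.sum_insert ha]
    exact (hA a (Finset.mem_insert_self a s)).add
      (ih fun j hj => hA j (Finset.mem_insert_of_mem hj))

omit [Fintype e] [DecidableEq d] [DecidableEq e] in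
/-- `blockwise` of a Kraus map is a sum of congruences by `1 ⊗ K j`. -/
theorem blockwise_kraus {k ι : Type*} [Fintype k] [DecidableEq k] [Fintype ι]
    (Φ : Matrix d d ℂ → Matrix e e ℂ) (K : ι → Matrix e d ℂ)
    (hΦ : ∀ M, Φ M = ∑ j, K j * M * (K j)ᴴ) (M : Matrix (k × d) (k × d) ℂ) :
    blockwise Φ M = ∑ j, (Matrix.kroneckerMap (· * ·) (1 : Matrix k k ℂ) (K j)) * M *
      (Matrix.kroneckerMap (· * ·) (1 : Matrix k k ℂ) (K j))ᴴ := by
  ext ⟨a, x⟩ ⟨b, y⟩
  simp only [blockwise, Matrix.of_apply, hΦ, Matrix.sum_apply, Matrix.mul_apply,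
    Matrix.conjTranspose_apply, Matrix.kroneckerMap_apply, Fintype.sum_prod_type,
    Matrix.one_apply, block, ite_mul, one_mul, zero_mul]
  refine Finset.sum_congr rfl fun j _ => ?_
  simp [Finset.sum_ite_eq, apply_ite]

omit [DecidableEq e] in
theorem isChannel_of_hasKraus {Φ : Matrix d d ℂ → Matrix e e ℂ} (h : HasKraus Φ) :
    IsChannel Φ := by
  obtain ⟨ι, _, K, hΦ, hK⟩ := h
  refine ⟨⟨?_, ?_⟩, ?_, ?_⟩
  · intro M M'
    simp only [hΦ, Matrix.mul_add, Matrix.add_mul, Finset.sum_add_distrib]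
  · intro c M
    simp only [hΦ, Matrix.mul_smul, Matrix.smul_mul, Finset.smul_sum]
  · intro k M hM
    classical
    rw [blockwise_kraus Φ K hΦ M]
    exact posSemidef_finset_sum _ _ fun j _ => hM.mul_mul_conjTranspose_same _
  · intro M
    rw [hΦ, Matrix.trace_sum]
    have : ∀ j, (K j * M * (K j)ᴴ).trace = ((K j)ᴴ * K j * M).trace := by
      intro j
      rw [Matrix.trace_mul_comm, ← Matrix.mul_assoc]
    simp only [this]
    rw [← Matrix.trace_sum, ← Finset.sum_mul, hK, Matrix.one_mul]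

end Kraus

section GadKraus

/-- The four Kraus operators of the generalized amplitude-damping channel. -/
noncomputable def gadKraus (γ ν : ℝ) : Fin 4 → Matrix Bool Bool ℂ :=
  ![Matrix.of fun s t => if s = false ∧ t = false then ((Real.sqrt (1 - ν) : ℝ) : ℂ)
      else if s = true ∧ t = true then ((Real.sqrt (1 - ν) * Real.sqrt (1 - γ) : ℝ) : ℂ) else 0,
    Matrix.of fun s t => if s = false ∧ t = true then ((Real.sqrt (1 - ν) * Real.sqrt γ : ℝ) : ℂ)
      else 0,
    Matrix.of fun s t => if s = false ∧ t = false then ((Real.sqrt ν * Real.sqrt (1 - γ) : ℝ) : ℂ)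
      else if s = true ∧ t = true then ((Real.sqrt ν : ℝ) : ℂ) else 0,
    Matrix.of fun s t => if s = true ∧ t = false then ((Real.sqrt ν * Real.sqrt γ : ℝ) : ℂ)
      else 0]

theorem gadMap_eq_kraus {γ ν : ℝ} (hγ : γ ∈ Set.Icc (0 : ℝ) 1) (hν : ν ∈ Set.Icc (0 : ℝ) 1)
    (M : Matrix Bool Bool ℂ) :
    gadMap γ ν M = ∑ j, gadKraus γ ν j * M * (gadKraus γ ν j)ᴴ := by
  have h1 : ((Real.sqrt (1 - ν) : ℝ) : ℂ) * ((Real.sqrt (1 - ν) : ℝ) : ℂ) = ((1 - ν : ℝ) : ℂ) := by
    rw [← Complex.ofReal_mul, Real.mul_self_sqrt (by linarith [hν.2])]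
  have h2 : ((Real.sqrt ν : ℝ) : ℂ) * ((Real.sqrt ν : ℝ) : ℂ) = ((ν : ℝ) : ℂ) := by
    rw [← Complex.ofReal_mul, Real.mul_self_sqrt hν.1]
  have h3 : ((Real.sqrt (1 - γ) : ℝ) : ℂ) * ((Real.sqrt (1 - γ) : ℝ) : ℂ) = ((1 - γ : ℝ) : ℂ) := by
    rw [← Complex.ofReal_mul, Real.mul_self_sqrt (by linarith [hγ.2])]
  have h4 : ((Real.sqrt γ : ℝ) : ℂ) * ((Real.sqrt γ : ℝ) : ℂ) = ((γ : ℝ) : ℂ) := by
    rw [← Complex.ofReal_mul, Real.mul_self_sqrt hγ.1]
  ext s t
  simp only [gadMap, gadKraus, Fin.sum_univ_four, Matrix.add_apply, Matrix.mul_apply,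
    Matrix.conjTranspose_apply, Fintype.sum_bool, Matrix.of_apply, Matrix.cons_val_zero,
    Matrix.cons_val_one, Matrix.cons_val_two, Matrix.cons_val_three, Matrix.head_cons,
    Matrix.tail_cons]
  set A : ℂ := ((Real.sqrt (1 - ν) : ℝ) : ℂ) with hA
  set B : ℂ := ((Real.sqrt ν : ℝ) : ℂ) with hB
  set C : ℂ := ((Real.sqrt (1 - γ) : ℝ) : ℂ) with hC
  set G : ℂ := ((Real.sqrt γ : ℝ) : ℂ) with hG
  have cA : (starRingEnd ℂ) A = A := Complex.conj_ofReal _
  have cB : (starRingEnd ℂ) B = B := Complex.conj_ofReal _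
  have cC : (starRingEnd ℂ) C = C := Complex.conj_ofReal _
  have cG : (starRingEnd ℂ) G = G := Complex.conj_ofReal _
  push_cast at h1 h2 h3 h4
  cases s <;> cases t <;>
    simp only [Bool.false_eq_true, Bool.true_eq_false, and_self, and_true, and_false,
      if_true, if_false, star_zero, mul_zero, zero_mul, add_zero, zero_add,
      Complex.star_def, Complex.ofReal_mul, Complex.ofReal_sub,
      Complex.ofReal_add, Complex.ofReal_one, map_mul, cA, cB, cC, cG, ← hA, ← hB, ← hC, ← hG]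
  · linear_combination (-M false false - M true true * G ^ 2) * h1 + (-M false false * C ^ 2) * h2
      + (-M false false * ν) * h3 + (-M true true * (1 - ν)) * h4
  · linear_combination (-C * M false true) * h1 + (-C * M false true) * h2
  · linear_combination (-C * M true false) * h1 + (-C * M true false) * h2
  · linear_combination (-M true true * C ^ 2) * h1 + (-M false false * G ^ 2 - M true true) * h2
      + (-M true true * (1 - ν)) * h3 + (-M false false * ν) * h4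

theorem gadKraus_complete {γ ν : ℝ} (hγ : γ ∈ Set.Icc (0 : ℝ) 1) (hν : ν ∈ Set.Icc (0 : ℝ) 1) :
    ∑ j, (gadKraus γ ν j)ᴴ * gadKraus γ ν j = 1 := by
  have h1 : ((Real.sqrt (1 - ν) : ℝ) : ℂ) * ((Real.sqrt (1 - ν) : ℝ) : ℂ) = ((1 - ν : ℝ) : ℂ) := by
    rw [← Complex.ofReal_mul, Real.mul_self_sqrt (by linarith [hν.2])]
  have h2 : ((Real.sqrt ν : ℝ) : ℂ) * ((Real.sqrt ν : ℝ) : ℂ) = ((ν : ℝ) : ℂ) := by
    rw [← Complex.ofReal_mul, Real.mul_self_sqrt hν.1]
  have h3 : ((Real.sqrt (1 - γ) : ℝ) : ℂ) * ((Real.sqrt (1 - γ) : ℝ) : ℂ) = ((1 - γ : ℝ) : ℂ) := by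
    rw [← Complex.ofReal_mul, Real.mul_self_sqrt (by linarith [hγ.2])]
  have h4 : ((Real.sqrt γ : ℝ) : ℂ) * ((Real.sqrt γ : ℝ) : ℂ) = ((γ : ℝ) : ℂ) := by
    rw [← Complex.ofReal_mul, Real.mul_self_sqrt hγ.1]
  ext s t
  simp only [gadKraus, Fin.sum_univ_four, Matrix.add_apply, Matrix.mul_apply,
    Matrix.conjTranspose_apply, Fintype.sum_bool, Matrix.of_apply, Matrix.cons_val_zero,
    Matrix.cons_val_one, Matrix.cons_val_two, Matrix.cons_val_three, Matrix.head_cons,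
    Matrix.tail_cons, Matrix.one_apply]
  set A : ℂ := ((Real.sqrt (1 - ν) : ℝ) : ℂ) with hA
  set B : ℂ := ((Real.sqrt ν : ℝ) : ℂ) with hB
  set C : ℂ := ((Real.sqrt (1 - γ) : ℝ) : ℂ) with hC
  set G : ℂ := ((Real.sqrt γ : ℝ) : ℂ) with hG
  have cA : (starRingEnd ℂ) A = A := Complex.conj_ofReal _
  have cB : (starRingEnd ℂ) B = B := Complex.conj_ofReal _
  have cC : (starRingEnd ℂ) C = C := Complex.conj_ofReal _
  have cG : (starRingEnd ℂ) G = G := Complex.conj_ofReal _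
  push_cast at h1 h2 h3 h4
  cases s <;> cases t <;>
    simp only [Bool.false_eq_true, Bool.true_eq_false, and_self, and_true, and_false,
      if_true, if_false, star_zero, mul_zero, zero_mul, add_zero, zero_add,
      Complex.star_def, Complex.ofReal_mul, map_mul, cA, cB, cC, cG, ← hA, ← hB, ← hC, ← hG]
  · linear_combination h1 + C ^ 2 * h2 + ν * h3 + G ^ 2 * h2 + ν * h4
  · linear_combination C ^ 2 * h1 + (1 - ν) * h3 + G ^ 2 * h1 + (1 - ν) * h4 + h2

theorem gadMap_hasKraus {γ ν : ℝ} (hγ : γ ∈ Set.Icc (0 : ℝ) 1) (hν : ν ∈ Set.Icc (0 : ℝ) 1) :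
    HasKraus (gadMap γ ν) :=
  ⟨Fin 4, inferInstance, gadKraus γ ν, gadMap_eq_kraus hγ hν, gadKraus_complete hγ hν⟩

theorem isChannel_gadMap {γ ν : ℝ} (hγ : γ ∈ Set.Icc (0 : ℝ) 1) (hν : ν ∈ Set.Icc (0 : ℝ) 1) :
    IsChannel (gadMap γ ν) :=
  isChannel_of_hasKraus (gadMap_hasKraus hγ hν)

end GadKraus

section Power

/-- Kraus operators of the `n`-fold tensor power of a qubit map with Kraus operators `K`. -/
def krausPow {ι : Type*} (n : ℕ) (K : ι → Matrix Bool Bool ℂ) (j : Fin n → ι) :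
    Matrix (Fin n → Bool) (Fin n → Bool) ℂ :=
  Matrix.of fun σ σ' => ∏ i, K (j i) (σ i) (σ' i)

theorem qubitCoeff_kraus {ι : Type*} [Fintype ι] (Φ : Matrix Bool Bool ℂ → Matrix Bool Bool ℂ)
    (K : ι → Matrix Bool Bool ℂ) (hΦ : ∀ M, Φ M = ∑ j, K j * M * (K j)ᴴ) (s t s' t' : Bool) :
    qubitCoeff Φ s t s' t' = ∑ a, K a s s' * star (K a t t') := by
  simp only [qubitCoeff, hΦ, Matrix.sum_apply, Matrix.mul_apply, Matrix.conjTranspose_apply,
    Matrix.single_apply, Fintype.sum_bool]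
  refine Finset.sum_congr rfl fun a _ => ?_
  cases s' <;> cases t' <;> simp

theorem qubitPower_kraus {ι : Type*} [Fintype ι] (n : ℕ)
    (Φ : Matrix Bool Bool ℂ → Matrix Bool Bool ℂ)
    (K : ι → Matrix Bool Bool ℂ) (hΦ : ∀ M, Φ M = ∑ j, K j * M * (K j)ᴴ)
    (M : Matrix (Fin n → Bool) (Fin n → Bool) ℂ) :
    qubitPower n Φ M = ∑ j : Fin n → ι, krausPow n K j * M * (krausPow n K j)ᴴ := by
  classical
  ext σ τ
  simp only [qubitPower, Matrix.of_apply, Matrix.sum_apply, Matrix.mul_apply,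
    Matrix.conjTranspose_apply, krausPow, qubitCoeff_kraus Φ K hΦ]
  have L : ∀ σ' τ' : Fin n → Bool,
      (∏ i, ∑ a, K a (σ i) (σ' i) * star (K a (τ i) (τ' i))) =
        ∑ j : Fin n → ι, (∏ i, K (j i) (σ i) (σ' i)) * star (∏ i, K (j i) (τ i) (τ' i)) := by
    intro σ' τ'
    rw [Finset.prod_univ_sum, Fintype.piFinset_univ]
    refine Finset.sum_congr rfl fun j _ => ?_
    rw [star_prod, Finset.prod_mul_distrib]
  simp only [L, Finset.sum_mul]
  refine (Finset.sum_congr rfl fun σ' _ => Finset.sum_comm).trans ?_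
  refine Finset.sum_comm.trans ?_
  refine Finset.sum_congr rfl fun j _ => ?_
  refine Finset.sum_comm.trans ?_
  refine Finset.sum_congr rfl fun τ' _ => ?_
  refine Finset.sum_congr rfl fun σ' _ => ?_
  ring

theorem krausPow_complete {ι : Type*} [Fintype ι] (n : ℕ) (K : ι → Matrix Bool Bool ℂ)
    (hK : ∑ a, (K a)ᴴ * K a = 1) :
    ∑ j : Fin n → ι, (krausPow n K j)ᴴ * krausPow n K j = 1 := by
  classical
  ext σ τ
  simp only [Matrix.sum_apply, Matrix.mul_apply, Matrix.conjTranspose_apply, krausPow,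
    Matrix.of_apply]
  have h1 : ∀ j : Fin n → ι,
      ∑ ρ : Fin n → Bool, star (∏ i, K (j i) (ρ i) (σ i)) * ∏ i, K (j i) (ρ i) (τ i)
        = ∏ i, ((K (j i))ᴴ * K (j i)) (σ i) (τ i) := by
    intro j
    simp only [Matrix.mul_apply, Matrix.conjTranspose_apply]
    rw [Finset.prod_univ_sum, Fintype.piFinset_univ]
    refine Finset.sum_congr rfl fun ρ _ => ?_
    rw [star_prod, Finset.prod_mul_distrib]
  simp only [h1]
  have h2 := Finset.prod_univ_sum (fun _ : Fin n => (Finset.univ : Finset ι))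
    (fun i a => ((K a)ᴴ * K a) (σ i) (τ i))
  rw [Fintype.piFinset_univ] at h2
  rw [← h2]
  have h3 : ∀ i, ∑ a, ((K a)ᴴ * K a) (σ i) (τ i) = (1 : Matrix Bool Bool ℂ) (σ i) (τ i) := by
    intro i
    rw [← Matrix.sum_apply, hK]
  simp only [h3, Matrix.one_apply]
  by_cases h : σ = τ
  · subst h
    simp
  · obtain ⟨i, hi⟩ := Function.ne_iff.mp h
    rw [if_neg h]
    exact Finset.prod_eq_zero (Finset.mem_univ i) (if_neg hi)

theorem qubitPower_hasKraus (n : ℕ) {Φ : Matrix Bool Bool ℂ → Matrix Bool Bool ℂ}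
    (h : HasKraus Φ) : HasKraus (qubitPower n Φ) := by
  obtain ⟨ι, _, K, hΦ, hK⟩ := h
  exact ⟨Fin n → ι, inferInstance, krausPow n K, qubitPower_kraus n Φ K hΦ,
    krausPow_complete n K hK⟩

theorem isChannel_qubitPower_gadMap {γ ν : ℝ} (hγ : γ ∈ Set.Icc (0 : ℝ) 1)
    (hν : ν ∈ Set.Icc (0 : ℝ) 1) (n : ℕ) : IsChannel (qubitPower n (gadMap γ ν)) :=
  isChannel_of_hasKraus (qubitPower_hasKraus n (gadMap_hasKraus hγ hν))

/-- Splitting off the first qubit. -/
def consEquiv (n : ℕ) : (Fin (n + 1) → Bool) ≃ Bool × (Fin n → Bool) where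
  toFun σ := (σ 0, Fin.tail σ)
  invFun p := Fin.cons p.1 p.2
  left_inv σ := Fin.cons_self_tail σ
  right_inv p := by simp

theorem qubitPower_succ (Φ : Matrix Bool Bool ℂ → Matrix Bool Bool ℂ) (n : ℕ)
    (M : Matrix (Fin (n + 1) → Bool) (Fin (n + 1) → Bool) ℂ) :
    qubitPower (n + 1) Φ M = Matrix.reindex (consEquiv n).symm (consEquiv n).symm
      (qubitTensor Φ (qubitPower n Φ) (Matrix.reindex (consEquiv n) (consEquiv n) M)) := by
  have hsum : ∀ f : (Fin (n + 1) → Bool) → ℂ,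
      ∑ σ', f σ' = ∑ s : Bool, ∑ x : Fin n → Bool, f (Fin.cons s x) := by
    intro f
    rw [← (consEquiv n).symm.sum_comp, Fintype.sum_prod_type]
    rfl
  ext σ τ
  simp only [qubitPower, qubitTensor, block, Matrix.reindex_apply, Matrix.submatrix_apply,
    Matrix.of_apply, Equiv.symm_symm, consEquiv, Equiv.coe_fn_mk, Equiv.coe_fn_symm_mk]
  simp only [hsum, Fin.prod_univ_succ, Fin.cons_zero, Fin.cons_succ, Fin.tail, Finset.mul_sum,
    mul_assoc]
  rw [Finset.sum_congr rfl fun s _ => Finset.sum_comm]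

end Power

section Transport

variable {d d' : Type*} [Fintype d] [DecidableEq d] [Fintype d'] [DecidableEq d']

omit [DecidableEq d] [DecidableEq d'] in
theorem isDensity_reindex (e : d ≃ d') {ρ : Matrix d d ℂ} (h : IsDensity ρ) :
    IsDensity (Matrix.reindex e e ρ) := by
  refine ⟨?_, ?_⟩
  · rw [Matrix.reindex_apply]
    exact (Matrix.posSemidef_submatrix_equiv e.symm).2 h.1
  · rw [← h.2]
    simp only [Matrix.trace, Matrix.diag, Matrix.reindex_apply, Matrix.submatrix_apply]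
    exact e.symm.sum_comp (fun i => ρ i i)

omit [DecidableEq d] [DecidableEq d'] in
theorem isEnsemble_reindex (e : d ≃ d') {m : ℕ} {q : Fin m → ℝ} {ρ : Fin m → Matrix d d ℂ}
    (h : IsEnsemble q ρ) : IsEnsemble q (fun a => Matrix.reindex e e (ρ a)) :=
  ⟨h.1, h.2.1, fun a => isDensity_reindex e (h.2.2 a)⟩

/-- The Holevo information of the `(n+1)`-fold power, transported to `Φ ⊗ Φ^{⊗ n}`. -/
theorem holevoInfo_qubitPower_succ (Φ : Matrix Bool Bool ℂ → Matrix Bool Bool ℂ) (n : ℕ) {m : ℕ}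
    (q : Fin m → ℝ) (ρ : Fin m → Matrix (Fin (n + 1) → Bool) (Fin (n + 1) → Bool) ℂ) :
    holevoInfo (qubitPower (n + 1) Φ) q ρ =
      holevoInfo (qubitTensor Φ (qubitPower n Φ)) q
        (fun a => Matrix.reindex (consEquiv n) (consEquiv n) (ρ a)) := by
  unfold holevoInfo
  simp only [qubitPower_succ]
  have h : ∀ X : Fin m → Matrix (Bool × (Fin n → Bool)) (Bool × (Fin n → Bool)) ℂ,
      ∑ a, (q a : ℂ) • Matrix.reindex (consEquiv n).symm (consEquiv n).symm (X a) =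
        Matrix.reindex (consEquiv n).symm (consEquiv n).symm (∑ a, (q a : ℂ) • X a) := by
    intro X
    ext σ τ
    simp [Matrix.sum_apply]
  rw [h]
  simp only [vnEntropy_reindex]

omit [DecidableEq d] in
/-- On a system with at most one level every ensemble has Holevo information `0`. -/
theorem holevoInfo_of_subsingleton [Subsingleton d] (Φ : Matrix d d ℂ → Matrix d' d' ℂ) {m : ℕ}
    {q : Fin m → ℝ} {ρ : Fin m → Matrix d d ℂ} (h : IsEnsemble q ρ) : holevoInfo Φ q ρ = 0 := by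
  have hρ : ∀ a b, ρ a = ρ b := by
    intro a b
    ext i j
    obtain rfl : i = j := Subsingleton.elim i j
    have ha := (h.2.2 a).2
    have hb := (h.2.2 b).2
    rw [Matrix.trace, Fintype.sum_subsingleton _ i] at ha hb
    simpa [Matrix.diag] using ha.trans hb.symm
  have hm : 0 < m := by
    rcases Nat.eq_zero_or_pos m with rfl | hm
    · have := h.2.1
      simp at this
    · exact hm
  set E := ρ ⟨0, hm⟩ with hE
  have hρ' : ∀ a, ρ a = E := fun a => hρ a _
  unfold holevoInfo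
  simp only [hρ']
  rw [← Finset.sum_smul, ← Finset.sum_mul, ← Complex.ofReal_sum, h.2.1]
  simp

end Transport

section Assembly

theorem gadRate_continuous (γ ν : ℝ) : Continuous (gadRate γ ν) := by
  unfold gadRate
  fun_prop

theorem exists_gadRate_max (γ ν : ℝ) :
    ∃ p ∈ Set.Icc (0 : ℝ) 1, ∀ p' ∈ Set.Icc (0 : ℝ) 1, gadRate γ ν p' ≤ gadRate γ ν p := by
  obtain ⟨p, hp, hmax⟩ := isCompact_Icc.exists_isMaxOn (Set.nonempty_Icc.2 zero_le_one)
    (gadRate_continuous γ ν).continuousOn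
  exact ⟨p, hp, fun p' hp' => hmax hp'⟩

/-- **Assembly of S0534** from the two Holevo halves of the additivity statement S0535 (taken at
`d = e`) and the two single-use facts: the single-use Holevo information is at most the rate at
some point, and every rate is reached by a single-use ensemble. -/
theorem s0534_of (γ ν : ℝ) (hγ : γ ∈ Set.Icc (0 : ℝ) 1) (hν : ν ∈ Set.Icc (0 : ℝ) 1)
    (hUp : ∀ (d : Type) [Fintype d] [DecidableEq d] [Nonempty d]
      (Ψ : Matrix d d ℂ → Matrix d d ℂ), IsChannel Ψ →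
      ∀ (m : ℕ) (q : Fin m → ℝ) (ρ : Fin m → Matrix (Bool × d) (Bool × d) ℂ), IsEnsemble q ρ →
      ∀ ε > (0 : ℝ), ∃ (m₁ : ℕ) (q₁ : Fin m₁ → ℝ) (ρ₁ : Fin m₁ → Matrix Bool Bool ℂ)
        (m₂ : ℕ) (q₂ : Fin m₂ → ℝ) (ρ₂ : Fin m₂ → Matrix d d ℂ),
        IsEnsemble q₁ ρ₁ ∧ IsEnsemble q₂ ρ₂ ∧
          holevoInfo (qubitTensor (gadMap γ ν) Ψ) q ρ ≤
            holevoInfo (gadMap γ ν) q₁ ρ₁ + holevoInfo Ψ q₂ ρ₂ + ε)
    (hLow : ∀ (d : Type) [Fintype d] [DecidableEq d] [Nonempty d]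
      (Ψ : Matrix d d ℂ → Matrix d d ℂ), IsChannel Ψ →
      ∀ (m₁ : ℕ) (q₁ : Fin m₁ → ℝ) (ρ₁ : Fin m₁ → Matrix Bool Bool ℂ)
        (m₂ : ℕ) (q₂ : Fin m₂ → ℝ) (ρ₂ : Fin m₂ → Matrix d d ℂ),
        IsEnsemble q₁ ρ₁ → IsEnsemble q₂ ρ₂ →
        ∃ (m : ℕ) (q : Fin m → ℝ) (ρ : Fin m → Matrix (Bool × d) (Bool × d) ℂ), IsEnsemble q ρ ∧
          holevoInfo (gadMap γ ν) q₁ ρ₁ + holevoInfo Ψ q₂ ρ₂ ≤
            holevoInfo (qubitTensor (gadMap γ ν) Ψ) q ρ)
    (hQ1 : ∀ (m : ℕ) (q : Fin m → ℝ) (ρ : Fin m → Matrix Bool Bool ℂ), IsEnsemble q ρ →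
      ∃ p ∈ Set.Icc (0 : ℝ) 1, holevoInfo (gadMap γ ν) q ρ ≤ gadRate γ ν p)
    (hQ2 : ∀ p ∈ Set.Icc (0 : ℝ) 1, ∃ (m : ℕ) (q : Fin m → ℝ) (ρ : Fin m → Matrix Bool Bool ℂ),
      IsEnsemble q ρ ∧ gadRate γ ν p ≤ holevoInfo (gadMap γ ν) q ρ)
    (n : ℕ) :
    (∀ (m : ℕ) (q : Fin m → ℝ) (ρ : Fin m → Matrix (Fin n → Bool) (Fin n → Bool) ℂ),
        IsEnsemble q ρ → ∃ p ∈ Set.Icc (0 : ℝ) 1,
          holevoInfo (qubitPower n (gadMap γ ν)) q ρ ≤ n * gadRate γ ν p) ∧
    (∀ p ∈ Set.Icc (0 : ℝ) 1, ∃ (m : ℕ) (q : Fin m → ℝ)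
        (ρ : Fin m → Matrix (Fin n → Bool) (Fin n → Bool) ℂ),
        IsEnsemble q ρ ∧ n * gadRate γ ν p ≤ holevoInfo (qubitPower n (gadMap γ ν)) q ρ) := by
  obtain ⟨pmax, hpmax, hmax⟩ := exists_gadRate_max γ ν
  constructor
  · -- upper bound, with the maximiser of the rate
    suffices H : ∀ (n : ℕ) (m : ℕ) (q : Fin m → ℝ)
        (ρ : Fin m → Matrix (Fin n → Bool) (Fin n → Bool) ℂ), IsEnsemble q ρ →
        holevoInfo (qubitPower n (gadMap γ ν)) q ρ ≤ n * gadRate γ ν pmax from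
      fun m q ρ h => ⟨pmax, hpmax, H n m q ρ h⟩
    intro n
    induction n with
    | zero =>
      intro m q ρ h
      rw [holevoInfo_of_subsingleton _ h]
      simp
    | succ n ih =>
      intro m q ρ h
      rw [holevoInfo_qubitPower_succ]
      have h' := isEnsemble_reindex (consEquiv n) h
      refine le_of_forall_pos_le_add fun ε hε => ?_
      obtain ⟨m₁, q₁, ρ₁, m₂, q₂, ρ₂, h₁, h₂, hle⟩ :=
        hUp (Fin n → Bool) (qubitPower n (gadMap γ ν)) (isChannel_qubitPower_gadMap hγ hν n)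
          m q _ h' ε hε
      obtain ⟨p₁, hp₁, hle₁⟩ := hQ1 m₁ q₁ ρ₁ h₁
      have e1 := hmax p₁ hp₁
      have e2 := ih m₂ q₂ ρ₂ h₂
      push_cast
      linarith
  · -- lower bound: product ensembles
    intro p hp
    induction n with
    | zero =>
      refine ⟨1, fun _ => 1, fun _ => 1, ?_, ?_⟩
      · refine ⟨fun _ => zero_le_one, by simp, fun _ => ⟨Matrix.PosSemidef.one, ?_⟩⟩
        simp [Matrix.trace_one]
      · have hE : IsEnsemble (fun _ : Fin 1 => (1 : ℝ))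
            (fun _ : Fin 1 => (1 : Matrix (Fin 0 → Bool) (Fin 0 → Bool) ℂ)) := by
          refine ⟨fun _ => zero_le_one, by simp, fun _ => ⟨Matrix.PosSemidef.one, ?_⟩⟩
          simp [Matrix.trace_one]
        rw [holevoInfo_of_subsingleton _ hE]
        simp
    | succ n ih =>
      obtain ⟨m₂, q₂, ρ₂, h₂, hle₂⟩ := ih
      obtain ⟨m₁, q₁, ρ₁, h₁, hle₁⟩ := hQ2 p hp
      obtain ⟨m, q, ρ, h, hle⟩ :=
        hLow (Fin n → Bool) (qubitPower n (gadMap γ ν)) (isChannel_qubitPower_gadMap hγ hν n)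
          m₁ q₁ ρ₁ m₂ q₂ ρ₂ h₁ h₂
      refine ⟨m, q, fun a => Matrix.reindex (consEquiv n).symm (consEquiv n).symm (ρ a),
        isEnsemble_reindex (consEquiv n).symm h, ?_⟩
      rw [holevoInfo_qubitPower_succ]
      have hre : (fun a => Matrix.reindex (consEquiv n) (consEquiv n)
          (Matrix.reindex (consEquiv n).symm (consEquiv n).symm (ρ a))) = ρ := by
        funext a
        ext σ τ
        simp
      rw [hre]
      push_cast
      linarith

end Assembly

end Crest.Agent.GAD.Power22
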