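import Mathlib
import Crest.Prelude.Def_QState
import Crest.Prelude.Def_QChannel
import Crest.Prelude.Def_AmpDamp
import Crest.Agent.GAD.Lprime
import Crest.Agent.GAD.Power
import Crest.Agent.GAD.Product
import Crest.Agent.GAD.Qubit1
import Crest.Agent.GAD.AddUpperDirect

/-!
# Row 341, tail (T4, S0534 side): `AddLower` holds, `S0534` from `AddUpper`, `S0534` from `(L')`

`AddLower γ ν` (the product-ensemble lower bound of `GAD/Power.lean`) follows from
`Product.addLower_of` (helper99) and the two-state ensemble `gad_single_lower` (helper12).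
Hence the statement `S0534` follows from the one-step upper bound `AddUpper γ ν` alone, and
`AddUpper γ ν` follows from `(L')` (`AddUpperDirect.addUpper_of_Lprime`).  The last theorem,
`S0534_of_Lprime`, has the exact text of the frozen statement `S0534` as its conclusion.
-/

set_option autoImplicit false

namespace Crest.Agent.GAD

open Crest.Quantum Crest.MathPhysics.AmpDamp Matrix

/-- The one-step lower bound (product ensembles) holds for every GADC. -/
theorem addLower_holds (γ ν : ℝ) (hγ : γ ∈ Set.Icc (0 : ℝ) 1) (hν : ν ∈ Set.Icc (0 : ℝ) 1) :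
    AddLower γ ν :=
  fun _ _ _ _ _ _ _ _ Ψ hΨ => Product.addLower_of γ ν (gad_single_lower γ ν hγ hν) Ψ hΨ

/-- `S0534` (both clauses) from the one-step upper bound alone. -/
theorem s0534_of_addUpper (γ ν : ℝ) (hγ : γ ∈ Set.Icc (0 : ℝ) 1) (hν : ν ∈ Set.Icc (0 : ℝ) 1)
    (hU : AddUpper γ ν) (n : ℕ) :
    (∀ (m : ℕ) (q : Fin m → ℝ) (ρ : Fin m → Matrix (Fin n → Bool) (Fin n → Bool) ℂ),
        IsEnsemble q ρ → ∃ p ∈ Set.Icc (0 : ℝ) 1,
          holevoInfo (qubitPower n (gadMap γ ν)) q ρ ≤ n * gadRate γ ν p) ∧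
    (∀ p ∈ Set.Icc (0 : ℝ) 1, ∃ (m : ℕ) (q : Fin m → ℝ)
        (ρ : Fin m → Matrix (Fin n → Bool) (Fin n → Bool) ℂ),
        IsEnsemble q ρ ∧ n * gadRate γ ν p ≤ holevoInfo (qubitPower n (gadMap γ ν)) q ρ) :=
  s0534_of_add γ ν hγ hν hU (addLower_holds γ ν hγ hν) n

/-- WP-T. The statement `S0534` from `(L')` (the text of the frozen statement; the hypothesis
`1 ≤ n` is not used). -/
theorem S0534_of_Lprime (γ ν : ℝ) (hγ : γ ∈ Set.Icc (0 : ℝ) 1)
    (hν : ν ∈ Set.Icc (0 : ℝ) 1) (hL : Lprime γ ν) (n : ℕ) (_hn : 1 ≤ n) :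
    (∀ (m : ℕ) (q : Fin m → ℝ) (ρ : Fin m → Matrix (Fin n → Bool) (Fin n → Bool) ℂ),
        IsEnsemble q ρ → ∃ p ∈ Set.Icc (0 : ℝ) 1,
          holevoInfo (qubitPower n (gadMap γ ν)) q ρ ≤ n * gadRate γ ν p) ∧
    (∀ p ∈ Set.Icc (0 : ℝ) 1, ∃ (m : ℕ) (q : Fin m → ℝ)
        (ρ : Fin m → Matrix (Fin n → Bool) (Fin n → Bool) ℂ),
        IsEnsemble q ρ ∧ n * gadRate γ ν p ≤ holevoInfo (qubitPower n (gadMap γ ν)) q ρ) :=
  s0534_of_addUpper γ ν hγ hν (AddUpperDirect.addUpper_of_Lprime hγ hν hL) n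

end Crest.Agent.GAD
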