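import Mathlib
import Crest.Prelude.Def_QState
import Crest.Prelude.Def_QChannel
import Crest.Prelude.Def_AmpDamp
import Crest.Agent.GAD.Lprime
import Crest.Agent.GAD.Entropy
import Crest.Agent.GAD.Subadd
import Crest.Agent.GAD.Scalar
import Crest.Agent.GAD.Qubit1
import Crest.Agent.GAD.Plumb

/-!
# Row 341, tail: clauses (1) and (3) of `S0535` from the interface `Lprime` (helper56)

Independent hedge of the tail module.  Everything lives in `Crest.Agent.GAD.Tail56`.

* `normState σ₀ B` : the block `B` normalised to trace one (`σ₀` if `B` has trace zero);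
* `exists_fin_ensemble` : an ensemble indexed by a finite type, transported to `Fin m`;
* `entropy_lower` : `(L')` transported through `blockwise Ψ`;
* `chi_upper` : the Holevo information of `gadMap γ ν ⊗ Ψ` is at most `gadRate` at the mean excited
  population plus the Holevo information of an ensemble for `Ψ`;
* `clause1`, `clause3` : the exact text of clauses (1), (3) of `S0535`, given `Lprime γ ν`.
-/

set_option autoImplicit false
set_option linter.unusedSectionVars false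

open scoped ComplexOrder
open Matrix
open Crest.Quantum Crest.MathPhysics.AmpDamp

namespace Crest.Agent.GAD.Tail56

open Crest.Agent.GAD

section Norm

variable {d e : Type*} [Fintype d] [Fintype e] [DecidableEq d] [DecidableEq e]

/-- A nonempty system carries a density matrix. -/
theorem exists_isDensity [Nonempty d] : ∃ σ : Matrix d d ℂ, IsDensity σ := by
  obtain ⟨i₀⟩ := ‹Nonempty d›
  refine ⟨Matrix.diagonal (fun i => if i = i₀ then 1 else 0),
    Matrix.PosSemidef.diagonal (fun i => ?_), ?_⟩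
  · by_cases h : i = i₀ <;> simp [h]
  · simp [Matrix.trace_diagonal]

/-- The trace of a positive semidefinite matrix is real. -/
theorem trace_eq_ofReal {B : Matrix d d ℂ} (hB : B.PosSemidef) :
    B.trace = ((B.trace.re : ℝ) : ℂ) := by
  have h := Complex.nonneg_iff.1 hB.trace_nonneg
  apply Complex.ext
  · simp
  · simp [← h.2]

theorem trace_re_nonneg {B : Matrix d d ℂ} (hB : B.PosSemidef) : 0 ≤ B.trace.re :=
  (Complex.nonneg_iff.1 hB.trace_nonneg).1

/-- The block `B` normalised to trace one; `σ₀` when `B` has trace zero. -/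
noncomputable def normState (σ₀ B : Matrix d d ℂ) : Matrix d d ℂ :=
  if B.trace.re = 0 then σ₀ else ((B.trace.re⁻¹ : ℝ) : ℂ) • B

theorem normState_isDensity {σ₀ B : Matrix d d ℂ} (h₀ : IsDensity σ₀) (hB : B.PosSemidef) :
    IsDensity (normState σ₀ B) := by
  unfold normState
  by_cases ht : B.trace.re = 0
  · rw [if_pos ht]; exact h₀
  · rw [if_neg ht]
    have hpos : 0 < B.trace.re := lt_of_le_of_ne (trace_re_nonneg hB) (Ne.symm ht)
    refine ⟨?_, ?_⟩
    · rw [Complex.coe_smul]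
      exact hB.smul (inv_nonneg.2 hpos.le)
    · rw [Matrix.trace_smul, smul_eq_mul]
      nth_rewrite 2 [trace_eq_ofReal hB]
      rw [← Complex.ofReal_mul, inv_mul_cancel₀ ht, Complex.ofReal_one]

theorem smul_normState (σ₀ : Matrix d d ℂ) {B : Matrix d d ℂ} (hB : B.PosSemidef) :
    ((B.trace.re : ℝ) : ℂ) • normState σ₀ B = B := by
  unfold normState
  by_cases ht : B.trace.re = 0
  · rw [if_pos ht, ht]
    have h0 : B.trace = 0 := by rw [trace_eq_ofReal hB, ht, Complex.ofReal_zero]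
    rw [hB.trace_eq_zero_iff.1 h0]
    simp
  · rw [if_neg ht, smul_smul, ← Complex.ofReal_mul, mul_inv_cancel₀ ht, Complex.ofReal_one,
      one_smul]

/-- A channel maps density matrices to density matrices. -/
theorem channel_isDensity {Ψ : Matrix d d ℂ → Matrix e e ℂ} (hΨ : IsChannel Ψ)
    {ρ : Matrix d d ℂ} (hρ : IsDensity ρ) : IsDensity (Ψ ρ) := by
  have h1 : (blockwise (k := Unit) Ψ (ρ.submatrix Prod.snd Prod.snd)).PosSemidef :=
    Plumb.blockwise_posSemidef hΨ.2.1 (hρ.1.submatrix _)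
  exact ⟨h1.submatrix (fun i : e => ((), i)), by rw [hΨ.2.2, hρ.2]⟩

theorem channel_posSemidef {Ψ : Matrix d d ℂ → Matrix e e ℂ} (hΨ : IsChannel Ψ)
    {B : Matrix d d ℂ} (hB : B.PosSemidef) : (Ψ B).PosSemidef := by
  have h1 : (blockwise (k := Unit) Ψ (B.submatrix Prod.snd Prod.snd)).PosSemidef :=
    Plumb.blockwise_posSemidef hΨ.2.1 (hB.submatrix _)
  exact h1.submatrix (fun i : e => ((), i))

theorem channel_smul_normState {Ψ : Matrix d d ℂ → Matrix e e ℂ} (hΨ : IsChannel Ψ)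
    (σ₀ : Matrix d d ℂ) {B : Matrix d d ℂ} (hB : B.PosSemidef) :
    ((B.trace.re : ℝ) : ℂ) • Ψ (normState σ₀ B) = Ψ B := by
  rw [← hΨ.1.map_smul, smul_normState σ₀ hB]

/-- `tr B · S(Ψ(B / tr B)) = S(Ψ B) - η(tr B)`, with no case distinction. -/
theorem entropy_normState {Ψ : Matrix d d ℂ → Matrix e e ℂ} (hΨ : IsChannel Ψ)
    {σ₀ B : Matrix d d ℂ} (h₀ : IsDensity σ₀) (hB : B.PosSemidef) :
    B.trace.re * vnEntropy (Ψ (normState σ₀ B))
      = vnEntropy (Ψ B) - Real.negMulLog B.trace.re := by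
  have hσ := channel_isDensity hΨ (normState_isDensity h₀ hB)
  have h := vnEntropy_smul hσ.1.1 B.trace.re
  rw [channel_smul_normState hΨ σ₀ hB, hσ.2] at h
  simp only [Complex.one_re, mul_one] at h
  linarith

end Norm

section FinEnsemble

variable {d e : Type*} [Fintype d] [Fintype e] [DecidableEq d] [DecidableEq e]

/-- An ensemble indexed by a finite type can be re-indexed by `Fin m`. -/
theorem exists_fin_ensemble {ι : Type*} [Fintype ι] (Φ : Matrix d d ℂ → Matrix e e ℂ)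
    (w : ι → ℝ) (σ : ι → Matrix d d ℂ) (hw : ∀ i, 0 ≤ w i) (hw1 : ∑ i, w i = 1)
    (hσ : ∀ i, IsDensity (σ i)) :
    ∃ (m : ℕ) (q : Fin m → ℝ) (ρ : Fin m → Matrix d d ℂ), IsEnsemble q ρ ∧
      holevoInfo Φ q ρ
        = vnEntropy (∑ i, (w i : ℂ) • Φ (σ i)) - ∑ i, w i * vnEntropy (Φ (σ i)) := by
  classical
  let f : Fin (Fintype.card ι) ≃ ι := (Fintype.equivFin ι).symm
  refine ⟨Fintype.card ι, fun a => w (f a), fun a => σ (f a),
    ⟨fun a => hw _, ?_, fun a => hσ _⟩, ?_⟩
  · rw [← hw1]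
    exact Equiv.sum_comp f w
  · unfold holevoInfo
    rw [Equiv.sum_comp f (fun i => (w i : ℂ) • Φ (σ i)),
      Equiv.sum_comp f (fun i => w i * vnEntropy (Φ (σ i)))]

/-- The average state of an ensemble is a density matrix. -/
theorem isDensity_sum_smul {ι : Type*} [Fintype ι] {w : ι → ℝ} {σ : ι → Matrix d d ℂ}
    (hw : ∀ i, 0 ≤ w i) (hw1 : ∑ i, w i = 1) (hσ : ∀ i, IsDensity (σ i)) :
    IsDensity (∑ i, (w i : ℂ) • σ i) := by
  refine ⟨Matrix.posSemidef_sum _ fun a _ => ?_, ?_⟩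
  · rw [Complex.coe_smul]
    exact (hσ a).1.smul (hw a)
  · rw [Matrix.trace_sum]
    simp only [Matrix.trace_smul, (hσ _).2, smul_eq_mul, mul_one]
    rw [← Complex.ofReal_sum, hw1, Complex.ofReal_one]

end FinEnsemble

section Core

variable {d e : Type} [Fintype d] [Fintype e] [DecidableEq d] [DecidableEq e]

/-- Traces of the two diagonal blocks of a density matrix on `Bool × d`. -/
theorem block_traces {ρ : Matrix (Bool × d) (Bool × d) ℂ} (hρ : IsDensity ρ) :
    (block ρ false false).trace.re = 1 - (block ρ true true).trace.re ∧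
      0 ≤ (block ρ true true).trace.re ∧ (block ρ true true).trace.re ≤ 1 := by
  have h := Plumb.trace_eq_block_bool ρ
  rw [hρ.2] at h
  have h' := congrArg Complex.re h
  simp only [Complex.one_re, Complex.add_re] at h'
  have h0 := trace_re_nonneg (Plumb.block_posSemidef hρ.1 false)
  have h1 := trace_re_nonneg (Plumb.block_posSemidef hρ.1 true)
  exact ⟨by linarith, h1, by linarith⟩

/-- `(L')` transported through `id ⊗ Ψ`. -/
theorem entropy_lower {γ ν : ℝ} (hL : Lprime γ ν) {Ψ : Matrix d d ℂ → Matrix e e ℂ}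
    (hΨ : IsChannel Ψ) {ρ : Matrix (Bool × d) (Bool × d) ℂ} (hρ : IsDensity ρ) :
    fOut γ ν ((block ρ true true).trace.re) + vnEntropy (Ψ (block ρ false false))
        + vnEntropy (Ψ (block ρ true true)) - Real.binEntropy ((block ρ true true).trace.re)
      ≤ vnEntropy (qubitTensor (gadMap γ ν) Ψ ρ) := by
  have h := hL e (blockwise (k := Bool) Ψ ρ) (Plumb.blockwise_isDensity hΨ hρ)
  rw [Plumb.block_blockwise, Plumb.block_blockwise, hΨ.2.2] at h
  exact h

/-- `(L')` in terms of the normalised blocks. -/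
theorem entropy_lower_norm {γ ν : ℝ} (hL : Lprime γ ν) {Ψ : Matrix d d ℂ → Matrix e e ℂ}
    (hΨ : IsChannel Ψ) {ρ : Matrix (Bool × d) (Bool × d) ℂ} (hρ : IsDensity ρ)
    {σ₀ : Matrix d d ℂ} (h₀ : IsDensity σ₀) :
    fOut γ ν ((block ρ true true).trace.re)
        + (1 - (block ρ true true).trace.re)
            * vnEntropy (Ψ (normState σ₀ (block ρ false false)))
        + (block ρ true true).trace.re * vnEntropy (Ψ (normState σ₀ (block ρ true true)))
      ≤ vnEntropy (qubitTensor (gadMap γ ν) Ψ ρ) := by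
  have h := entropy_lower hL hΨ hρ
  obtain ⟨hx, -, -⟩ := block_traces hρ
  have e0 := entropy_normState hΨ h₀ (Plumb.block_posSemidef hρ.1 false)
  have e1 := entropy_normState hΨ h₀ (Plumb.block_posSemidef hρ.1 true)
  rw [hx] at e0
  rw [Real.binEntropy_eq_negMulLog_add_negMulLog_one_sub] at h
  linarith

/-- **Upper bound for the Holevo information of `gadMap γ ν ⊗ Ψ`**: the rate at the mean excited
population plus the Holevo information of an ensemble for `Ψ`. -/
theorem chi_upper {γ ν : ℝ} (hγ : γ ∈ Set.Icc (0 : ℝ) 1) (hν : ν ∈ Set.Icc (0 : ℝ) 1)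
    (hL : Lprime γ ν) [Nonempty d] {Ψ : Matrix d d ℂ → Matrix e e ℂ} (hΨ : IsChannel Ψ)
    {m : ℕ} {q : Fin m → ℝ} {ρ : Fin m → Matrix (Bool × d) (Bool × d) ℂ} (h : IsEnsemble q ρ) :
    (∑ a, q a * (block (ρ a) true true).trace.re) ∈ Set.Icc (0 : ℝ) 1 ∧
    ∃ (m₂ : ℕ) (q₂ : Fin m₂ → ℝ) (ρ₂ : Fin m₂ → Matrix d d ℂ), IsEnsemble q₂ ρ₂ ∧
      holevoInfo (qubitTensor (gadMap γ ν) Ψ) q ρ ≤
        gadRate γ ν (∑ a, q a * (block (ρ a) true true).trace.re) + holevoInfo Ψ q₂ ρ₂ := by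
  obtain ⟨hq, hq1, hρ⟩ := h
  obtain ⟨σ₀, h₀⟩ := exists_isDensity (d := d)
  set z : Fin m → ℝ := fun a => (block (ρ a) true true).trace.re with hz
  have hbt : ∀ a, (block (ρ a) false false).trace.re = 1 - z a ∧ 0 ≤ z a ∧ z a ≤ 1 :=
    fun a => block_traces (hρ a)
  -- the mean population lies in `[0, 1]`
  have hp0 : 0 ≤ ∑ a, q a * z a := Finset.sum_nonneg fun a _ => mul_nonneg (hq a) (hbt a).2.1
  have hp1 : ∑ a, q a * z a ≤ 1 := by
    calc ∑ a, q a * z a ≤ ∑ a, q a * 1 :=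
          Finset.sum_le_sum fun a _ => mul_le_mul_of_nonneg_left (hbt a).2.2 (hq a)
      _ = 1 := by simp [hq1]
  -- the ensemble for `Ψ`, indexed by `Fin m × Bool`
  let w : Fin m × Bool → ℝ := fun p => q p.1 * (block (ρ p.1) p.2 p.2).trace.re
  let σ : Fin m × Bool → Matrix d d ℂ := fun p => normState σ₀ (block (ρ p.1) p.2 p.2)
  have hw : ∀ p, 0 ≤ w p := fun p =>
    mul_nonneg (hq p.1) (trace_re_nonneg (Plumb.block_posSemidef (hρ p.1).1 p.2))
  have hw1 : ∑ p, w p = 1 := by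
    rw [Fintype.sum_prod_type]
    simp only [w, Fintype.sum_bool]
    rw [← hq1]
    refine Finset.sum_congr rfl fun a _ => ?_
    rw [(hbt a).1]
    ring
  have hσ : ∀ p, IsDensity (σ p) := fun p =>
    normState_isDensity h₀ (Plumb.block_posSemidef (hρ p.1).1 p.2)
  obtain ⟨m₂, q₂, ρ₂, hens, hχ⟩ := exists_fin_ensemble Ψ w σ hw hw1 hσ
  refine ⟨⟨hp0, hp1⟩, m₂, q₂, ρ₂, hens, ?_⟩
  -- notation
  set N : Fin m → Matrix (Bool × e) (Bool × e) ℂ :=
    fun a => qubitTensor (gadMap γ ν) Ψ (ρ a) with hN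
  set Nbar : Matrix (Bool × e) (Bool × e) ℂ := ∑ a, (q a : ℂ) • N a with hNbar
  have hNd : IsDensity Nbar :=
    isDensity_sum_smul hq hq1 fun a => Plumb.qubitTensor_gad_isDensity hγ hν hΨ (hρ a)
  have hsub := vnEntropy_subadditive_density Nbar hNd
  -- the average output of the `Ψ`-ensemble is the second marginal
  have hmid : ∀ a, Ψ (block (ρ a) true true) + Ψ (block (ρ a) false false)
      = ∑ s, block (N a) s s := by
    intro a
    rw [hN, Plumb.sum_block_qubitTensor_gad γ ν hΨ.1 (ρ a), Fintype.sum_bool, hΨ.1.map_add]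
  have hR : ∑ s, block Nbar s s = ∑ p, (w p : ℂ) • Ψ (σ p) := by
    have h1 : ∑ s, block Nbar s s = ∑ a, (q a : ℂ) • ∑ s, block (N a) s s := by
      rw [hNbar]
      simp only [Plumb.block_sum_smul, Finset.smul_sum]
      exact Finset.sum_comm
    have h2 : ∑ p, (w p : ℂ) • Ψ (σ p)
        = ∑ a, (q a : ℂ) • (Ψ (block (ρ a) true true) + Ψ (block (ρ a) false false)) := by
      rw [Fintype.sum_prod_type]
      refine Finset.sum_congr rfl fun a _ => ?_
      rw [Fintype.sum_bool]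
      simp only [w, σ]
      rw [Complex.ofReal_mul, Complex.ofReal_mul, mul_smul, mul_smul,
        channel_smul_normState hΨ σ₀ (Plumb.block_posSemidef (hρ a).1 true),
        channel_smul_normState hΨ σ₀ (Plumb.block_posSemidef (hρ a).1 false), smul_add]
    rw [h1, h2]
    exact Finset.sum_congr rfl fun a _ => by rw [hmid a]
  -- the first marginal is `gadMap` of the average qubit marginal
  set τbar : Matrix Bool Bool ℂ := ∑ a, (q a : ℂ) • margL (ρ a) with hτbar
  have hτd : IsDensity τbar :=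
    isDensity_sum_smul hq hq1 fun a => margL_isDensity (ρ a) (hρ a)
  have hLm : (Matrix.of fun s t => (block Nbar s t).trace : Matrix Bool Bool ℂ)
      = gadMap γ ν τbar := by
    rw [hτbar, q1_gadMap_sum_smul γ ν Finset.univ (fun a => (q a : ℂ)) (fun a => margL (ρ a))]
    have h1 : ∀ a, gadMap γ ν (margL (ρ a))
        = (Matrix.of fun s t => (block (N a) s t).trace : Matrix Bool Bool ℂ) := by
      intro a
      rw [hN, Plumb.of_trace_block_qubitTensor_gad γ ν hΨ.2.2 (ρ a)]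
      rfl
    simp only [h1]
    ext s t
    simp only [hNbar, Plumb.block_sum_smul, Matrix.of_apply, Matrix.trace_sum, Matrix.trace_smul,
      Matrix.sum_apply, Matrix.smul_apply]
  have hτp : (τbar true true).re = ∑ a, q a * z a := by
    simp only [hτbar, Matrix.sum_apply, Matrix.smul_apply, smul_eq_mul, Complex.re_sum,
      Complex.re_ofReal_mul, hz]
    rfl
  have hqub := q1_gadMap_entropy_le hγ hν hτd
  rw [hτp] at hqub
  -- the lower bounds for the individual outputs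
  have hlow : ∀ a, fOut γ ν (z a) + vnEntropy (Ψ (block (ρ a) false false))
      + vnEntropy (Ψ (block (ρ a) true true)) - Real.binEntropy (z a) ≤ vnEntropy (N a) :=
    fun a => entropy_lower hL hΨ (hρ a)
  have hsum2 : ∑ p, w p * vnEntropy (Ψ (σ p))
      = ∑ a, q a * (vnEntropy (Ψ (block (ρ a) false false))
          + vnEntropy (Ψ (block (ρ a) true true)) - Real.binEntropy (z a)) := by
    rw [Fintype.sum_prod_type]
    refine Finset.sum_congr rfl fun a _ => ?_
    rw [Fintype.sum_bool]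
    simp only [w, σ]
    have e0 := entropy_normState hΨ h₀ (Plumb.block_posSemidef (hρ a).1 false)
    have e1 := entropy_normState hΨ h₀ (Plumb.block_posSemidef (hρ a).1 true)
    rw [(hbt a).1] at e0
    rw [mul_assoc, mul_assoc, e1, (hbt a).1, e0,
      Real.binEntropy_eq_negMulLog_add_negMulLog_one_sub]
    ring
  have hjen : fOut γ ν (∑ a, q a * z a) ≤ ∑ a, q a * fOut γ ν (z a) :=
    fOut_jensen hγ hν Finset.univ q z (fun a _ => hq a) hq1
      (fun a _ => ⟨(hbt a).2.1, (hbt a).2.2⟩)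
  have hsumN : ∑ a, q a * fOut γ ν (z a)
      + ∑ a, q a * (vnEntropy (Ψ (block (ρ a) false false))
          + vnEntropy (Ψ (block (ρ a) true true)) - Real.binEntropy (z a))
      ≤ ∑ a, q a * vnEntropy (N a) := by
    rw [← Finset.sum_add_distrib]
    refine Finset.sum_le_sum fun a _ => ?_
    rw [← mul_add]
    exact mul_le_mul_of_nonneg_left (by linarith [hlow a]) (hq a)
  have hχ1 : holevoInfo (qubitTensor (gadMap γ ν) Ψ) q ρ
      = vnEntropy Nbar - ∑ a, q a * vnEntropy (N a) := rfl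
  have hpz : ∑ a, q a * (block (ρ a) true true).trace.re = ∑ a, q a * z a := rfl
  rw [hχ1, hχ, gadRate_eq, ← hR, hsum2, hpz]
  rw [hLm] at hsub
  linarith

/-- **`S0535`, clause (1)** (exact text), from `Lprime γ ν`. -/
theorem clause1 {γ ν : ℝ} (hγ : γ ∈ Set.Icc (0 : ℝ) 1) (hν : ν ∈ Set.Icc (0 : ℝ) 1)
    (hL : Lprime γ ν) [Nonempty d] {Ψ : Matrix d d ℂ → Matrix e e ℂ} (hΨ : IsChannel Ψ) :
    ∀ (m : ℕ) (q : Fin m → ℝ) (ρ : Fin m → Matrix (Bool × d) (Bool × d) ℂ), IsEnsemble q ρ →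
      ∀ ε > (0 : ℝ), ∃ (m₁ : ℕ) (q₁ : Fin m₁ → ℝ) (ρ₁ : Fin m₁ → Matrix Bool Bool ℂ)
        (m₂ : ℕ) (q₂ : Fin m₂ → ℝ) (ρ₂ : Fin m₂ → Matrix d d ℂ),
        IsEnsemble q₁ ρ₁ ∧ IsEnsemble q₂ ρ₂ ∧
          holevoInfo (qubitTensor (gadMap γ ν) Ψ) q ρ ≤
            holevoInfo (gadMap γ ν) q₁ ρ₁ + holevoInfo Ψ q₂ ρ₂ + ε := by
  intro m q ρ h ε hε
  obtain ⟨hp, m₂, q₂, ρ₂, h₂, hle⟩ := chi_upper hγ hν hL hΨ h
  obtain ⟨m₁, q₁, ρ₁, h₁, hle₁⟩ := gad_single_lower γ ν hγ hν _ hp
  exact ⟨m₁, q₁, ρ₁, m₂, q₂, ρ₂, h₁, h₂, by linarith⟩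

/-- **`S0535`, clause (3)** (exact text), from `Lprime γ ν`. -/
theorem clause3 {γ ν : ℝ} (hγ : γ ∈ Set.Icc (0 : ℝ) 1) (hL : Lprime γ ν) [Nonempty d]
    {Ψ : Matrix d d ℂ → Matrix e e ℂ} (hΨ : IsChannel Ψ) :
    ∀ ρ : Matrix (Bool × d) (Bool × d) ℂ, IsDensity ρ → ∀ ε > (0 : ℝ),
      ∃ (ρ₁ : Matrix Bool Bool ℂ) (ρ₂ : Matrix d d ℂ), IsDensity ρ₁ ∧ IsDensity ρ₂ ∧
        vnEntropy (gadMap γ ν ρ₁) + vnEntropy (Ψ ρ₂)
          ≤ vnEntropy (qubitTensor (gadMap γ ν) Ψ ρ) + ε := by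
  intro ρ hρ ε hε
  obtain ⟨σ₀, h₀⟩ := exists_isDensity (d := d)
  obtain ⟨-, hz0, hz1⟩ := block_traces hρ
  have h := entropy_lower_norm hL hΨ hρ h₀
  have hψ : IsDensity (q1Psi (block ρ true true).trace.re 1) :=
    q1Psi_isDensity _ 1 ⟨hz0, hz1⟩ (by norm_num)
  have hent : vnEntropy (gadMap γ ν (q1Psi (block ρ true true).trace.re 1))
      = fOut γ ν (block ρ true true).trace.re :=
    (q1Psi_entropy γ ν hγ _ 1 ⟨hz0, hz1⟩ (by norm_num)).trans rfl
  rcases le_total (vnEntropy (Ψ (normState σ₀ (block ρ false false))))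
      (vnEntropy (Ψ (normState σ₀ (block ρ true true)))) with h01 | h10
  · refine ⟨_, normState σ₀ (block ρ false false), hψ,
      normState_isDensity h₀ (Plumb.block_posSemidef hρ.1 false), ?_⟩
    rw [hent]
    nlinarith [mul_le_mul_of_nonneg_left h01 hz0]
  · refine ⟨_, normState σ₀ (block ρ true true), hψ,
      normState_isDensity h₀ (Plumb.block_posSemidef hρ.1 true), ?_⟩
    rw [hent]
    nlinarith [mul_le_mul_of_nonneg_left h10 (sub_nonneg.2 hz1)]

end Core

end Crest.Agent.GAD.Tail56
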